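import Mathlib
import Crest.Prelude.Def_QuadraticTransport

/-!
# Laguerre cells of a max-affine potential on a convex body (for S0109, step D)

`cell K y ψ j = {x ∈ K | j attains max_i (⟪x, y i⟫ - ψ i)}`, its mass and first moment with respect to
`uniformProbOn K`, and the basic facts (measurability, covering, null overlaps, midpoint inclusion).
-/

set_option autoImplicit false
open MeasureTheory Set
open scoped ENNReal NNReal RealInnerProductSpace
open Crest.AnalysisR.OT

namespace Crest.Agent.S0109Aux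

section rho

variable {d : ℕ} {K : Set (EuclideanSpace ℝ (Fin d))}

lemma uP_isProbabilityMeasure (h0 : volume K ≠ 0) (ht : volume K ≠ ∞) :
    IsProbabilityMeasure (uniformProbOn K) := by
  constructor
  simp [uniformProbOn, ENNReal.inv_mul_cancel h0 ht]

lemma uP_absolutelyContinuous : uniformProbOn K ≪ volume := by
  unfold uniformProbOn
  exact (Measure.restrict_le_self.absolutelyContinuous).smul_left _

lemma uP_ae_mem (hKm : MeasurableSet K) : ∀ᵐ x ∂(uniformProbOn K), x ∈ K := by
  unfold uniformProbOn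
  exact Measure.ae_smul_measure (ae_restrict_mem hKm) _

lemma uP_volume_ne_zero (hKi : (interior K).Nonempty) : volume K ≠ 0 := by
  have h1 : 0 < volume (interior K) := isOpen_interior.measure_pos volume hKi
  exact (lt_of_lt_of_le h1 (measure_mono interior_subset)).ne'

end rho

section cells

variable {d : ℕ} {ι : Type*} {K : Set (EuclideanSpace ℝ (Fin d))}
  {y : ι → EuclideanSpace ℝ (Fin d)} {ψ : ι → ℝ} {j : ι}

/-- The Laguerre cell of index `j`: points of `K` where `j` attains `max_i (⟪x, y i⟫ - ψ i)`. -/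
def cell (K : Set (EuclideanSpace ℝ (Fin d))) (y : ι → EuclideanSpace ℝ (Fin d)) (ψ : ι → ℝ)
    (j : ι) : Set (EuclideanSpace ℝ (Fin d)) :=
  {x | x ∈ K ∧ ∀ i, ⟪x, y i⟫ - ψ i ≤ ⟪x, y j⟫ - ψ j}

/-- mass of a cell -/
noncomputable def cellMass (K : Set (EuclideanSpace ℝ (Fin d)))
    (y : ι → EuclideanSpace ℝ (Fin d)) (ψ : ι → ℝ) (j : ι) : ℝ :=
  (uniformProbOn K (cell K y ψ j)).toReal

/-- first moment of a cell -/
noncomputable def cellMoment (K : Set (EuclideanSpace ℝ (Fin d)))
    (y : ι → EuclideanSpace ℝ (Fin d)) (ψ : ι → ℝ) (j : ι) : EuclideanSpace ℝ (Fin d) :=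
  ∫ x in cell K y ψ j, x ∂(uniformProbOn K)

lemma cell_subset : cell K y ψ j ⊆ K := fun _ hx => hx.1

lemma measurableSet_cell [Countable ι] (hKm : MeasurableSet K) :
    MeasurableSet (cell K y ψ j) := by
  have : cell K y ψ j = K ∩ ⋂ i, {x | ⟪x, y i⟫ - ψ i ≤ ⟪x, y j⟫ - ψ j} := by
    ext x; simp [cell]
  rw [this]
  exact hKm.inter (MeasurableSet.iInter fun i => measurableSet_le (by fun_prop) (by fun_prop))

lemma iUnion_cell [Finite ι] [Nonempty ι] : ⋃ j, cell K y ψ j = K := by
  apply Subset.antisymm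
  · exact iUnion_subset fun j => cell_subset
  · intro x hx
    obtain ⟨j, hj⟩ := Finite.exists_max (fun i => ⟪x, y i⟫ - ψ i)
    exact mem_iUnion.2 ⟨j, hx, hj⟩

lemma cell_midpoint (hKv : Convex ℝ K) {ψ0 ψ1 : ι → ℝ} {x0 x1 : EuclideanSpace ℝ (Fin d)}
    (h0 : x0 ∈ cell K y ψ0 j) (h1 : x1 ∈ cell K y ψ1 j) :
    (1 / 2 : ℝ) • (x0 + x1) ∈ cell K y (fun i => (ψ0 i + ψ1 i) / 2) j := by
  refine ⟨?_, fun i => ?_⟩
  · have := hKv h0.1 h1.1 (by norm_num : (0 : ℝ) ≤ 1 / 2) (by norm_num : (0 : ℝ) ≤ 1 / 2)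
      (by norm_num)
    rwa [← smul_add] at this
  · have a0 := h0.2 i
    have a1 := h1.2 i
    simp only [inner_smul_left, inner_add_left]
    simp only [map_div₀, map_one, map_ofNat]
    linarith

lemma volume_hyperplane_eq_zero {v : EuclideanSpace ℝ (Fin d)} (hv : v ≠ 0) (c : ℝ) :
    volume {x : EuclideanSpace ℝ (Fin d) | ⟪x, v⟫ = c} = 0 := by
  set x0 : EuclideanSpace ℝ (Fin d) := (c / ⟪v, v⟫) • v with hx0
  have hvv : ⟪v, v⟫ ≠ 0 := inner_self_ne_zero.2 hv
  set S : Submodule ℝ (EuclideanSpace ℝ (Fin d)) := (ℝ ∙ v)ᗮ with hS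
  have hStop : S ≠ ⊤ := by
    intro h
    have : v ∈ S := by rw [h]; trivial
    rw [hS, Submodule.mem_orthogonal_singleton_iff_inner_right] at this
    exact hvv this
  have hset : {x : EuclideanSpace ℝ (Fin d) | ⟪x, v⟫ = c} = (fun x => x + (-x0)) ⁻¹' (S : Set _) := by
    ext x
    simp only [mem_ofPred_eq, mem_preimage, SetLike.mem_coe]
    rw [hS, Submodule.mem_orthogonal_singleton_iff_inner_left, inner_add_left, inner_neg_left, hx0,
      inner_smul_left]
    simp only [conj_trivial]
    rw [div_mul_cancel₀ _ hvv]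
    constructor
    · intro h; linarith
    · intro h; linarith
  rw [hset, measure_preimage_add_right]
  exact Measure.addHaar_submodule volume S hStop

lemma aedisjoint_cell (hy : Function.Injective y) {i j : ι} (hij : i ≠ j) :
    AEDisjoint (uniformProbOn K) (cell K y ψ i) (cell K y ψ j) := by
  apply uP_absolutelyContinuous
  have hv : y i - y j ≠ 0 := sub_ne_zero.2 (fun h => hij (hy h))
  refine measure_mono_null ?_ (volume_hyperplane_eq_zero hv (ψ i - ψ j))
  rintro x ⟨hi, hj⟩
  have a := hi.2 j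
  have b := hj.2 i
  simp only [mem_ofPred_eq, inner_sub_right]
  linarith

/-- Integrals over the cells add up to the full integral. -/
lemma sum_setIntegral_cell [Fintype ι] [Nonempty ι] (hKm : MeasurableSet K)
    (hy : Function.Injective y) {G : Type*} [NormedAddCommGroup G] [NormedSpace ℝ G]
    {F : EuclideanSpace ℝ (Fin d) → G} (hF : Integrable F (uniformProbOn K)) :
    ∑ j, ∫ x in cell K y ψ j, F x ∂(uniformProbOn K) = ∫ x, F x ∂(uniformProbOn K) := by
  have h1 := integral_iUnion_ae (μ := uniformProbOn K) (f := F) (s := fun j => cell K y ψ j)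
    (fun j => (measurableSet_cell hKm).nullMeasurableSet)
    (fun i j hij => aedisjoint_cell hy hij) hF.integrableOn
  rw [tsum_fintype, iUnion_cell] at h1
  rw [← h1]
  exact setIntegral_eq_integral_of_ae_compl_eq_zero
    ((uP_ae_mem hKm).mono fun x hx hx' => absurd hx hx')

lemma cellMass_nonneg : 0 ≤ cellMass K y ψ j := ENNReal.toReal_nonneg

lemma cellMass_eq_integral :
    cellMass K y ψ j = ∫ _ in cell K y ψ j, (1 : ℝ) ∂(uniformProbOn K) := by
  simp [cellMass, Measure.real]

lemma sum_cellMass [Fintype ι] [Nonempty ι] (hKm : MeasurableSet K) (h0 : volume K ≠ 0)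
    (ht : volume K ≠ ∞) (hy : Function.Injective y) : ∑ j, cellMass K y ψ j = 1 := by
  have := uP_isProbabilityMeasure h0 ht
  simp only [cellMass_eq_integral]
  rw [sum_setIntegral_cell hKm hy (integrable_const _)]
  simp

lemma norm_cellMoment_le (h0 : volume K ≠ 0) (ht : volume K ≠ ∞) {R : ℝ}
    (hR : ∀ x ∈ K, ‖x‖ ≤ R) : ‖cellMoment K y ψ j‖ ≤ R * cellMass K y ψ j := by
  have := uP_isProbabilityMeasure h0 ht
  exact norm_setIntegral_le_of_norm_le_const (measure_lt_top _ _) (fun x hx => hR x hx.1)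

/-- A function bounded on `K` and a.e.-strongly measurable is integrable for `uniformProbOn K`. -/
lemma uP_integrable_of_bound (hKm : MeasurableSet K) (h0 : volume K ≠ 0) (ht : volume K ≠ ∞)
    {G : Type*} [NormedAddCommGroup G] {F : EuclideanSpace ℝ (Fin d) → G}
    (hF : AEStronglyMeasurable F (uniformProbOn K)) {C : ℝ} (hC : ∀ x ∈ K, ‖F x‖ ≤ C) :
    Integrable F (uniformProbOn K) := by
  have := uP_isProbabilityMeasure h0 ht
  exact Integrable.of_bound hF C ((uP_ae_mem hKm).mono fun x hx => hC x hx)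

end cells

end Crest.Agent.S0109Aux
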