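import Mathlib
import Crest.Prelude.Def_QuadraticTransport
import Crest.Agent.S0109Aux.Cells

/-!
# Optimal maps to finitely supported measures are Laguerre maps (S0109, task D5)
-/

set_option autoImplicit false
open MeasureTheory Set
open scoped ENNReal NNReal RealInnerProductSpace
open Crest.AnalysisR.OT

namespace Crest.Agent.S0109Aux

section duality

variable {d : ℕ}

local notation "E" => EuclideanSpace ℝ (Fin d)

/-- pointwise identity behind the duality argument (with weights) -/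
theorem key_identity_w (R M : ℝ) (hM : 0 ≤ M) (x z : E) (fx gz : ℝ) (hfx : fx ≤ R ^ 2 + M)
    (hgz : gz ≤ M) (hz : ⟪x, z⟫ ≤ fx + gz) :
    ‖x - z‖ₑ ^ 2 + ENNReal.ofReal (2 * R ^ 2 + 4 * M) =
      ENNReal.ofReal (‖x‖ ^ 2 + 2 * R ^ 2 + 2 * M - 2 * fx)
        + ENNReal.ofReal (‖z‖ ^ 2 + 2 * M - 2 * gz)
        + ENNReal.ofReal (2 * (fx + gz - ⟪x, z⟫)) := by
  have h1 : ‖x - z‖ₑ ^ 2 = ENNReal.ofReal (‖x - z‖ ^ 2) := by
    rw [← ofReal_norm, ENNReal.ofReal_pow (norm_nonneg _)]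
  rw [h1, ← ENNReal.ofReal_add (by positivity) (by positivity),
    ← ENNReal.ofReal_add (by nlinarith [sq_nonneg ‖x‖]) (by nlinarith [sq_nonneg ‖z‖]),
    ← ENNReal.ofReal_add (by nlinarith [sq_nonneg ‖x‖, sq_nonneg ‖z‖]) (by linarith)]
  congr 1
  rw [norm_sub_sq_real]
  ring

/-- Kantorovich duality, easy direction, with a dual potential `g` on the target side. -/
theorem duality_w {ρ : Measure E} [IsProbabilityMeasure ρ] (R M : ℝ) (hM : 0 ≤ M)
    (hρ : ∀ᵐ x ∂ρ, ‖x‖ ≤ R)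
    (f g : E → ℝ) (hg : Measurable g) (Ys : Set E) (hYs : MeasurableSet Ys)
    (hYb : ∀ z ∈ Ys, ‖z‖ ≤ R) (hgM : ∀ z ∈ Ys, |g z| ≤ M)
    (hf : ∀ x, ∀ z ∈ Ys, ⟪x, z⟫ ≤ f x + g z)
    (T₀ : E → E) (hT₀ : Measurable T₀) (hT₀Y : ∀ x, T₀ x ∈ Ys)
    (hT₀f : ∀ x, ⟪x, T₀ x⟫ = f x + g (T₀ x)) :
    IsOptimalMap ρ (ρ.map T₀) T₀ ∧
      ∀ T, IsOptimalMap ρ (ρ.map T₀) T → ∀ᵐ x ∂ρ, T x ∈ Ys ∧ ⟪x, T x⟫ = f x + g (T x) := by
  have hfm : Measurable f := by
    have : f = fun x => ⟪x, T₀ x⟫ - g (T₀ x) := by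
      funext x; rw [hT₀f x]; ring
    rw [this]
    exact (measurable_id.inner hT₀).sub (hg.comp hT₀)
  have hfR : ∀ᵐ x ∂ρ, f x ≤ R ^ 2 + M := by
    filter_upwards [hρ] with x hx
    have h1 : ⟪x, T₀ x⟫ ≤ R ^ 2 := by
      calc ⟪x, T₀ x⟫ ≤ ‖x‖ * ‖T₀ x‖ := real_inner_le_norm _ _
        _ ≤ R * R := by
            apply mul_le_mul hx (hYb _ (hT₀Y x)) (norm_nonneg _) (le_trans (norm_nonneg _) hx)
        _ = R ^ 2 := by ring
    have h2 := (abs_le.1 (hgM _ (hT₀Y x))).1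
    have h3 := hT₀f x
    linarith
  -- the constants
  set A : ℝ≥0∞ := ∫⁻ x, ENNReal.ofReal (‖x‖ ^ 2 + 2 * R ^ 2 + 2 * M - 2 * f x) ∂ρ with hA
  set B : ℝ≥0∞ := ∫⁻ z, ENNReal.ofReal (‖z‖ ^ 2 + 2 * M - 2 * g z) ∂(ρ.map T₀) with hB
  set c : ℝ≥0∞ := ENNReal.ofReal (2 * R ^ 2 + 4 * M) with hc
  have hcfin : c ≠ ∞ := ENNReal.ofReal_ne_top
  -- general formula
  have hgen : ∀ S : E → E, Measurable S → ρ.map S = ρ.map T₀ →
      (∀ᵐ x ∂ρ, S x ∈ Ys) ∧
      (∫⁻ x, ‖x - S x‖ₑ ^ 2 ∂ρ) + c =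
        A + B + ∫⁻ x, ENNReal.ofReal (2 * (f x + g (S x) - ⟪x, S x⟫)) ∂ρ := by
    intro S hS hSm
    have hSY : ∀ᵐ x ∂ρ, S x ∈ Ys := by
      have h0 : (ρ.map T₀) Ysᶜ = 0 := by
        rw [Measure.map_apply hT₀ hYs.compl]
        have : T₀ ⁻¹' Ysᶜ = ∅ := by
          ext x; simp [hT₀Y x]
        rw [this]; simp
      rw [← hSm, Measure.map_apply hS hYs.compl] at h0
      rw [ae_iff]
      exact h0
    refine ⟨hSY, ?_⟩
    have hBS : B = ∫⁻ x, ENNReal.ofReal (‖S x‖ ^ 2 + 2 * M - 2 * g (S x)) ∂ρ := by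
      rw [hB, ← hSm, lintegral_map (by fun_prop) hS]
    have hm1 : Measurable fun x : E =>
        ENNReal.ofReal (‖x‖ ^ 2 + 2 * R ^ 2 + 2 * M - 2 * f x) := by
      fun_prop
    have hm2 : Measurable fun x : E => ENNReal.ofReal (‖S x‖ ^ 2 + 2 * M - 2 * g (S x)) := by
      fun_prop
    have hm3 : Measurable fun x : E => ‖x - S x‖ₑ ^ 2 := by fun_prop
    calc (∫⁻ x, ‖x - S x‖ₑ ^ 2 ∂ρ) + c
        = ∫⁻ x, (‖x - S x‖ₑ ^ 2 + c) ∂ρ := by
          rw [lintegral_add_left hm3, lintegral_const, measure_univ, mul_one]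
      _ = ∫⁻ x, (ENNReal.ofReal (‖x‖ ^ 2 + 2 * R ^ 2 + 2 * M - 2 * f x)
            + ENNReal.ofReal (‖S x‖ ^ 2 + 2 * M - 2 * g (S x))
            + ENNReal.ofReal (2 * (f x + g (S x) - ⟪x, S x⟫))) ∂ρ := by
          apply lintegral_congr_ae
          filter_upwards [hfR, hSY] with x hfx hSx
          exact key_identity_w R M hM x (S x) (f x) (g (S x)) hfx
            ((abs_le.1 (hgM _ hSx)).2) (hf x _ hSx)
      _ = A + B + ∫⁻ x, ENNReal.ofReal (2 * (f x + g (S x) - ⟪x, S x⟫)) ∂ρ := by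
          have hm12 : Measurable fun x : E =>
              ENNReal.ofReal (‖x‖ ^ 2 + 2 * R ^ 2 + 2 * M - 2 * f x)
                + ENNReal.ofReal (‖S x‖ ^ 2 + 2 * M - 2 * g (S x)) := hm1.add hm2
          rw [lintegral_add_left hm12, lintegral_add_left hm1, hBS]
  have hT₀gen := (hgen T₀ hT₀ rfl).2
  have hzero : ∫⁻ x, ENNReal.ofReal (2 * (f x + g (T₀ x) - ⟪x, T₀ x⟫)) ∂ρ = 0 := by
    simp [hT₀f]
  rw [hzero, add_zero] at hT₀gen
  have hcost_fin : (∫⁻ x, ‖x - T₀ x‖ₑ ^ 2 ∂ρ) ≠ ∞ := by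
    have : (∫⁻ x, ‖x - T₀ x‖ₑ ^ 2 ∂ρ) ≤ ∫⁻ x, ENNReal.ofReal ((2 * R) ^ 2) ∂ρ := by
      apply lintegral_mono_ae
      filter_upwards [hρ] with x hx
      rw [← ofReal_norm, ← ENNReal.ofReal_pow (norm_nonneg _)]
      apply ENNReal.ofReal_le_ofReal
      have h1 : ‖x - T₀ x‖ ≤ 2 * R := by
        calc ‖x - T₀ x‖ ≤ ‖x‖ + ‖T₀ x‖ := norm_sub_le _ _
          _ ≤ R + R := add_le_add hx (hYb _ (hT₀Y x))
          _ = 2 * R := by ring
      exact pow_le_pow_left₀ (norm_nonneg _) h1 2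
    refine ne_top_of_le_ne_top ?_ this
    rw [lintegral_const, measure_univ, mul_one]
    exact ENNReal.ofReal_ne_top
  constructor
  · refine ⟨hT₀, rfl, ?_⟩
    intro S hS hSm
    have h := (hgen S hS hSm).2
    rw [← hT₀gen] at h
    have : (∫⁻ x, ‖x - T₀ x‖ₑ ^ 2 ∂ρ) + c ≤ (∫⁻ x, ‖x - S x‖ₑ ^ 2 ∂ρ) + c := by
      rw [h]; exact le_self_add
    exact (ENNReal.add_le_add_iff_right hcfin).1 this
  · intro T hT
    obtain ⟨hTm, hTmap, hTopt⟩ := hT
    obtain ⟨hTY, h⟩ := hgen T hTm hTmap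
    rw [← hT₀gen] at h
    have hle := hTopt T₀ hT₀ rfl
    have hG : ∫⁻ x, ENNReal.ofReal (2 * (f x + g (T x) - ⟪x, T x⟫)) ∂ρ = 0 := by
      by_contra hne
      have hfin : (∫⁻ x, ‖x - T₀ x‖ₑ ^ 2 ∂ρ) + c ≠ ∞ := ENNReal.add_ne_top.2 ⟨hcost_fin, hcfin⟩
      have h1 : (∫⁻ x, ‖x - T₀ x‖ₑ ^ 2 ∂ρ) + c <
          (∫⁻ x, ‖x - T₀ x‖ₑ ^ 2 ∂ρ) + c
            + ∫⁻ x, ENNReal.ofReal (2 * (f x + g (T x) - ⟪x, T x⟫)) ∂ρ :=
        ENNReal.lt_add_right hfin hne
      rw [← h] at h1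
      have h2 : (∫⁻ x, ‖x - T x‖ₑ ^ 2 ∂ρ) + c ≤ (∫⁻ x, ‖x - T₀ x‖ₑ ^ 2 ∂ρ) + c := by
        gcongr
      exact absurd h1 (not_lt.2 h2)
    have hmeas : Measurable fun x : E => ENNReal.ofReal (2 * (f x + g (T x) - ⟪x, T x⟫)) := by
      have h1 : Measurable fun x : E => (⟪x, T x⟫ : ℝ) := measurable_id.inner hTm
      have h2 : Measurable fun x : E => g (T x) := hg.comp hTm
      fun_prop
    rw [lintegral_eq_zero_iff hmeas] at hG
    filter_upwards [hG, hTY] with x hx hxY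
    refine ⟨hxY, ?_⟩
    have h3 : f x + g (T x) ≤ ⟪x, T x⟫ := by
      simpa using hx
    have h4 := hf x _ hxY
    linarith

end duality

section atomic

variable {d : ℕ} {ι : Type*} [Fintype ι] [Nonempty ι]

local notation "E" => EuclideanSpace ℝ (Fin d)

/-- unrestricted Laguerre cell -/
def cellU (y : ι → E) (ψ : ι → ℝ) (j : ι) : Set E :=
  {x | ∀ i, ⟪x, y i⟫ - ψ i ≤ ⟪x, y j⟫ - ψ j}

omit [Nonempty ι] in
lemma measurableSet_cellU (y : ι → E) (ψ : ι → ℝ) (j : ι) : MeasurableSet (cellU y ψ j) := by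
  have : cellU y ψ j = ⋂ i, {x | ⟪x, y i⟫ - ψ i ≤ ⟪x, y j⟫ - ψ j} := by
    ext x; simp [cellU]
  rw [this]
  exact MeasurableSet.iInter fun i => measurableSet_le (by fun_prop) (by fun_prop)

/-- measurable selection of a maximising index. -/
theorem exists_sel (y : ι → E) (ψ : ι → ℝ) :
    ∃ sel : E → ι, (∀ i, MeasurableSet (sel ⁻¹' {i})) ∧ ∀ x, x ∈ cellU y ψ (sel x) := by
  classical
  set n := Fintype.card ι with hn
  let e : ι ≃ Fin n := Fintype.equivFin ι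
  let p : E → ℕ → Prop := fun x k => ∃ i, ((e i : Fin n) : ℕ) = k ∧ x ∈ cellU y ψ i
  have hp : ∀ x, ∃ N, p x N := by
    intro x
    obtain ⟨j, hj⟩ := Finite.exists_max (fun i => ⟪x, y i⟫ - ψ i)
    exact ⟨_, j, rfl, hj⟩
  have hm : ∀ k, MeasurableSet {x | p x k} := by
    intro k
    have : {x | p x k} = ⋃ i, {x | ((e i : Fin n) : ℕ) = k ∧ x ∈ cellU y ψ i} := by
      ext x; simp [p]
    rw [this]
    refine MeasurableSet.iUnion fun i => ?_
    by_cases h : ((e i : Fin n) : ℕ) = k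
    · simpa [h] using measurableSet_cellU y ψ i
    · simp [h]
  have hfind : Measurable fun x => Nat.find (hp x) := measurable_find hp hm
  let idxF : ℕ → ι := fun k => if h : k < n then e.symm ⟨k, h⟩ else Classical.arbitrary ι
  refine ⟨fun x => idxF (Nat.find (hp x)), fun i => ?_, fun x => ?_⟩
  · have : (fun x => idxF (Nat.find (hp x))) ⁻¹' {i} = (fun x => Nat.find (hp x)) ⁻¹' (idxF ⁻¹' {i}) := by
      ext x; simp
    rw [this]
    exact hfind (MeasurableSet.of_discrete)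
  · obtain ⟨i, hi, hx⟩ := Nat.find_spec (hp x)
    have : idxF (Nat.find (hp x)) = i := by
      simp only [idxF]
      rw [← hi]
      simp
    simpa [this] using hx

variable {K : Set (EuclideanSpace ℝ (Fin d))}

omit [Fintype ι] [Nonempty ι] in
lemma mem_cell_iff {y : ι → E} {ψ : ι → ℝ} {j : ι} {x : E} :
    x ∈ cell K y ψ j ↔ x ∈ K ∧ x ∈ cellU y ψ j := Iff.rfl

omit [Nonempty ι] in
/-- the level sets of a selection coincide a.e. with the cells -/
lemma sel_preimage_ae_eq (hKm : MeasurableSet K) {y : ι → E} (hy : Function.Injective y)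
    {ψ : ι → ℝ} {sel : E → ι} (hsel : ∀ x, x ∈ cellU y ψ (sel x)) (i : ι) :
    uniformProbOn K (sel ⁻¹' {i}) = uniformProbOn K (cell K y ψ i) := by
  apply measure_congr
  rw [ae_eq_set]
  constructor
  · have hK0 : uniformProbOn K Kᶜ = 0 := by
      have := uP_ae_mem (K := K) hKm
      rwa [ae_iff] at this
    refine measure_mono_null ?_ hK0
    rintro x ⟨hx1, hx2⟩ hxK
    apply hx2
    have : sel x = i := hx1
    exact ⟨hxK, this ▸ hsel x⟩
  · have hnull : uniformProbOn K (⋃ k ∈ {k : ι | k ≠ i}, cell K y ψ i ∩ cell K y ψ k) = 0 := by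
      rw [measure_biUnion_null_iff (Set.to_countable _)]
      intro k hk
      exact aedisjoint_cell hy (Ne.symm hk)
    refine measure_mono_null ?_ hnull
    rintro x ⟨hx1, hx2⟩
    have hne : sel x ≠ i := hx2
    simp only [mem_iUnion]
    exact ⟨sel x, hne, hx1, hx1.1, hsel x⟩

omit [Nonempty ι] in
/-- push-forward of the uniform measure by a Laguerre map -/
lemma map_laguerre (hKm : MeasurableSet K) (h0 : volume K ≠ 0) (ht : volume K ≠ ∞)
    {y : ι → E} (hy : Function.Injective y)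
    {ψ : ι → ℝ} {m : ι → ℝ} (hψ : ∀ i, cellMass K y ψ i = m i)
    {sel : E → ι} (hselm : ∀ i, MeasurableSet (sel ⁻¹' {i}))
    (hsel : ∀ x, x ∈ cellU y ψ (sel x)) (hT₀ : Measurable fun x => y (sel x)) :
    (uniformProbOn K).map (fun x => y (sel x)) =
      ∑ i, ENNReal.ofReal (m i) • Measure.dirac (y i) := by
  classical
  have := uP_isProbabilityMeasure h0 ht
  have hmass : ∀ i, uniformProbOn K (sel ⁻¹' {i}) = ENNReal.ofReal (m i) := by
    intro i
    rw [sel_preimage_ae_eq hKm hy hsel i, ← hψ i, cellMass,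
      ENNReal.ofReal_toReal (measure_ne_top _ _)]
  ext B hB
  rw [Measure.map_apply hT₀ hB]
  simp only [Measure.finsetSum_apply, Measure.smul_apply, Measure.dirac_apply' _ hB, smul_eq_mul]
  have hpre : (fun x => y (sel x)) ⁻¹' B
      = ⋃ i ∈ Finset.univ.filter (fun i => y i ∈ B), sel ⁻¹' {i} := by
    ext x
    simp
  rw [hpre, measure_biUnion_finset]
  · rw [Finset.sum_filter]
    refine Finset.sum_congr rfl fun i _ => ?_
    by_cases h : y i ∈ B
    · simp [h, hmass]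
    · simp [h]
  · intro i _ j _ hij
    exact Disjoint.preimage _ (by simpa using hij)
  · intro i _
    exact hselm i

/-- **Laguerre maps are optimal, and every optimal map to a finitely supported measure is a.e. the
Laguerre map** of any weight vector `ψ` with the right cell masses. -/
theorem laguerre_optimal (hKc : IsCompact K) (hKi : (interior K).Nonempty)
    (y : ι → E) (hy : Function.Injective y) (m : ι → ℝ) (ψ : ι → ℝ)
    (hψ : ∀ i, cellMass K y ψ i = m i) :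
    (∃ T₀ : E → E, IsOptimalMap (uniformProbOn K)
        (∑ i, ENNReal.ofReal (m i) • Measure.dirac (y i)) T₀ ∧
        ∀ x, ∃ i, x ∈ cellU y ψ i ∧ T₀ x = y i) ∧
    ∀ T : E → E, IsOptimalMap (uniformProbOn K)
        (∑ i, ENNReal.ofReal (m i) • Measure.dirac (y i)) T →
      ∀ᵐ x ∂(uniformProbOn K), ∃ i, x ∈ cell K y ψ i ∧ T x = y i := by
  classical
  have hKm : MeasurableSet K := hKc.measurableSet
  have h0 : volume K ≠ 0 := uP_volume_ne_zero hKi
  have ht : volume K ≠ ∞ := hKc.measure_lt_top.ne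
  have := uP_isProbabilityMeasure h0 ht
  obtain ⟨sel, hselm, hsel⟩ := exists_sel y ψ
  obtain ⟨R₁, hR₁⟩ := hKc.isBounded.exists_norm_le
  set R : ℝ := max R₁ (∑ i, ‖y i‖) with hR
  set M : ℝ := ∑ i, |ψ i| with hMdef
  have hM : 0 ≤ M := Finset.sum_nonneg fun i _ => abs_nonneg _
  have hT₀ : Measurable fun x => y (sel x) := by
    let _ : MeasurableSpace ι := ⊤
    have h1 : Measurable sel := measurable_to_countable' hselm
    exact (measurable_from_top (f := y)).comp h1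
  set g : E → ℝ := fun z => ∑ i, Set.indicator {y i} (fun _ => ψ i) z with hgdef
  have hg : Measurable g := by
    apply Finset.measurable_sum
    intro i _
    exact measurable_const.indicator (measurableSet_singleton _)
  have hgy : ∀ i, g (y i) = ψ i := by
    intro i
    simp only [hgdef]
    rw [Finset.sum_eq_single i]
    · simp
    · intro j _ hj
      have : y i ∉ ({y j} : Set E) := by
        simp only [mem_singleton_iff]
        exact fun h => hj (hy h).symm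
      simp [this]
    · simp
  set f : E → ℝ := fun x => ⟪x, y (sel x)⟫ - ψ (sel x) with hfdef
  have hρ : ∀ᵐ x ∂(uniformProbOn K), ‖x‖ ≤ R :=
    (uP_ae_mem hKm).mono fun x hx => (hR₁ x hx).trans (le_max_left _ _)
  have hmap := map_laguerre hKm h0 ht hy hψ hselm hsel hT₀
  have hdual := duality_w (ρ := uniformProbOn K) R M hM hρ f g hg (Set.range y)
    (Set.finite_range y).measurableSet
    (by
      rintro _ ⟨i, rfl⟩
      exact (Finset.single_le_sum (f := fun i => ‖y i‖) (fun i _ => norm_nonneg _)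
        (Finset.mem_univ i)).trans (le_max_right _ _))
    (by
      rintro _ ⟨i, rfl⟩
      rw [hgy]
      exact Finset.single_le_sum (f := fun i => |ψ i|) (fun i _ => abs_nonneg _)
        (Finset.mem_univ i))
    (by
      rintro x _ ⟨i, rfl⟩
      rw [hgy]
      have := hsel x i
      simp only [hfdef]
      linarith)
    (fun x => y (sel x)) hT₀ (fun x => ⟨_, rfl⟩)
    (by
      intro x
      simp only [hfdef, hgy]
      ring)
  rw [hmap] at hdual
  refine ⟨⟨_, hdual.1, fun x => ⟨sel x, hsel x, rfl⟩⟩, fun T hT => ?_⟩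
  filter_upwards [hdual.2 T hT, uP_ae_mem hKm] with x hx hxK
  obtain ⟨⟨i, hi⟩, hx2⟩ := hx
  refine ⟨i, ⟨hxK, fun k => ?_⟩, hi.symm⟩
  rw [← hi, hgy] at hx2
  have := hsel x k
  simp only [hfdef] at hx2
  linarith

/-- D5: every optimal map to `∑ mᵢ δ_{yᵢ}` is a.e. the Laguerre map. -/
theorem atomic_optimal_map (hKc : IsCompact K) (hKi : (interior K).Nonempty)
    (y : ι → E) (hy : Function.Injective y) (m : ι → ℝ) (ψ : ι → ℝ)
    (hψ : ∀ i, cellMass K y ψ i = m i) (T : E → E)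
    (hT : IsOptimalMap (uniformProbOn K) (∑ i, ENNReal.ofReal (m i) • Measure.dirac (y i)) T) :
    ∀ᵐ x ∂(uniformProbOn K), ∃ i, x ∈ cell K y ψ i ∧ T x = y i :=
  (laguerre_optimal hKc hKi y hy m ψ hψ).2 T hT

/-- subgradient form (input of the Gagliardo-Nirenberg step), for the potential `⨆ i, ⟪x, y i⟫ - ψ i`. -/
theorem atomic_optimal_map_subgradient (hKc : IsCompact K) (hKi : (interior K).Nonempty)
    (y : ι → E) (hy : Function.Injective y) (m : ι → ℝ) (ψ : ι → ℝ)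
    (hψ : ∀ i, cellMass K y ψ i = m i) (T : E → E)
    (hT : IsOptimalMap (uniformProbOn K) (∑ i, ENNReal.ofReal (m i) • Measure.dirac (y i)) T) :
    ∀ᵐ x ∂(uniformProbOn K), ∀ z : E,
      (⨆ i, (⟪x, y i⟫ - ψ i)) + ⟪T x, z - x⟫ ≤ ⨆ i, (⟪z, y i⟫ - ψ i) := by
  filter_upwards [atomic_optimal_map hKc hKi y hy m ψ hψ T hT] with x hx z
  obtain ⟨i, hxi, hTi⟩ := hx
  have h1 : (⨆ k, (⟪x, y k⟫ - ψ k)) = ⟪x, y i⟫ - ψ i := by
    apply le_antisymm
    · exact ciSup_le fun k => hxi.2 k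
    · exact le_ciSup (f := fun k => ⟪x, y k⟫ - ψ k) (Set.finite_range _).bddAbove i
  have h2 : ⟪z, y i⟫ - ψ i ≤ ⨆ k, (⟪z, y k⟫ - ψ k) :=
    le_ciSup (f := fun k => ⟪z, y k⟫ - ψ k) (Set.finite_range _).bddAbove i
  rw [h1, hTi, inner_sub_right, real_inner_comm z (y i), real_inner_comm x (y i)]
  linarith

end atomic

end Crest.Agent.S0109Aux
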