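import Mathlib
import Crest.Prelude.Def_QuadraticTransport

/-!
# Prékopa–Leindler inequality (midpoint form)

Standalone file (Mathlib + the definition of `uniformProbOn`).  Main results, on
`EuclideanSpace ℝ (Fin d)`:

* `prekopa_leindler_mid` : `f x * g y ≤ h ((1/2) • (x + y)) ^ 2` for all `x y` implies
  `(∫⁻ f) * (∫⁻ g) ≤ (∫⁻ h) ^ 2`  (`f`, `g` arbitrary, `h` a.e.-measurable).
* `prekopa_leindler_mid_restrict`, `prekopa_leindler_mid_uniformProbOn` : same on a convex set.
* `prekopa_leindler_mid_real`, `prekopa_leindler_mid_real_restrict`,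
  `prekopa_leindler_mid_real_uniformProbOn`, `prekopa_leindler_mid_real_of_add` : Bochner versions.
* `volume_mul_le_sq_of_midpoint_subset` : set version.
-/

set_option autoImplicit false
open MeasureTheory Set
open scoped ENNReal NNReal Pointwise

namespace Crest.Agent.S0109Aux

/-! ### One-dimensional Brunn–Minkowski -/

/-- 1-D Brunn–Minkowski for nonempty compact sets. -/
lemma volume_add_le_of_isCompact {A B : Set ℝ} (hA : IsCompact A) (hB : IsCompact B)
    (hAn : A.Nonempty) (hBn : B.Nonempty) :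
    volume A + volume B ≤ volume (A + B) := by
  obtain ⟨a, haA, ha⟩ := hA.exists_isGreatest hAn
  obtain ⟨b, hbB, hb⟩ := hB.exists_isLeast hBn
  set S : Set ℝ := (fun x => x + b) '' A with hS
  set T : Set ℝ := (fun x => a + x) '' B with hT
  have hSv : volume S = volume A := by
    rw [hS, Set.image_add_right]
    exact measure_preimage_add_right volume (-b) A
  have hTv : volume T = volume B := by
    rw [hT, Set.image_add_left]
    exact measure_preimage_add volume (-a) B
  have hTm : MeasurableSet T := (hB.image (by fun_prop)).isClosed.measurableSet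
  have hdisj : Disjoint (S \ {a + b}) T := by
    rw [Set.disjoint_left]
    rintro z ⟨⟨x, hx, rfl⟩, hz⟩ ⟨y, hy, hxy⟩
    have h1 : x ≤ a := ha hx
    have h2 : b ≤ y := hb hy
    simp only [] at hxy
    apply hz
    have : x = a := by linarith
    simp [this]
  have hsub : (S \ {a + b}) ∪ T ⊆ A + B := by
    rintro z (⟨⟨x, hx, rfl⟩, -⟩ | ⟨y, hy, rfl⟩)
    · exact Set.add_mem_add hx hbB
    · exact Set.add_mem_add haA hy
  calc volume A + volume B = volume (S \ {a + b}) + volume T := by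
        rw [measure_sdiff_null (by simp), hSv, hTv]
    _ = volume ((S \ {a + b}) ∪ T) := (measure_union hdisj hTm).symm
    _ ≤ volume (A + B) := measure_mono hsub

/-- 1-D Brunn–Minkowski for nonempty measurable sets, with an arbitrary superset of the sumset. -/
lemma volume_add_le_of_subset {A B C : Set ℝ} (hA : MeasurableSet A) (hB : MeasurableSet B)
    (hAn : A.Nonempty) (hBn : B.Nonempty) (hC : A + B ⊆ C) :
    volume A + volume B ≤ volume C := by
  obtain ⟨a0, ha0⟩ := hAn
  obtain ⟨b0, hb0⟩ := hBn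
  rw [hA.measure_eq_iSup_isCompact, hB.measure_eq_iSup_isCompact]
  simp only [iSup_and']
  refine ENNReal.biSup_add_biSup_le' (p := fun K => K ⊆ A ∧ IsCompact K)
    (q := fun K => K ⊆ B ∧ IsCompact K) ⟨∅, by simp⟩ ⟨∅, by simp⟩ ?_
  rintro K ⟨hKA, hK⟩ L ⟨hLB, hL⟩
  calc volume K + volume L ≤ volume (insert a0 K) + volume (insert b0 L) := by
        gcongr <;> exact Set.subset_insert _ _
    _ ≤ volume (insert a0 K + insert b0 L) :=
        volume_add_le_of_isCompact (hK.insert a0) (hL.insert b0) (Set.insert_nonempty _ _)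
          (Set.insert_nonempty _ _)
    _ ≤ volume C := by
        refine measure_mono (subset_trans (Set.add_subset_add ?_ ?_) hC)
        · exact Set.insert_subset ha0 hKA
        · exact Set.insert_subset hb0 hLB

/-! ### One-dimensional Prékopa–Leindler -/

/-- layer cake for a function with values in `[0,1]`. -/
lemma lintegral_eq_lintegral_Ioo_meas_lt {f : ℝ → ℝ} (hf : Measurable f) (f0 : ∀ x, 0 ≤ f x)
    (f1 : ∀ x, f x ≤ 1) :
    ∫⁻ x, ENNReal.ofReal (f x) = ∫⁻ t in Ioo (0 : ℝ) 1, volume {x | t < f x} := by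
  rw [lintegral_eq_lintegral_meas_lt volume (Filter.Eventually.of_forall f0) hf.aemeasurable,
    ← lintegral_indicator measurableSet_Ioi, ← lintegral_indicator measurableSet_Ioo]
  congr 1
  ext t
  by_cases ht : t ∈ Ioo (0 : ℝ) 1
  · rw [indicator_of_mem ht, indicator_of_mem (show t ∈ Ioi (0 : ℝ) from ht.1)]
  · rw [indicator_of_notMem ht]
    by_cases ht0 : t ∈ Ioi (0 : ℝ)
    · rw [indicator_of_mem ht0]
      have h1 : 1 ≤ t := by
        by_contra h
        exact ht ⟨ht0, not_le.1 h⟩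
      have : {x | t < f x} = ∅ := by
        ext x
        simp only [mem_ofPred_eq, mem_empty_iff_false, iff_false, not_lt]
        exact (f1 x).trans h1
      rw [this, measure_empty]
    · rw [indicator_of_notMem ht0]

/-- Normalised 1-D inequality: if `sup f = sup g = 1` and `min (f x) (g y) ≤ h ((x+y)/2)` then
`∫ f + ∫ g ≤ 2 ∫ h`. -/
lemma pl_one_dim_normalised {f g h : ℝ → ℝ} (hf : Measurable f) (hg : Measurable g)
    (hh : Measurable h) (f0 : ∀ x, 0 ≤ f x) (g0 : ∀ x, 0 ≤ g x) (h0 : ∀ x, 0 ≤ h x)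
    (f1 : ∀ x, f x ≤ 1) (g1 : ∀ x, g x ≤ 1)
    (fs : ∀ t < 1, ∃ x, t < f x) (gs : ∀ t < 1, ∃ x, t < g x)
    (H : ∀ x y, min (f x) (g y) ≤ h ((1 / 2 : ℝ) * (x + y))) :
    (∫⁻ x, ENNReal.ofReal (f x)) + (∫⁻ x, ENNReal.ofReal (g x))
      ≤ 2 * ∫⁻ x, ENNReal.ofReal (h x) := by
  rw [lintegral_eq_lintegral_Ioo_meas_lt hf f0 f1, lintegral_eq_lintegral_Ioo_meas_lt hg g0 g1,
    lintegral_eq_lintegral_meas_le volume (Filter.Eventually.of_forall h0) hh.aemeasurable]
  have hmf : Measurable (fun t : ℝ => volume {x | t < f x}) := by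
    apply Antitone.measurable
    intro s t hst
    exact measure_mono (fun x hx => lt_of_le_of_lt hst hx)
  rw [← lintegral_add_left hmf, ← lintegral_const_mul' 2 _ (by simp)]
  calc ∫⁻ t in Ioo (0 : ℝ) 1, (volume {x | t < f x} + volume {x | t < g x})
      ≤ ∫⁻ t in Ioo (0 : ℝ) 1, 2 * volume {x | t ≤ h x} := by
        refine setLIntegral_mono' measurableSet_Ioo ?_
        intro t ht
        have hpre : volume ((fun z : ℝ => (1 / 2 : ℝ) * z) ⁻¹' {x | t ≤ h x})
            = 2 * volume {x | t ≤ h x} := by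
          rw [Real.volume_preimage_mul_left (by norm_num)]
          congr 1
          norm_num
        rw [← hpre]
        refine volume_add_le_of_subset (measurableSet_lt measurable_const hf)
          (measurableSet_lt measurable_const hg) (fs t ht.2) (gs t ht.2) ?_
        rintro z ⟨x, hx, y, hy, rfl⟩
        simp only [mem_ofPred_eq, mem_preimage] at hx hy ⊢
        exact (lt_min hx hy).le.trans (H x y)
    _ ≤ ∫⁻ t in Ioi (0 : ℝ), 2 * volume {x | t ≤ h x} :=
        lintegral_mono_set Ioo_subset_Ioi_self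

lemma ennreal_four_mul_le_add_sq (x y : ℝ≥0∞) : 4 * (x * y) ≤ (x + y) ^ 2 := by
  by_cases hx : x = ∞
  · subst hx; simp
  by_cases hy : y = ∞
  · subst hy; simp
  lift x to ℝ≥0 using hx
  lift y to ℝ≥0 using hy
  have := four_mul_le_sq_add x y
  rw [mul_assoc] at this
  exact_mod_cast this

/-- 1-D Prékopa–Leindler for bounded functions. -/
lemma pl_one_dim_bounded {f g h : ℝ → ℝ≥0∞} (hf : Measurable f) (hg : Measurable g)
    (hh : Measurable h) {M : ℝ≥0∞} (hM : M ≠ ∞) (fM : ∀ x, f x ≤ M) (gM : ∀ x, g x ≤ M)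
    (H : ∀ x y, f x * g y ≤ h ((1 / 2 : ℝ) * (x + y)) ^ 2) :
    (∫⁻ x, f x) * (∫⁻ x, g x) ≤ (∫⁻ x, h x) ^ 2 := by
  set a := ⨆ x, f x with ha_def
  set b := ⨆ x, g x with hb_def
  have ha : a ≠ ∞ := ne_top_of_le_ne_top hM (iSup_le fM)
  have hb : b ≠ ∞ := ne_top_of_le_ne_top hM (iSup_le gM)
  have fa : ∀ x, f x ≤ a := fun x => le_iSup f x
  have gb : ∀ x, g x ≤ b := fun x => le_iSup g x
  by_cases ha0 : a = 0
  · have : ∀ x, f x = 0 := fun x => le_antisymm (ha0 ▸ fa x) bot_le
    simp [this]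
  by_cases hb0 : b = 0
  · have : ∀ x, g x = 0 := fun x => le_antisymm (hb0 ▸ gb x) bot_le
    simp [this]
  set c : ℝ≥0∞ := (a * b) ^ (1 / 2 : ℝ) with hc_def
  have hc2 : c ^ 2 = a * b := by
    rw [hc_def, ← ENNReal.rpow_natCast, ← ENNReal.rpow_mul]
    norm_num
  have hc0 : c ≠ 0 := by
    intro h0
    rw [h0] at hc2
    have : a * b = 0 := by rw [← hc2]; simp
    rcases mul_eq_zero.1 this with h | h
    · exact ha0 h
    · exact hb0 h
  have hc : c ≠ ∞ := by
    intro h0
    rw [h0] at hc2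
    have : a * b = ∞ := by rw [← hc2]; simp
    exact ENNReal.mul_ne_top ha hb this
  -- normalised functions
  have fa1 : ∀ x, f x / a ≤ 1 := fun x => ENNReal.div_le_of_le_mul (by simpa using fa x)
  have gb1 : ∀ x, g x / b ≤ 1 := fun x => ENNReal.div_le_of_le_mul (by simpa using gb x)
  have fat : ∀ x, f x / a ≠ ∞ := fun x => ne_top_of_le_ne_top ENNReal.one_ne_top (fa1 x)
  have gbt : ∀ x, g x / b ≠ ∞ := fun x => ne_top_of_le_ne_top ENNReal.one_ne_top (gb1 x)
  have hct : ∀ x, min (h x / c) 1 ≠ ∞ :=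
    fun x => ne_top_of_le_ne_top ENNReal.one_ne_top (min_le_right _ _)
  have sup_aux : ∀ (u : ℝ → ℝ≥0∞) (s : ℝ≥0∞), s = ⨆ x, u x → s ≠ 0 → s ≠ ∞ →
      (∀ x, u x / s ≠ ∞) → ∀ t < (1 : ℝ), ∃ x, t < (u x / s).toReal := by
    intro u s hs hs0 hst hut t ht
    have h1 : ENNReal.ofReal t * s < s := by
      calc ENNReal.ofReal t * s < 1 * s := by
            refine ENNReal.mul_lt_mul_left hs0 hst ?_
            rw [← ENNReal.ofReal_one]
            exact (ENNReal.ofReal_lt_ofReal_iff one_pos).2 ht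
        _ = s := one_mul s
    conv_rhs at h1 => rw [hs]
    obtain ⟨x, hx⟩ := lt_iSup_iff.1 h1
    refine ⟨x, ?_⟩
    rcases lt_or_ge t 0 with ht0 | ht0
    · exact lt_of_lt_of_le ht0 ENNReal.toReal_nonneg
    · rw [← ENNReal.ofReal_lt_iff_lt_toReal ht0 (hut x),
        ENNReal.lt_div_iff_mul_lt (Or.inl hs0) (Or.inl hst)]
      exact hx
  have key := pl_one_dim_normalised (f := fun x => (f x / a).toReal)
    (g := fun x => (g x / b).toReal) (h := fun x => (min (h x / c) 1).toReal)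
    (hf.div_const a).ennreal_toReal (hg.div_const b).ennreal_toReal
    ((hh.div_const c).min measurable_const).ennreal_toReal
    (fun x => ENNReal.toReal_nonneg) (fun x => ENNReal.toReal_nonneg)
    (fun x => ENNReal.toReal_nonneg)
    (fun x => by simpa using ENNReal.toReal_mono ENNReal.one_ne_top (fa1 x))
    (fun x => by simpa using ENNReal.toReal_mono ENNReal.one_ne_top (gb1 x))
    (sup_aux f a ha_def ha0 ha fat) (sup_aux g b hb_def hb0 hb gbt) ?_
  · simp only [ENNReal.ofReal_toReal (fat _), ENNReal.ofReal_toReal (gbt _),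
      ENNReal.ofReal_toReal (hct _)] at key
    simp only [div_eq_mul_inv] at key
    rw [lintegral_mul_const _ hf, lintegral_mul_const _ hg] at key
    set X := ∫⁻ x, f x
    set Y := ∫⁻ x, g x
    set Z := ∫⁻ x, h x
    have key2 : X * a⁻¹ + Y * b⁻¹ ≤ 2 * (Z * c⁻¹) := by
      refine key.trans ?_
      gcongr
      rw [← lintegral_mul_const _ hh]
      exact lintegral_mono (fun x => min_le_left _ _)
    have haa : a⁻¹ * a = 1 := ENNReal.inv_mul_cancel ha0 ha
    have hbb : b⁻¹ * b = 1 := ENNReal.inv_mul_cancel hb0 hb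
    have hcc : c⁻¹ * c = 1 := ENNReal.inv_mul_cancel hc0 hc
    have h4 : 4 * (X * Y) ≤ 4 * Z ^ 2 := by
      calc 4 * (X * Y) = 4 * ((X * a⁻¹) * (Y * b⁻¹)) * (a * b) := by
            have : 4 * ((X * a⁻¹) * (Y * b⁻¹)) * (a * b)
                = 4 * (X * Y) * ((a⁻¹ * a) * (b⁻¹ * b)) := by ring
            rw [this, haa, hbb]; ring
        _ ≤ (X * a⁻¹ + Y * b⁻¹) ^ 2 * (a * b) := by
            gcongr
            exact ennreal_four_mul_le_add_sq _ _
        _ ≤ (2 * (Z * c⁻¹)) ^ 2 * (a * b) := by gcongr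
        _ = 4 * Z ^ 2 := by
            rw [← hc2]
            have : (2 * (Z * c⁻¹)) ^ 2 * c ^ 2 = 4 * Z ^ 2 * (c⁻¹ * c) ^ 2 := by ring
            rw [this, hcc]; ring
    exact (ENNReal.mul_le_mul_iff_right (by norm_num) (by norm_num)).1 h4
  · intro x y
    set u := f x / a with hu
    set v := g y / b with hv
    set w := h (1 / 2 * (x + y)) / c with hw
    have huv : u * v ≤ w ^ 2 := by
      calc u * v = (f x * g y) * (a * b)⁻¹ := by
            rw [hu, hv, div_eq_mul_inv, div_eq_mul_inv, ENNReal.mul_inv (Or.inl ha0) (Or.inl ha)]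
            ring
        _ ≤ h (1 / 2 * (x + y)) ^ 2 * (a * b)⁻¹ := by gcongr; exact H x y
        _ = w ^ 2 := by
            rw [hw, div_eq_mul_inv (h _) c, mul_pow, ← hc2, ENNReal.inv_pow]
    rcases le_total u v with huv' | huv'
    · have h1 : u ≤ w := by
        have : u ^ 2 ≤ w ^ 2 := by
          calc u ^ 2 = u * u := sq u
            _ ≤ u * v := by gcongr
            _ ≤ w ^ 2 := huv
        exact (ENNReal.pow_le_pow_left_iff two_ne_zero).1 this
      exact (min_le_left _ _).trans (ENNReal.toReal_mono (hct _) (le_min h1 (fa1 x)))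
    · have h1 : v ≤ w := by
        have : v ^ 2 ≤ w ^ 2 := by
          calc v ^ 2 = v * v := sq v
            _ ≤ u * v := by gcongr
            _ ≤ w ^ 2 := huv
        exact (ENNReal.pow_le_pow_left_iff two_ne_zero).1 this
      exact (min_le_right _ _).trans (ENNReal.toReal_mono (hct _) (le_min h1 (gb1 y)))

/-- 1-D Prékopa–Leindler (midpoint form). -/
lemma pl_one_dim {f g h : ℝ → ℝ≥0∞} (hf : Measurable f) (hg : Measurable g)
    (hh : Measurable h) (H : ∀ x y, f x * g y ≤ h ((1 / 2 : ℝ) * (x + y)) ^ 2) :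
    (∫⁻ x, f x) * (∫⁻ x, g x) ≤ (∫⁻ x, h x) ^ 2 := by
  have key : ∀ n : ℕ, (∫⁻ x, min (f x) n) * (∫⁻ x, min (g x) n) ≤ (∫⁻ x, h x) ^ 2 := fun n =>
    pl_one_dim_bounded (hf.min measurable_const) (hg.min measurable_const) hh (M := n) (by simp)
      (fun x => min_le_right _ _) (fun x => min_le_right _ _)
      (fun x y => (mul_le_mul' (min_le_left _ _) (min_le_left _ _)).trans (H x y))
  have trunc : ∀ u : ℝ → ℝ≥0∞, Measurable u →
      ∫⁻ x, u x = ⨆ n : ℕ, ∫⁻ x, min (u x) n := by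
    intro u hu
    rw [← lintegral_iSup (fun n => hu.min measurable_const)]
    · congr 1
      ext x
      rw [← inf_iSup_eq, ENNReal.iSup_natCast]
      simp
    · intro n m hnm x
      exact min_le_min le_rfl (by exact_mod_cast hnm)
  have mono : ∀ u : ℝ → ℝ≥0∞, Monotone (fun n : ℕ => ∫⁻ x, min (u x) n) := by
    intro u n m hnm
    exact lintegral_mono (fun x => min_le_min le_rfl (by exact_mod_cast hnm))
  rw [trunc f hf, trunc g hg, ENNReal.iSup_mul]
  refine iSup_le fun n => ?_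
  rw [ENNReal.mul_iSup]
  refine iSup_le fun m => ?_
  exact (mul_le_mul' (mono f (le_max_left n m)) (mono g (le_max_right n m))).trans (key _)

/-! ### Tensorisation -/

/-- The midpoint Prékopa–Leindler property of a measure on a real vector space. -/
def PLmid (E : Type*) [AddCommGroup E] [Module ℝ E] [MeasurableSpace E] (μ : Measure E) : Prop :=
  ∀ f g h : E → ℝ≥0∞, Measurable f → Measurable g → Measurable h →
    (∀ x y, f x * g y ≤ h ((1 / 2 : ℝ) • (x + y)) ^ 2) →
      (∫⁻ x, f x ∂μ) * (∫⁻ x, g x ∂μ) ≤ (∫⁻ x, h x ∂μ) ^ 2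

lemma plmid_real : PLmid ℝ volume := by
  intro f g h hf hg hh H
  exact pl_one_dim hf hg hh (fun x y => by simpa using H x y)

lemma PLmid.prod {E F : Type*} [AddCommGroup E] [Module ℝ E] [MeasurableSpace E]
    [AddCommGroup F] [Module ℝ F] [MeasurableSpace F] {μ : Measure E} {ν : Measure F}
    [SFinite μ] [SFinite ν] (hE : PLmid E μ) (hF : PLmid F ν) : PLmid (E × F) (μ.prod ν) := by
  intro f g h hf hg hh H
  rw [lintegral_prod _ hf.aemeasurable, lintegral_prod _ hg.aemeasurable,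
    lintegral_prod _ hh.aemeasurable]
  refine hE _ _ _ hf.lintegral_prod_right' hg.lintegral_prod_right' hh.lintegral_prod_right' ?_
  intro x x'
  refine hF _ _ _ (hf.comp measurable_prodMk_left) (hg.comp measurable_prodMk_left)
    (hh.comp measurable_prodMk_left) ?_
  intro y y'
  exact H (x, y) (x', y')

lemma PLmid.of_map {E F : Type*} [AddCommGroup E] [Module ℝ E] [MeasurableSpace E]
    [AddCommGroup F] [Module ℝ F] [MeasurableSpace F] {μ : Measure E} {ν : Measure F}
    {s : F → E} (hs : MeasurePreserving s ν μ)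
    (hlin : ∀ y y', s ((1 / 2 : ℝ) • (y + y')) = (1 / 2 : ℝ) • (s y + s y'))
    (hF : PLmid F ν) : PLmid E μ := by
  intro f g h hf hg hh H
  rw [← hs.lintegral_comp hf, ← hs.lintegral_comp hg, ← hs.lintegral_comp hh]
  refine hF _ _ _ (hf.comp hs.measurable) (hg.comp hs.measurable) (hh.comp hs.measurable) ?_
  intro y y'
  rw [hlin]
  exact H _ _

lemma plmid_pi (n : ℕ) : PLmid (Fin n → ℝ) volume := by
  induction n with
  | zero =>
    intro f g h hf hg hh H
    rw [Measure.volume_pi_eq_dirac 0]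
    simp only [lintegral_dirac]
    simpa using H 0 0
  | succ n ih =>
    have hs := (volume_preserving_piFinSuccAbove (fun _ : Fin (n + 1) => ℝ) 0).symm
    refine PLmid.of_map hs ?_ (plmid_real.prod ih)
    intro y y'
    ext i
    refine Fin.cases ?_ (fun j => ?_) i <;> simp [MeasurableEquiv.piFinSuccAbove] <;> ring

lemma plmid_euclidean (d : ℕ) : PLmid (EuclideanSpace ℝ (Fin d)) volume := by
  refine PLmid.of_map (PiLp.volume_preserving_toLp (Fin d)) ?_ (plmid_pi d)
  intro y y'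
  simp

/-! ### Final statements -/

/-- A measurable majorant with the same integral. -/
lemma exists_measurable_ge_lintegral_eq {α : Type*} [MeasurableSpace α] {μ : Measure α}
    {h : α → ℝ≥0∞} (hh : AEMeasurable h μ) :
    ∃ h' : α → ℝ≥0∞, Measurable h' ∧ h ≤ h' ∧ ∫⁻ x, h' x ∂μ = ∫⁻ x, h x ∂μ := by
  classical
  set N := toMeasurable μ {x | h x ≠ hh.mk h x} with hN
  have hN0 : μ N = 0 := by
    rw [hN, measure_toMeasurable]
    exact hh.ae_eq_mk
  have hNm : MeasurableSet N := measurableSet_toMeasurable _ _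
  refine ⟨N.piecewise (fun _ => ⊤) (hh.mk h), measurable_const.piecewise hNm hh.measurable_mk,
    ?_, ?_⟩
  · intro x
    by_cases hx : x ∈ N
    · simp [hx]
    · have : h x = hh.mk h x := by
        by_contra hne
        exact hx (subset_toMeasurable μ _ hne)
      simp [hx, this]
  · refine lintegral_congr_ae ?_
    have : ∀ᵐ x ∂μ, x ∉ N := by
      rw [ae_iff]
      simpa using hN0
    filter_upwards [this] with x hx
    have : h x = hh.mk h x := by
      by_contra hne
      exact hx (subset_toMeasurable μ _ hne)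
    simp [hx, this]

/-- **Prékopa–Leindler, midpoint form**, on `EuclideanSpace ℝ (Fin d)`; `f`, `g` arbitrary
(`∫⁻` is then the lower integral), `h` a.e.-measurable. -/
theorem prekopa_leindler_mid (d : ℕ) (f g h : EuclideanSpace ℝ (Fin d) → ℝ≥0∞)
    (hh : AEMeasurable h volume)
    (H : ∀ x y, f x * g y ≤ h ((1 / 2 : ℝ) • (x + y)) ^ 2) :
    (∫⁻ x, f x) * (∫⁻ x, g x) ≤ (∫⁻ x, h x) ^ 2 := by
  obtain ⟨f', hf'm, hf'le, hf'⟩ := exists_measurable_le_lintegral_eq volume f
  obtain ⟨g', hg'm, hg'le, hg'⟩ := exists_measurable_le_lintegral_eq volume g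
  obtain ⟨h', hh'm, hh'le, hh'⟩ := exists_measurable_ge_lintegral_eq hh
  rw [hf', hg', ← hh']
  refine plmid_euclidean d f' g' h' hf'm hg'm hh'm ?_
  intro x y
  calc f' x * g' y ≤ f x * g y := mul_le_mul' (hf'le x) (hg'le y)
    _ ≤ h ((1 / 2 : ℝ) • (x + y)) ^ 2 := H x y
    _ ≤ h' ((1 / 2 : ℝ) • (x + y)) ^ 2 := by gcongr; exact hh'le _

/-- Prékopa–Leindler on a convex set `K` (integrals over `K`, hypothesis only on `K`). -/
theorem prekopa_leindler_mid_restrict (d : ℕ) {K : Set (EuclideanSpace ℝ (Fin d))}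
    (hK : Convex ℝ K) (hKm : MeasurableSet K) (f g h : EuclideanSpace ℝ (Fin d) → ℝ≥0∞)
    (hh : AEMeasurable h (volume.restrict K))
    (H : ∀ x ∈ K, ∀ y ∈ K, f x * g y ≤ h ((1 / 2 : ℝ) • (x + y)) ^ 2) :
    (∫⁻ x in K, f x) * (∫⁻ x in K, g x) ≤ (∫⁻ x in K, h x) ^ 2 := by
  rw [← lintegral_indicator hKm, ← lintegral_indicator hKm, ← lintegral_indicator hKm]
  refine prekopa_leindler_mid d _ _ _ ((aemeasurable_indicator_iff hKm).2 hh) ?_
  intro x y
  by_cases hx : x ∈ K
  · by_cases hy : y ∈ K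
    · have hm : (1 / 2 : ℝ) • (x + y) ∈ K := by
        have := hK hx hy (by norm_num : (0 : ℝ) ≤ 1 / 2) (by norm_num : (0 : ℝ) ≤ 1 / 2)
          (by norm_num)
        rwa [← smul_add] at this
      rw [indicator_of_mem hx, indicator_of_mem hy, indicator_of_mem hm]
      exact H x hx y hy
    · simp [hy]
  · simp [hx]

/-- Set version (multiplicative Brunn–Minkowski, midpoint form). -/
theorem volume_mul_le_sq_of_midpoint_subset (d : ℕ) {A B C : Set (EuclideanSpace ℝ (Fin d))}
    (hA : MeasurableSet A) (hB : MeasurableSet B) (hC : MeasurableSet C)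
    (H : ∀ x ∈ A, ∀ y ∈ B, (1 / 2 : ℝ) • (x + y) ∈ C) :
    volume A * volume B ≤ volume C ^ 2 := by
  have := prekopa_leindler_mid d (A.indicator 1) (B.indicator 1) (C.indicator 1)
    (measurable_one.indicator hC).aemeasurable ?_
  · simpa [lintegral_indicator_one, hA, hB, hC] using this
  · intro x y
    by_cases hx : x ∈ A
    · by_cases hy : y ∈ B
      · rw [indicator_of_mem hx, indicator_of_mem hy, indicator_of_mem (H x hx y hy)]
        simp
      · simp [hy]
    · simp [hx]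

/-- Real-valued (Bochner integral) version. -/
theorem prekopa_leindler_mid_real (d : ℕ) {f g h : EuclideanSpace ℝ (Fin d) → ℝ}
    (hf0 : ∀ x, 0 ≤ f x) (hg0 : ∀ x, 0 ≤ g x) (hh0 : ∀ x, 0 ≤ h x) (hh : Integrable h)
    (H : ∀ x y, f x * g y ≤ h ((1 / 2 : ℝ) • (x + y)) ^ 2) :
    (∫ x, f x) * (∫ x, g x) ≤ (∫ x, h x) ^ 2 := by
  by_cases hf : Integrable f
  swap
  · rw [integral_undef hf, zero_mul]; positivity
  by_cases hg : Integrable g
  swap
  · rw [integral_undef hg, mul_zero]; positivity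
  have key := prekopa_leindler_mid d (fun x => ENNReal.ofReal (f x))
    (fun x => ENNReal.ofReal (g x)) (fun x => ENNReal.ofReal (h x))
    hh.aemeasurable.ennreal_ofReal ?_
  · rw [integral_eq_lintegral_of_nonneg_ae (Filter.Eventually.of_forall hf0) hf.1,
      integral_eq_lintegral_of_nonneg_ae (Filter.Eventually.of_forall hg0) hg.1,
      integral_eq_lintegral_of_nonneg_ae (Filter.Eventually.of_forall hh0) hh.1,
      ← ENNReal.toReal_mul, ← ENNReal.toReal_pow]
    exact ENNReal.toReal_mono (ENNReal.pow_ne_top hh.lintegral_lt_top.ne) key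
  · intro x y
    rw [← ENNReal.ofReal_mul (hf0 x), ← ENNReal.ofReal_pow (hh0 _)]
    exact ENNReal.ofReal_le_ofReal (H x y)

/-- Real-valued version on a convex set. -/
theorem prekopa_leindler_mid_real_restrict (d : ℕ) {K : Set (EuclideanSpace ℝ (Fin d))}
    (hK : Convex ℝ K) (hKm : MeasurableSet K) {f g h : EuclideanSpace ℝ (Fin d) → ℝ}
    (hf0 : ∀ x ∈ K, 0 ≤ f x) (hg0 : ∀ x ∈ K, 0 ≤ g x) (hh0 : ∀ x ∈ K, 0 ≤ h x)
    (hh : IntegrableOn h K)
    (H : ∀ x ∈ K, ∀ y ∈ K, f x * g y ≤ h ((1 / 2 : ℝ) • (x + y)) ^ 2) :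
    (∫ x in K, f x) * (∫ x in K, g x) ≤ (∫ x in K, h x) ^ 2 := by
  rw [← integral_indicator hKm, ← integral_indicator hKm, ← integral_indicator hKm]
  refine prekopa_leindler_mid_real d (fun x => indicator_nonneg hf0 x)
    (fun x => indicator_nonneg hg0 x) (fun x => indicator_nonneg hh0 x)
    ((integrable_indicator_iff hKm).2 hh) ?_
  intro x y
  by_cases hx : x ∈ K
  · by_cases hy : y ∈ K
    · have hm : (1 / 2 : ℝ) • (x + y) ∈ K := by
        have := hK hx hy (by norm_num : (0 : ℝ) ≤ 1 / 2) (by norm_num : (0 : ℝ) ≤ 1 / 2)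
          (by norm_num)
        rwa [← smul_add] at this
      rw [indicator_of_mem hx, indicator_of_mem hy, indicator_of_mem hm]
      exact H x hx y hy
    · rw [indicator_of_notMem hy, mul_zero]; positivity
  · rw [indicator_of_notMem hx, zero_mul]; positivity

/-- Variant with the arithmetic-mean hypothesis (only needed where both `f x`, `g y` are positive):
`(f x + g y) / 2 ≤ h (midpoint)`. -/
theorem prekopa_leindler_mid_real_of_add (d : ℕ) {f g h : EuclideanSpace ℝ (Fin d) → ℝ}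
    (hf0 : ∀ x, 0 ≤ f x) (hg0 : ∀ x, 0 ≤ g x) (hh0 : ∀ x, 0 ≤ h x) (hh : Integrable h)
    (H : ∀ x y, 0 < f x → 0 < g y → (f x + g y) / 2 ≤ h ((1 / 2 : ℝ) • (x + y))) :
    (∫ x, f x) * (∫ x, g x) ≤ (∫ x, h x) ^ 2 := by
  refine prekopa_leindler_mid_real d hf0 hg0 hh0 hh ?_
  intro x y
  rcases (hf0 x).eq_or_lt with hx | hx
  · rw [← hx, zero_mul]; positivity
  rcases (hg0 y).eq_or_lt with hy | hy
  · rw [← hy, mul_zero]; positivity
  have h1 := H x y hx hy
  have h2 : ((f x + g y) / 2) ^ 2 ≤ h ((1 / 2 : ℝ) • (x + y)) ^ 2 :=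
    pow_le_pow_left₀ (by positivity) h1 2
  nlinarith [sq_nonneg (f x - g y)]

open Crest.AnalysisR.OT in
/-- Prékopa–Leindler for the uniform probability measure of a convex set. -/
theorem prekopa_leindler_mid_uniformProbOn (d : ℕ) {K : Set (EuclideanSpace ℝ (Fin d))}
    (hK : Convex ℝ K) (hKm : MeasurableSet K) (f g h : EuclideanSpace ℝ (Fin d) → ℝ≥0∞)
    (hh : AEMeasurable h (volume.restrict K))
    (H : ∀ x ∈ K, ∀ y ∈ K, f x * g y ≤ h ((1 / 2 : ℝ) • (x + y)) ^ 2) :
    (∫⁻ x, f x ∂(uniformProbOn K)) * (∫⁻ x, g x ∂(uniformProbOn K))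
      ≤ (∫⁻ x, h x ∂(uniformProbOn K)) ^ 2 := by
  have key := prekopa_leindler_mid_restrict d hK hKm f g h hh H
  simp only [uniformProbOn, lintegral_smul_measure, smul_eq_mul]
  calc (volume K)⁻¹ * (∫⁻ x in K, f x) * ((volume K)⁻¹ * ∫⁻ x in K, g x)
      = (volume K)⁻¹ ^ 2 * ((∫⁻ x in K, f x) * ∫⁻ x in K, g x) := by ring
    _ ≤ (volume K)⁻¹ ^ 2 * (∫⁻ x in K, h x) ^ 2 := by gcongr
    _ = ((volume K)⁻¹ * ∫⁻ x in K, h x) ^ 2 := by ring

open Crest.AnalysisR.OT in
/-- Real-valued Prékopa–Leindler for the uniform probability measure of a convex set. -/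
theorem prekopa_leindler_mid_real_uniformProbOn (d : ℕ) {K : Set (EuclideanSpace ℝ (Fin d))}
    (hK : Convex ℝ K) (hKm : MeasurableSet K) {f g h : EuclideanSpace ℝ (Fin d) → ℝ}
    (hf0 : ∀ x ∈ K, 0 ≤ f x) (hg0 : ∀ x ∈ K, 0 ≤ g x) (hh0 : ∀ x ∈ K, 0 ≤ h x)
    (hh : IntegrableOn h K)
    (H : ∀ x ∈ K, ∀ y ∈ K, f x * g y ≤ h ((1 / 2 : ℝ) • (x + y)) ^ 2) :
    (∫ x, f x ∂(uniformProbOn K)) * (∫ x, g x ∂(uniformProbOn K))
      ≤ (∫ x, h x ∂(uniformProbOn K)) ^ 2 := by
  have key := prekopa_leindler_mid_real_restrict d hK hKm hf0 hg0 hh0 hh H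
  simp only [uniformProbOn, integral_smul_measure, smul_eq_mul]
  set c := ((volume K)⁻¹).toReal
  calc c * (∫ x in K, f x) * (c * ∫ x in K, g x)
      = c ^ 2 * ((∫ x in K, f x) * ∫ x in K, g x) := by ring
    _ ≤ c ^ 2 * (∫ x in K, h x) ^ 2 := by gcongr
    _ = (c * ∫ x in K, h x) ^ 2 := by ring

end Crest.Agent.S0109Aux
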