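import Mathlib
import Crest.Prelude.Def_QuadraticTransport
import Crest.Agent.S0109Aux.PrekopaLeindler
import Crest.Agent.S0109Aux.Cells

/-!
# Key Lemma S (step D2 of the proof of S0109)

Fixed positions `y`, two weight vectors `ψ0 ψ1`.  The first moments of the Laguerre cells move by at
most `10 R ‖Dm‖_{1/m}` (tested against `u`), uniformly in the positions.
-/

set_option autoImplicit false
open MeasureTheory Set
open scoped ENNReal NNReal RealInnerProductSpace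
open Crest.AnalysisR.OT

namespace Crest.Agent.S0109Aux

section single

variable {d : ℕ}

lemma lemmaS_mid_identity (x0 x1 a : EuclideanSpace ℝ (Fin d)) (lam c R : ℝ) :
    ((R ^ 2 - ‖x0‖ ^ 2) / 2 + (lam * ‖x0‖ ^ 2 / 2 + ⟪a, x0⟫ + c))
      + ((R ^ 2 - ‖x1‖ ^ 2) / 2 - (lam * ‖x1‖ ^ 2 / 2 + ⟪a, x1⟫ + c))
    = 2 * ((R ^ 2 - ‖(1 / 2 : ℝ) • (x0 + x1)‖ ^ 2) / 2
        + ‖lam • ((1 / 2 : ℝ) • (x0 + x1)) + a‖ ^ 2 / 2)
      - ‖(1 / 2 : ℝ) • (x0 - x1) - (lam • ((1 / 2 : ℝ) • (x0 + x1)) + a)‖ ^ 2 := by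
  simp only [← real_inner_self_eq_norm_sq, inner_add_left, inner_add_right, inner_sub_left,
    inner_sub_right, inner_smul_left, inner_smul_right, conj_trivial]
  rw [real_inner_comm x0 x1, real_inner_comm x0 a, real_inner_comm x1 a]
  ring

lemma uP_integrable_of_continuous {K : Set (EuclideanSpace ℝ (Fin d))} (hKc : IsCompact K)
    (h0 : volume K ≠ 0) {G : Type*} [NormedAddCommGroup G]
    {F : EuclideanSpace ℝ (Fin d) → G} (hF : Continuous F) :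
    Integrable F (uniformProbOn K) := by
  unfold uniformProbOn
  exact (hF.continuousOn.integrableOn_compact hKc).smul_measure (ENNReal.inv_ne_top.2 h0)

/-- Prékopa–Leindler on one triple of cells. -/
lemma lemmaS_single {K : Set (EuclideanSpace ℝ (Fin d))} (hKc : IsCompact K)
    (h0 : volume K ≠ 0) (hKv : Convex ℝ K) {R : ℝ} (hR : ∀ x ∈ K, ‖x‖ ≤ R)
    {C0 C1 Cm : Set (EuclideanSpace ℝ (Fin d))} (hC0 : MeasurableSet C0) (hC1 : MeasurableSet C1)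
    (hCm : MeasurableSet Cm) (sm : Cm ⊆ K)
    (hmid : ∀ x0 ∈ C0, ∀ x1 ∈ C1, (1 / 2 : ℝ) • (x0 + x1) ∈ Cm)
    (lam : ℝ) (a : EuclideanSpace ℝ (Fin d)) (c P : ℝ)
    (hP0 : P ≤ ∫ x in C0, ((R ^ 2 - ‖x‖ ^ 2) / 2 + (lam * ‖x‖ ^ 2 / 2 + ⟪a, x⟫ + c))
      ∂(uniformProbOn K))
    (hP1 : P ≤ ∫ x in C1, ((R ^ 2 - ‖x‖ ^ 2) / 2 - (lam * ‖x‖ ^ 2 / 2 + ⟪a, x⟫ + c))
      ∂(uniformProbOn K)) :
    P ≤ ∫ x in Cm, ((R ^ 2 - ‖x‖ ^ 2) / 2 + ‖lam • x + a‖ ^ 2 / 2) ∂(uniformProbOn K) := by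
  have hKm : MeasurableSet K := hKc.measurableSet
  set A : EuclideanSpace ℝ (Fin d) → ℝ :=
    fun x => (R ^ 2 - ‖x‖ ^ 2) / 2 + (lam * ‖x‖ ^ 2 / 2 + ⟪a, x⟫ + c) with hA
  set B : EuclideanSpace ℝ (Fin d) → ℝ :=
    fun x => (R ^ 2 - ‖x‖ ^ 2) / 2 - (lam * ‖x‖ ^ 2 / 2 + ⟪a, x⟫ + c) with hB
  set H : EuclideanSpace ℝ (Fin d) → ℝ :=
    fun x => (R ^ 2 - ‖x‖ ^ 2) / 2 + ‖lam • x + a‖ ^ 2 / 2 with hH
  have cA : Continuous A := by fun_prop
  have cB : Continuous B := by fun_prop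
  have cH : Continuous H := by fun_prop
  have iA := uP_integrable_of_continuous hKc h0 cA
  have iB := uP_integrable_of_continuous hKc h0 cB
  have iA' := uP_integrable_of_continuous hKc h0 (cA.max continuous_const : Continuous fun x => max (A x) 0)
  have iB' := uP_integrable_of_continuous hKc h0 (cB.max continuous_const : Continuous fun x => max (B x) 0)
  have Hnn : ∀ x ∈ K, 0 ≤ H x := by
    intro x hx
    have h1 : ‖x‖ ^ 2 ≤ R ^ 2 := pow_le_pow_left₀ (norm_nonneg _) (hR x hx) 2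
    have h2 : 0 ≤ ‖lam • x + a‖ ^ 2 / 2 := by positivity
    simp only [hH]
    linarith
  have hHint : 0 ≤ ∫ x in Cm, H x ∂(uniformProbOn K) :=
    setIntegral_nonneg hCm (fun x hx => Hnn x (sm hx))
  rcases le_or_gt P 0 with hP | hP
  · exact hP.trans hHint
  have key := prekopa_leindler_mid_real_uniformProbOn d hKv hKm
    (f := C0.indicator fun x => max (A x) 0) (g := C1.indicator fun x => max (B x) 0)
    (h := Cm.indicator H)
    (fun x _ => indicator_nonneg (fun x _ => le_max_right _ _) x)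
    (fun x _ => indicator_nonneg (fun x _ => le_max_right _ _) x)
    (fun x _ => indicator_nonneg (fun x hx => Hnn x (sm hx)) x)
    ((cH.continuousOn.integrableOn_compact hKc).indicator hCm) ?_
  · rw [integral_indicator hC0, integral_indicator hC1, integral_indicator hCm] at key
    have h1 : P ≤ ∫ x in C0, max (A x) 0 ∂(uniformProbOn K) :=
      hP0.trans (setIntegral_mono iA.integrableOn iA'.integrableOn (fun x => le_max_left _ _))
    have h2 : P ≤ ∫ x in C1, max (B x) 0 ∂(uniformProbOn K) :=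
      hP1.trans (setIntegral_mono iB.integrableOn iB'.integrableOn (fun x => le_max_left _ _))
    have h3 : P * P ≤ (∫ x in Cm, H x ∂(uniformProbOn K)) ^ 2 :=
      (mul_le_mul h1 h2 hP.le (hP.le.trans h1)).trans key
    nlinarith
  · intro x0 _ x1 _
    by_cases hx0 : x0 ∈ C0
    swap
    · rw [indicator_of_notMem hx0, zero_mul]; positivity
    by_cases hx1 : x1 ∈ C1
    swap
    · rw [indicator_of_notMem hx1, mul_zero]; positivity
    have hm := hmid x0 hx0 x1 hx1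
    rw [indicator_of_mem hx0, indicator_of_mem hx1, indicator_of_mem hm]
    have hid := lemmaS_mid_identity x0 x1 a lam c R
    have hsq : 0 ≤ ‖(1 / 2 : ℝ) • (x0 - x1) - (lam • ((1 / 2 : ℝ) • (x0 + x1)) + a)‖ ^ 2 := by
      positivity
    have hAB : A x0 + B x1 ≤ 2 * H ((1 / 2 : ℝ) • (x0 + x1)) := by
      simp only [hA, hB, hH]
      linarith
    have hHm := Hnn _ (sm hm)
    rcases le_or_gt (A x0) 0 with hA0 | hA0
    · rw [max_eq_right hA0, zero_mul]; positivity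
    rcases le_or_gt (B x1) 0 with hB0 | hB0
    · rw [max_eq_right hB0, mul_zero]; positivity
    rw [max_eq_left hA0.le, max_eq_left hB0.le]
    nlinarith [sq_nonneg (A x0 - B x1)]

lemma lemmaS_int_quad {K : Set (EuclideanSpace ℝ (Fin d))} (hKc : IsCompact K)
    (h0 : volume K ≠ 0) (C : Set (EuclideanSpace ℝ (Fin d))) (α β : ℝ)
    (a : EuclideanSpace ℝ (Fin d)) :
    ∫ x in C, (α + β * ‖x‖ ^ 2 + ⟪a, x⟫) ∂(uniformProbOn K)
      = α * (∫ _ in C, (1 : ℝ) ∂(uniformProbOn K)) + β * (∫ x in C, ‖x‖ ^ 2 ∂(uniformProbOn K))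
        + ⟪a, ∫ x in C, x ∂(uniformProbOn K)⟫ := by
  have i1 : IntegrableOn (fun _ : EuclideanSpace ℝ (Fin d) => α) C (uniformProbOn K) :=
    (uP_integrable_of_continuous hKc h0 continuous_const).integrableOn
  have i2 : IntegrableOn (fun x : EuclideanSpace ℝ (Fin d) => β * ‖x‖ ^ 2) C (uniformProbOn K) :=
    (uP_integrable_of_continuous hKc h0 (by fun_prop)).integrableOn
  have i3 : IntegrableOn (fun x : EuclideanSpace ℝ (Fin d) => ⟪a, x⟫) C (uniformProbOn K) :=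
    (uP_integrable_of_continuous hKc h0 (by fun_prop)).integrableOn
  have i4 : IntegrableOn (fun x : EuclideanSpace ℝ (Fin d) => x) C (uniformProbOn K) :=
    (uP_integrable_of_continuous hKc h0 continuous_id).integrableOn
  have i12 : IntegrableOn (fun x : EuclideanSpace ℝ (Fin d) => α + β * ‖x‖ ^ 2) C
      (uniformProbOn K) := i1.add i2
  rw [integral_add i12 i3, integral_add i1 i2, integral_const_mul, integral_inner i4]
  congr 2
  rw [← integral_const_mul]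
  simp

/-- The inequality for one triple of cells, in terms of moments. -/
lemma lemmaS_cell_ineq {K : Set (EuclideanSpace ℝ (Fin d))} (hKc : IsCompact K)
    (h0 : volume K ≠ 0) (hKv : Convex ℝ K) {R : ℝ} (hR : ∀ x ∈ K, ‖x‖ ≤ R)
    {C0 C1 Cm : Set (EuclideanSpace ℝ (Fin d))} (hC0 : MeasurableSet C0) (hC1 : MeasurableSet C1)
    (hCm : MeasurableSet Cm) (sm : Cm ⊆ K)
    (hmid : ∀ x0 ∈ C0, ∀ x1 ∈ C1, (1 / 2 : ℝ) • (x0 + x1) ∈ Cm)
    (a : EuclideanSpace ℝ (Fin d)) (m0 m1 I0 I1 lam : ℝ) (M0 M1 : EuclideanSpace ℝ (Fin d))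
    (hm0 : m0 = ∫ _ in C0, (1 : ℝ) ∂(uniformProbOn K))
    (hm1 : m1 = ∫ _ in C1, (1 : ℝ) ∂(uniformProbOn K))
    (hI0 : I0 = ∫ x in C0, ‖x‖ ^ 2 ∂(uniformProbOn K))
    (hI1 : I1 = ∫ x in C1, ‖x‖ ^ 2 ∂(uniformProbOn K))
    (hM0 : M0 = ∫ x in C0, x ∂(uniformProbOn K))
    (hM1 : M1 = ∫ x in C1, x ∂(uniformProbOn K))
    (hS : 0 < m0 + m1) (hlam : lam = (m1 - m0) / (m0 + m1)) :
    (R ^ 2 / 2 * m0 - I0 / 2) + (R ^ 2 / 2 * m1 - I1 / 2) - ⟪a, M1 - M0⟫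
        - lam * (R ^ 2 / 2) * (m1 - m0) + lam ^ 2 * (I0 + I1) / 2 + lam * ⟪a, M0 + M1⟫
      ≤ 2 * (∫ x in Cm, (R ^ 2 - ‖x‖ ^ 2) / 2 ∂(uniformProbOn K))
        + ∫ x in Cm, ‖lam • x + a‖ ^ 2 ∂(uniformProbOn K) := by
  set N : ℝ := R ^ 2 / 2 * (m1 - m0) - (I1 - I0) / 2 - lam * (I0 + I1) / 2 - ⟪a, M0⟫ - ⟪a, M1⟫
    with hN
  set c : ℝ := N / (m0 + m1) with hc
  have hcS : c * (m0 + m1) = N := by rw [hc]; field_simp
  have hlS : lam * (m0 + m1) = m1 - m0 := by rw [hlam]; field_simp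
  set P : ℝ := R ^ 2 / 2 * m0 - I0 / 2 + lam * I0 / 2 + ⟪a, M0⟫ + c * m0 with hP
  have e0 : ∫ x in C0, ((R ^ 2 - ‖x‖ ^ 2) / 2 + (lam * ‖x‖ ^ 2 / 2 + ⟪a, x⟫ + c))
      ∂(uniformProbOn K) = P := by
    have := lemmaS_int_quad hKc h0 C0 (R ^ 2 / 2 + c) ((lam - 1) / 2) a
    rw [← hm0, ← hI0, ← hM0] at this
    rw [hP, ← sub_eq_zero, ← sub_eq_zero.2 this]
    have : ∀ x : EuclideanSpace ℝ (Fin d),
        (R ^ 2 - ‖x‖ ^ 2) / 2 + (lam * ‖x‖ ^ 2 / 2 + ⟪a, x⟫ + c)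
          = R ^ 2 / 2 + c + (lam - 1) / 2 * ‖x‖ ^ 2 + ⟪a, x⟫ := fun x => by ring
    simp only [this]
    ring
  have e1 : ∫ x in C1, ((R ^ 2 - ‖x‖ ^ 2) / 2 - (lam * ‖x‖ ^ 2 / 2 + ⟪a, x⟫ + c))
      ∂(uniformProbOn K) = P := by
    have := lemmaS_int_quad hKc h0 C1 (R ^ 2 / 2 - c) ((-lam - 1) / 2) (-a)
    rw [← hm1, ← hI1, ← hM1] at this
    have h2 : ∀ x : EuclideanSpace ℝ (Fin d),
        (R ^ 2 - ‖x‖ ^ 2) / 2 - (lam * ‖x‖ ^ 2 / 2 + ⟪a, x⟫ + c)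
          = R ^ 2 / 2 - c + (-lam - 1) / 2 * ‖x‖ ^ 2 + ⟪-a, x⟫ := fun x => by
      rw [inner_neg_left]; ring
    simp only [h2]
    rw [this, hP, inner_neg_left]
    linear_combination (-1 : ℝ) * hcS + hN
  have key := lemmaS_single hKc h0 hKv hR hC0 hC1 hCm sm hmid lam a c P e0.ge e1.ge
  have i1 : IntegrableOn (fun x : EuclideanSpace ℝ (Fin d) => (R ^ 2 - ‖x‖ ^ 2) / 2) Cm
      (uniformProbOn K) := (uP_integrable_of_continuous hKc h0 (by fun_prop)).integrableOn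
  have i2 : IntegrableOn (fun x : EuclideanSpace ℝ (Fin d) => ‖lam • x + a‖ ^ 2 / 2) Cm
      (uniformProbOn K) := (uP_integrable_of_continuous hKc h0 (by fun_prop)).integrableOn
  have e3 : ∫ x in Cm, ‖lam • x + a‖ ^ 2 / 2 ∂(uniformProbOn K)
      = (∫ x in Cm, ‖lam • x + a‖ ^ 2 ∂(uniformProbOn K)) / 2 := integral_div _ _
  rw [integral_add i1 i2, e3] at key
  have e2 : (R ^ 2 / 2 * m0 - I0 / 2) + (R ^ 2 / 2 * m1 - I1 / 2) - ⟪a, M1 - M0⟫
        - lam * (R ^ 2 / 2) * (m1 - m0) + lam ^ 2 * (I0 + I1) / 2 + lam * ⟪a, M0 + M1⟫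
      = 2 * P := by
    rw [inner_sub_right, inner_add_right, hP]
    linear_combination (-1 : ℝ) * hcS + hN - c * hlS + lam * hcS - lam * hN
  rw [e2]
  linarith

/-- Crude form of the one-cell inequality. -/
lemma lemmaS_cell_bound {K : Set (EuclideanSpace ℝ (Fin d))} (hKc : IsCompact K)
    (h0 : volume K ≠ 0) (hKv : Convex ℝ K) {R : ℝ} (hR : ∀ x ∈ K, ‖x‖ ≤ R)
    {C0 C1 Cm : Set (EuclideanSpace ℝ (Fin d))} (hC0 : MeasurableSet C0) (hC1 : MeasurableSet C1)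
    (hCm : MeasurableSet Cm) (sm : Cm ⊆ K)
    (hmid : ∀ x0 ∈ C0, ∀ x1 ∈ C1, (1 / 2 : ℝ) • (x0 + x1) ∈ Cm)
    (u : EuclideanSpace ℝ (Fin d)) (t : ℝ) (ht : 0 ≤ t) (m0 m1 mm : ℝ)
    (M0 M1 : EuclideanSpace ℝ (Fin d))
    (hm0 : m0 = ∫ _ in C0, (1 : ℝ) ∂(uniformProbOn K))
    (hm1 : m1 = ∫ _ in C1, (1 : ℝ) ∂(uniformProbOn K))
    (hmm : mm = ∫ _ in Cm, (1 : ℝ) ∂(uniformProbOn K))
    (hM0 : M0 = ∫ x in C0, x ∂(uniformProbOn K))
    (hM1 : M1 = ∫ x in C1, x ∂(uniformProbOn K))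
    (hn0 : ‖M0‖ ≤ R * m0) (hn1 : ‖M1‖ ≤ R * m1)
    (hpos : 0 < m0) (hm1nn : 0 ≤ m1) (hmm2 : mm ≤ 2 * m0) :
    (∫ x in C0, (R ^ 2 - ‖x‖ ^ 2) / 2 ∂(uniformProbOn K))
        + (∫ x in C1, (R ^ 2 - ‖x‖ ^ 2) / 2 ∂(uniformProbOn K)) + t * ⟪M1 - M0, u⟫
      ≤ 2 * (∫ x in Cm, (R ^ 2 - ‖x‖ ^ 2) / 2 ∂(uniformProbOn K))
        + 9 / 2 * R ^ 2 * ((m1 - m0) ^ 2 / m0) + 4 * t ^ 2 * (m0 * ‖u‖ ^ 2)
        + t * R * (|m1 - m0| * ‖u‖) := by
  have hR0 : 0 ≤ R := by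
    by_contra h
    have : R * m0 < 0 := mul_neg_of_neg_of_pos (not_le.1 h) hpos
    linarith [norm_nonneg M0]
  set I0 := ∫ x in C0, ‖x‖ ^ 2 ∂(uniformProbOn K) with hI0
  set I1 := ∫ x in C1, ‖x‖ ^ 2 ∂(uniformProbOn K) with hI1
  have hI0nn : 0 ≤ I0 := integral_nonneg (fun x => by positivity)
  have hI1nn : 0 ≤ I1 := integral_nonneg (fun x => by positivity)
  set D := m1 - m0 with hD
  set S := m0 + m1 with hSdef
  have hS : 0 < S := by linarith
  have hSm : m0 ≤ S := by linarith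
  set lam := D / S with hlam
  have key := lemmaS_cell_ineq hKc h0 hKv hR hC0 hC1 hCm sm hmid ((-t) • u) m0 m1 I0 I1 lam M0 M1
    hm0 hm1 hI0 hI1 hM0 hM1 hS hlam
  have eH : ∀ C : Set (EuclideanSpace ℝ (Fin d)),
      ∫ x in C, (R ^ 2 - ‖x‖ ^ 2) / 2 ∂(uniformProbOn K)
        = R ^ 2 / 2 * (∫ _ in C, (1 : ℝ) ∂(uniformProbOn K))
          - (∫ x in C, ‖x‖ ^ 2 ∂(uniformProbOn K)) / 2 := by
    intro C
    have := lemmaS_int_quad hKc h0 C (R ^ 2 / 2) (-1 / 2) 0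
    simp only [inner_zero_left, add_zero] at this
    have h2 : ∀ x : EuclideanSpace ℝ (Fin d),
        (R ^ 2 - ‖x‖ ^ 2) / 2 = R ^ 2 / 2 + -1 / 2 * ‖x‖ ^ 2 := fun x => by ring
    simp only [h2]
    rw [this]; ring
  rw [eH C0, eH C1, ← hm0, ← hm1, ← hI0, ← hI1]
  -- bound of G
  have hG : ∫ x in Cm, ‖lam • x + (-t) • u‖ ^ 2 ∂(uniformProbOn K)
      ≤ (2 * lam ^ 2 * R ^ 2 + 2 * t ^ 2 * ‖u‖ ^ 2) * mm := by
    have i1 : IntegrableOn (fun x : EuclideanSpace ℝ (Fin d) => ‖lam • x + (-t) • u‖ ^ 2) Cm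
      (uniformProbOn K) := (uP_integrable_of_continuous hKc h0 (by fun_prop)).integrableOn
    have i2 : IntegrableOn (fun _ : EuclideanSpace ℝ (Fin d) =>
        (2 * lam ^ 2 * R ^ 2 + 2 * t ^ 2 * ‖u‖ ^ 2) * (1 : ℝ)) Cm
      (uniformProbOn K) := (uP_integrable_of_continuous hKc h0 continuous_const).integrableOn
    rw [hmm, ← integral_const_mul]
    refine setIntegral_mono_on i1 i2 hCm ?_
    intro x hx
    have hx' : ‖x‖ ≤ R := hR x (sm hx)
    have h1 : ‖lam • x + (-t) • u‖ ≤ ‖lam • x‖ + ‖(-t) • u‖ := norm_add_le _ _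
    have h2 : ‖lam • x‖ ^ 2 ≤ lam ^ 2 * R ^ 2 := by
      rw [norm_smul, mul_pow, Real.norm_eq_abs, sq_abs]
      exact mul_le_mul_of_nonneg_left (pow_le_pow_left₀ (norm_nonneg _) hx' 2) (sq_nonneg _)
    have h3 : ‖(-t) • u‖ ^ 2 = t ^ 2 * ‖u‖ ^ 2 := by
      rw [norm_smul, mul_pow, Real.norm_eq_abs, sq_abs]; ring
    have h4 : ‖lam • x + (-t) • u‖ ^ 2 ≤ (‖lam • x‖ + ‖(-t) • u‖) ^ 2 :=
      pow_le_pow_left₀ (norm_nonneg _) h1 2
    nlinarith [sq_nonneg (‖lam • x‖ - ‖(-t) • u‖)]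
  have hcoef : 0 ≤ 2 * lam ^ 2 * R ^ 2 + 2 * t ^ 2 * ‖u‖ ^ 2 := by positivity
  have hG2 : (2 * lam ^ 2 * R ^ 2 + 2 * t ^ 2 * ‖u‖ ^ 2) * mm
      ≤ (2 * lam ^ 2 * R ^ 2 + 2 * t ^ 2 * ‖u‖ ^ 2) * (2 * m0) :=
    mul_le_mul_of_nonneg_left hmm2 hcoef
  have hl1 : lam * D ≤ D ^ 2 / m0 := by
    rw [hlam, div_mul_eq_mul_div, ← sq]
    exact div_le_div_of_nonneg_left (sq_nonneg _) hpos hSm
  have hl2 : lam ^ 2 * m0 ≤ D ^ 2 / m0 := by
    rw [hlam, div_pow, div_mul_eq_mul_div, div_le_div_iff₀ (by positivity) hpos]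
    have : m0 * m0 ≤ S ^ 2 := by nlinarith
    nlinarith [sq_nonneg D]
  have hl3 : |lam| * S = |D| := by
    rw [hlam, abs_div, abs_of_pos hS]; field_simp
  have hl4 : -(lam * ⟪(-t) • u, M0 + M1⟫) ≤ t * R * (|D| * ‖u‖) := by
    have h1 : ‖M0 + M1‖ ≤ R * S := by
      calc ‖M0 + M1‖ ≤ ‖M0‖ + ‖M1‖ := norm_add_le _ _
        _ ≤ R * S := by rw [hSdef]; linarith
    have h2 : |⟪u, M0 + M1⟫| ≤ ‖u‖ * (R * S) :=
      (abs_real_inner_le_norm _ _).trans (mul_le_mul_of_nonneg_left h1 (norm_nonneg _))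
    rw [inner_smul_left]
    simp only [conj_trivial]
    calc -(lam * (-t * ⟪u, M0 + M1⟫)) = t * (lam * ⟪u, M0 + M1⟫) := by ring
      _ ≤ t * (|lam| * |⟪u, M0 + M1⟫|) := by
          refine mul_le_mul_of_nonneg_left ?_ ht
          rw [← abs_mul]; exact le_abs_self _
      _ ≤ t * (|lam| * (‖u‖ * (R * S))) := by gcongr
      _ = t * R * (|D| * ‖u‖) := by rw [← hl3]; ring
  have hl5 : -⟪(-t) • u, M1 - M0⟫ = t * ⟪M1 - M0, u⟫ := by
    rw [inner_smul_left, real_inner_comm]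
    simp
  have hl6 : 0 ≤ lam ^ 2 * (I0 + I1) / 2 := by positivity
  have hR2 : 0 ≤ R ^ 2 := sq_nonneg R
  have p1 := mul_le_mul_of_nonneg_left hl1 hR2
  have p2 := mul_le_mul_of_nonneg_left hl2 hR2
  have p3 := hG.trans hG2
  linarith

end single

section main

lemma lemmaS_optimise {X p U : ℝ} (hp : 0 ≤ p) (hU : 0 ≤ U)
    (h : ∀ t, 0 ≤ t → t * X ≤ 9 / 2 * p ^ 2 + 4 * t ^ 2 * U ^ 2 + t * (p * U)) :
    X ≤ 10 * (p * U) := by
  rcases hU.eq_or_lt with hU0 | hU0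
  · subst hU0
    by_contra hX
    have hX' : 0 < X := by simpa using hX
    have := h ((9 / 2 * p ^ 2 + 1) / X) (by positivity)
    rw [div_mul_cancel₀ _ hX'.ne'] at this
    simp at this
    linarith
  rcases hp.eq_or_lt with hp0 | hp0
  · subst hp0
    by_contra hX
    have hX' : 0 < X := by simpa using hX
    have := h (X / (8 * U ^ 2)) (by positivity)
    have e1 : 4 * (X / (8 * U ^ 2)) ^ 2 * U ^ 2 = X / (8 * U ^ 2) * X / 2 := by
      field_simp; ring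
    have e2 : 0 < X / (8 * U ^ 2) * X := by positivity
    rw [e1] at this
    simp at this
    linarith
  · have := h (p / U) (by positivity)
    have e1 : 4 * (p / U) ^ 2 * U ^ 2 = 4 * p ^ 2 := by field_simp
    have e2 : p / U * (p * U) = p ^ 2 := by field_simp
    rw [e1, e2, div_mul_eq_mul_div, div_le_iff₀ hU0] at this
    have h3 : p * X ≤ p * (10 * (p * U)) := by nlinarith [mul_pos hp0 hU0, mul_pos (mul_pos hp0 hp0) hU0]
    exact le_of_mul_le_mul_left h3 hp0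

variable {d : ℕ} {ι : Type*} [Fintype ι]

/-- Prékopa–Leindler for the masses of the cells. -/
lemma lemmaS_mass_mid {K : Set (EuclideanSpace ℝ (Fin d))} (hKc : IsCompact K)
    (hKv : Convex ℝ K) {y : ι → EuclideanSpace ℝ (Fin d)} (ψ0 ψ1 : ι → ℝ) (j : ι) :
    cellMass K y ψ0 j * cellMass K y ψ1 j ≤ cellMass K y (fun i => (ψ0 i + ψ1 i) / 2) j ^ 2 := by
  have hKm : MeasurableSet K := hKc.measurableSet
  have hC0 : MeasurableSet (cell K y ψ0 j) := measurableSet_cell hKm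
  have hC1 : MeasurableSet (cell K y ψ1 j) := measurableSet_cell hKm
  have hCm : MeasurableSet (cell K y (fun i => (ψ0 i + ψ1 i) / 2) j) := measurableSet_cell hKm
  have key := prekopa_leindler_mid_real_uniformProbOn d hKv hKm
    (f := (cell K y ψ0 j).indicator fun _ => (1 : ℝ))
    (g := (cell K y ψ1 j).indicator fun _ => (1 : ℝ))
    (h := (cell K y (fun i => (ψ0 i + ψ1 i) / 2) j).indicator fun _ => (1 : ℝ))
    (fun x _ => indicator_nonneg (fun _ _ => zero_le_one) x)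
    (fun x _ => indicator_nonneg (fun _ _ => zero_le_one) x)
    (fun x _ => indicator_nonneg (fun _ _ => zero_le_one) x)
    ((continuous_const.continuousOn.integrableOn_compact hKc).indicator hCm) ?_
  · rw [integral_indicator hC0, integral_indicator hC1, integral_indicator hCm] at key
    simpa only [cellMass_eq_integral] using key
  · intro x0 _ x1 _
    by_cases hx0 : x0 ∈ cell K y ψ0 j
    swap
    · rw [indicator_of_notMem hx0, zero_mul]; positivity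
    by_cases hx1 : x1 ∈ cell K y ψ1 j
    swap
    · rw [indicator_of_notMem hx1, mul_zero]; positivity
    rw [indicator_of_mem hx0, indicator_of_mem hx1, indicator_of_mem (cell_midpoint hKv hx0 hx1)]
    norm_num

lemma lemmaS_mass_mid_le [Nonempty ι] {K : Set (EuclideanSpace ℝ (Fin d))} (hKc : IsCompact K)
    (h0 : volume K ≠ 0) (hKv : Convex ℝ K) {y : ι → EuclideanSpace ℝ (Fin d)}
    (hy : Function.Injective y) (ψ0 ψ1 : ι → ℝ) (j : ι) :
    cellMass K y (fun i => (ψ0 i + ψ1 i) / 2) j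
      ≤ cellMass K y ψ0 j + ∑ i, |cellMass K y ψ1 i - cellMass K y ψ0 i| := by
  have hKm : MeasurableSet K := hKc.measurableSet
  have ht : volume K ≠ ∞ := hKc.measure_lt_top.ne
  have hterm : ∀ i, 0 ≤ cellMass K y (fun i => (ψ0 i + ψ1 i) / 2) i - cellMass K y ψ0 i
      + |cellMass K y ψ1 i - cellMass K y ψ0 i| := by
    intro i
    have h1 := lemmaS_mass_mid hKc hKv (y := y) ψ0 ψ1 i
    have a0 : 0 ≤ cellMass K y ψ0 i := cellMass_nonneg
    have a1 : 0 ≤ cellMass K y ψ1 i := cellMass_nonneg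
    have am : 0 ≤ cellMass K y (fun i => (ψ0 i + ψ1 i) / 2) i := cellMass_nonneg
    rcases le_total (cellMass K y ψ0 i) (cellMass K y ψ1 i) with h | h
    · rw [abs_of_nonneg (sub_nonneg.2 h)]
      nlinarith
    · rw [abs_of_nonpos (sub_nonpos.2 h)]
      nlinarith
  have hsum := Finset.single_le_sum (fun i _ => hterm i) (Finset.mem_univ j)
  rw [Finset.sum_add_distrib, Finset.sum_sub_distrib, sum_cellMass hKm h0 ht hy,
    sum_cellMass hKm h0 ht hy] at hsum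
  have := abs_nonneg (cellMass K y ψ1 j - cellMass K y ψ0 j)
  linarith

/-- **Key Lemma S.**  Fixed (distinct) positions `y`, two weight vectors.  If the masses of the cells
change little, the first moments of the cells change by at most `10 R ‖Dm‖`, uniformly in `y`. -/
theorem lemmaS [Nonempty ι] {K : Set (EuclideanSpace ℝ (Fin d))} (hKc : IsCompact K)
    (hKv : Convex ℝ K) (hKi : (interior K).Nonempty) {R : ℝ} (hR : ∀ x ∈ K, ‖x‖ ≤ R)
    {y : ι → EuclideanSpace ℝ (Fin d)} (hy : Function.Injective y) (ψ0 ψ1 : ι → ℝ)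
    (hpos : ∀ j, 0 < cellMass K y ψ0 j)
    (hsmall : ∀ j, ∑ i, |cellMass K y ψ1 i - cellMass K y ψ0 i| ≤ cellMass K y ψ0 j)
    (u : ι → EuclideanSpace ℝ (Fin d)) :
    ∑ j, ⟪cellMoment K y ψ1 j - cellMoment K y ψ0 j, u j⟫
      ≤ 10 * R * √(∑ j, (cellMass K y ψ1 j - cellMass K y ψ0 j) ^ 2 / cellMass K y ψ0 j)
        * √(∑ j, cellMass K y ψ0 j * ‖u j‖ ^ 2) := by
  have hKm : MeasurableSet K := hKc.measurableSet
  have h0 : volume K ≠ 0 := uP_volume_ne_zero hKi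
  have ht : volume K ≠ ∞ := hKc.measure_lt_top.ne
  have hR0 : 0 ≤ R := by
    obtain ⟨x, hx⟩ := hKi
    exact (norm_nonneg x).trans (hR x (interior_subset hx))
  set ψm : ι → ℝ := fun i => (ψ0 i + ψ1 i) / 2 with hψm
  set A2 := ∑ j, (cellMass K y ψ1 j - cellMass K y ψ0 j) ^ 2 / cellMass K y ψ0 j with hA2
  set U2 := ∑ j, cellMass K y ψ0 j * ‖u j‖ ^ 2 with hU2
  have hA2nn : 0 ≤ A2 := Finset.sum_nonneg fun j _ => div_nonneg (sq_nonneg _) (hpos j).le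
  have hU2nn : 0 ≤ U2 := Finset.sum_nonneg fun j _ => mul_nonneg (hpos j).le (sq_nonneg _)
  have hCS : ∑ j, |cellMass K y ψ1 j - cellMass K y ψ0 j| * ‖u j‖ ≤ √A2 * √U2 := by
    have := Real.sum_mul_le_sqrt_mul_sqrt Finset.univ
      (fun j => |cellMass K y ψ1 j - cellMass K y ψ0 j| / √(cellMass K y ψ0 j))
      (fun j => √(cellMass K y ψ0 j) * ‖u j‖)
    have e1 : ∀ j, |cellMass K y ψ1 j - cellMass K y ψ0 j| / √(cellMass K y ψ0 j)
        * (√(cellMass K y ψ0 j) * ‖u j‖) = |cellMass K y ψ1 j - cellMass K y ψ0 j| * ‖u j‖ := by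
      intro j
      have : √(cellMass K y ψ0 j) ≠ 0 := (Real.sqrt_pos.2 (hpos j)).ne'
      field_simp
    have e2 : ∀ j, (|cellMass K y ψ1 j - cellMass K y ψ0 j| / √(cellMass K y ψ0 j)) ^ 2
        = (cellMass K y ψ1 j - cellMass K y ψ0 j) ^ 2 / cellMass K y ψ0 j := by
      intro j
      rw [div_pow, sq_abs, Real.sq_sqrt (hpos j).le]
    have e3 : ∀ j, (√(cellMass K y ψ0 j) * ‖u j‖) ^ 2 = cellMass K y ψ0 j * ‖u j‖ ^ 2 := by
      intro j
      rw [mul_pow, Real.sq_sqrt (hpos j).le]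
    simpa only [e1, e2, e3] using this
  have iH : Integrable (fun x : EuclideanSpace ℝ (Fin d) => (R ^ 2 - ‖x‖ ^ 2) / 2)
      (uniformProbOn K) := uP_integrable_of_continuous hKc h0 (by fun_prop)
  have main : ∀ t, 0 ≤ t → t * ∑ j, ⟪cellMoment K y ψ1 j - cellMoment K y ψ0 j, u j⟫
      ≤ 9 / 2 * (R * √A2) ^ 2 + 4 * t ^ 2 * (√U2) ^ 2 + t * (R * √A2 * √U2) := by
    intro t ht0
    have hj : ∀ j, _ := fun j =>
      lemmaS_cell_bound hKc h0 hKv hR (measurableSet_cell hKm (y := y) (ψ := ψ0) (j := j))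
        (measurableSet_cell hKm (y := y) (ψ := ψ1) (j := j))
        (measurableSet_cell hKm (y := y) (ψ := ψm) (j := j)) cell_subset
        (fun x0 hx0 x1 hx1 => cell_midpoint hKv hx0 hx1) (u j) t ht0
        (cellMass K y ψ0 j) (cellMass K y ψ1 j) (cellMass K y ψm j)
        (cellMoment K y ψ0 j) (cellMoment K y ψ1 j)
        cellMass_eq_integral cellMass_eq_integral cellMass_eq_integral rfl rfl
        (norm_cellMoment_le h0 ht hR) (norm_cellMoment_le h0 ht hR) (hpos j) cellMass_nonneg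
        (by
          have := lemmaS_mass_mid_le hKc h0 hKv hy ψ0 ψ1 j
          have := hsmall j
          linarith)
    have hsum := Finset.sum_le_sum (fun j (_ : j ∈ Finset.univ) => hj j)
    simp only [Finset.sum_add_distrib, ← Finset.mul_sum] at hsum
    rw [sum_setIntegral_cell hKm hy iH, sum_setIntegral_cell hKm hy iH,
      sum_setIntegral_cell hKm hy iH] at hsum
    rw [mul_pow, Real.sq_sqrt hA2nn, Real.sq_sqrt hU2nn]
    have h5 : t * R * ∑ j, |cellMass K y ψ1 j - cellMass K y ψ0 j| * ‖u j‖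
        ≤ t * R * (√A2 * √U2) := mul_le_mul_of_nonneg_left hCS (mul_nonneg ht0 hR0)
    linarith
  have := lemmaS_optimise (mul_nonneg hR0 (Real.sqrt_nonneg A2)) (Real.sqrt_nonneg U2) main
  linarith

end main

end Crest.Agent.S0109Aux
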