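import Mathlib

/-!
# Abstract telescoping lemma along a path with finitely many bad times (S0109, step D3)
-/

set_option autoImplicit false
open Set

namespace Crest.Agent.S0109Aux

/-- If `F t - F s ≤ (q t - q s) (t - s)` for good times `s < t`, `q` monotone on good times, and all
but finitely many times are good, then `F 1 ≤ F 0`. -/
lemma chain_lemma {G : Set ℝ} (hG : Gᶜ.Finite) (h0 : (0 : ℝ) ∈ G) (h1 : (1 : ℝ) ∈ G)
    {F q : ℝ → ℝ} (hq : ∀ s ∈ G, ∀ t ∈ G, s < t → q s ≤ q t)
    (hF : ∀ s ∈ G, ∀ t ∈ G, s < t → F t - F s ≤ (q t - q s) * (t - s)) : F 1 ≤ F 0 := by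
  have key : ∀ η : ℝ, 0 < η → F 1 - F 0 ≤ η * (q 1 - q 0) := by
    intro η hη
    have claim : ∀ n : ℕ, ∀ t ∈ G, 0 ≤ t → t ≤ n * (η / 2) → F t - F 0 ≤ η * (q t - q 0) := by
      intro n
      induction n with
      | zero =>
        intro t _ ht0 ht
        have : t = 0 := le_antisymm (by simpa using ht) ht0
        subst this
        simp
      | succ n ih =>
        intro t htG ht0 ht
        by_cases hle : t ≤ n * (η / 2)
        · exact ih t htG ht0 hle
        · push Not at hle
          -- find an earlier good time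
          have hex : ∃ r ∈ G, 0 ≤ r ∧ r ≤ n * (η / 2) ∧ r < t ∧ t - r ≤ η := by
            rcases Nat.eq_zero_or_pos n with hn | hn
            · subst hn
              refine ⟨0, h0, le_rfl, by simp, by simpa using hle, ?_⟩
              push_cast at ht
              linarith
            · have hn1 : (1 : ℝ) ≤ n := by exact_mod_cast hn
              have hlt : ((n : ℝ) - 1) * (η / 2) < n * (η / 2) := by nlinarith
              obtain ⟨r, hr, hrG⟩ := (Set.Ioo_infinite hlt).exists_notMem_finite hG
              have hrG' : r ∈ G := by simpa using hrG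
              refine ⟨r, hrG', ?_, hr.2.le, lt_trans hr.2 hle, ?_⟩
              · have : 0 ≤ ((n : ℝ) - 1) * (η / 2) := by
                  apply mul_nonneg <;> linarith
                linarith [hr.1]
              · push_cast at ht
                nlinarith [hr.1]
          obtain ⟨r, hrG, hr0, hrn, hrt, hrη⟩ := hex
          have e1 := ih r hrG hr0 hrn
          have e2 := hF r hrG t htG hrt
          have e3 := hq r hrG t htG hrt
          have e4 : (q t - q r) * (t - r) ≤ (q t - q r) * η :=
            mul_le_mul_of_nonneg_left hrη (by linarith)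
          nlinarith
    obtain ⟨n, hn⟩ := exists_nat_ge (2 / η)
    have : (1 : ℝ) ≤ n * (η / 2) := by
      have : 2 / η * (η / 2) = 1 := by field_simp
      calc (1 : ℝ) = 2 / η * (η / 2) := this.symm
        _ ≤ n * (η / 2) := by
          apply mul_le_mul_of_nonneg_right hn (by positivity)
    exact claim n 1 h1 zero_le_one this
  by_contra hcon
  push Not at hcon
  have hq01 : 0 ≤ q 1 - q 0 := by
    have := hq 0 h0 1 h1 zero_lt_one
    linarith
  have hpos : 0 < F 1 - F 0 := by linarith
  have := key ((F 1 - F 0) / (2 * (q 1 - q 0 + 1))) (by positivity)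
  have h2 : (F 1 - F 0) / (2 * (q 1 - q 0 + 1)) * (q 1 - q 0) ≤ (F 1 - F 0) / 2 := by
    rw [div_mul_eq_mul_div, div_le_div_iff₀ (by positivity) (by norm_num)]
    nlinarith
  linarith

/-- Mixed second difference along a path: `a`, `b` have "subgradients" `p`, `q` at good times,
`p - q ≤ B` at good times, and all but finitely many times are good. -/
lemma path_lemma {G : Set ℝ} (hG : Gᶜ.Finite) (h0 : (0 : ℝ) ∈ G) (h1 : (1 : ℝ) ∈ G)
    {a b p q : ℝ → ℝ} {B : ℝ}
    (ha : ∀ s ∈ G, ∀ t ∈ G, a t + p t * (s - t) ≤ a s)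
    (hb : ∀ s ∈ G, ∀ t ∈ G, b t + q t * (s - t) ≤ b s)
    (hpq : ∀ t ∈ G, p t - q t ≤ B) : (a 1 - a 0) - (b 1 - b 0) ≤ B := by
  have hq : ∀ s ∈ G, ∀ t ∈ G, s < t → q s ≤ q t := by
    intro s hs t ht hst
    have e1 := hb s hs t ht
    have e2 := hb t ht s hs
    have : 0 ≤ (q t - q s) * (t - s) := by nlinarith
    by_contra hcon
    push Not at hcon
    nlinarith
  have := chain_lemma hG h0 h1 (F := fun t => a t - b t - B * t) (q := q) hq (by
    intro s hs t ht hst
    have e1 := ha s hs t ht
    have e2 := hb t ht s hs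
    have e3 := hpq t ht
    have : (p t - q t - B) * (t - s) ≤ 0 := by
      apply mul_nonpos_of_nonpos_of_nonneg <;> linarith
    nlinarith)
  linarith

end Crest.Agent.S0109Aux
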