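import Crest.Prelude.Def_QuadraticTransport

/-!
# S0109 helper: Laguerre cells and max-affine potentials (basic facts)
-/

set_option autoImplicit false
open MeasureTheory
open scoped ENNReal NNReal

namespace Crest.Agent.S0109Aux

variable {d : ℕ} {ι : Type*}

local notation "E" => EuclideanSpace ℝ (Fin d)

/-- Laguerre cell of the site `y i` with weights `ψ`. -/
def lagCell (y : ι → E) (ψ : ι → ℝ) (i : ι) : Set E :=
  {x | ∀ j, inner ℝ x (y j) - ψ j ≤ inner ℝ x (y i) - ψ i}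

/-- strict Laguerre cell -/
def lagCellStrict (y : ι → E) (ψ : ι → ℝ) (i : ι) : Set E :=
  {x | ∀ j, j ≠ i → inner ℝ x (y j) - ψ j < inner ℝ x (y i) - ψ i}

/-- The max-affine potential `x ↦ max_i (⟨x, y i⟩ - ψ i)`. -/
noncomputable def lagPot [Fintype ι] [Nonempty ι] (y : ι → E) (ψ : ι → ℝ) (x : E) : ℝ :=
  Finset.univ.sup' Finset.univ_nonempty (fun i => inner ℝ x (y i) - ψ i)

theorem mem_lagCell {y : ι → E} {ψ : ι → ℝ} {i : ι} {x : E} :
    x ∈ lagCell y ψ i ↔ ∀ j, inner ℝ x (y j) - ψ j ≤ inner ℝ x (y i) - ψ i := Iff.rfl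

theorem isClosed_lagCell (y : ι → E) (ψ : ι → ℝ) (i : ι) : IsClosed (lagCell y ψ i) := by
  have : lagCell y ψ i = ⋂ j, {x : E | inner ℝ x (y j) - ψ j ≤ inner ℝ x (y i) - ψ i} := by
    ext x; simp [lagCell]
  rw [this]
  refine isClosed_iInter fun j => isClosed_le ?_ ?_ <;> fun_prop

theorem measurableSet_lagCell (y : ι → E) (ψ : ι → ℝ) (i : ι) : MeasurableSet (lagCell y ψ i) :=
  (isClosed_lagCell y ψ i).measurableSet

theorem convex_lagCell (y : ι → E) (ψ : ι → ℝ) (i : ι) : Convex ℝ (lagCell y ψ i) := by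
  intro x hx z hz a b ha hb hab j
  have h1 := hx j
  have h2 := hz j
  simp only [inner_add_left, inner_smul_left, RCLike.conj_to_real]
  have e1 : ψ j = a * ψ j + b * ψ j := by rw [← add_mul, hab, one_mul]
  have e2 : ψ i = a * ψ i + b * ψ i := by rw [← add_mul, hab, one_mul]
  rw [e1, e2]
  nlinarith [mul_le_mul_of_nonneg_left h1 ha, mul_le_mul_of_nonneg_left h2 hb]

/-- midpoints of points of cells lie in the cell for the averaged weights -/
theorem midpoint_mem_lagCell (y : ι → E) (ψ₀ ψ₁ : ι → ℝ) (i : ι) {x₀ x₁ : E}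
    (h₀ : x₀ ∈ lagCell y ψ₀ i) (h₁ : x₁ ∈ lagCell y ψ₁ i) :
    (1 / 2 : ℝ) • (x₀ + x₁) ∈ lagCell y (fun j => (ψ₀ j + ψ₁ j) / 2) i := by
  intro j
  have h1 := h₀ j
  have h2 := h₁ j
  simp only [inner_add_left, inner_smul_left, RCLike.conj_to_real]
  linarith

theorem lagCell_inter_subset (y : ι → E) (ψ : ι → ℝ) (i j : ι) :
    lagCell y ψ i ∩ lagCell y ψ j ⊆ {x | inner ℝ x (y i - y j) = ψ i - ψ j} := by
  rintro x ⟨hi, hj⟩
  have h1 := hi j
  have h2 := hj i
  simp only [Set.mem_ofPred_eq, inner_sub_right]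
  linarith

theorem lagCell_subset_strict_union (y : ι → E) (ψ : ι → ℝ) (i : ι) :
    lagCell y ψ i ⊆ lagCellStrict y ψ i ∪
      ⋃ j ∈ {j : ι | j ≠ i}, {x | inner ℝ x (y i - y j) = ψ i - ψ j} := by
  intro x hx
  by_cases h : x ∈ lagCellStrict y ψ i
  · exact Or.inl h
  · right
    simp only [lagCellStrict, Set.mem_ofPred_eq, not_forall, not_lt] at h
    obtain ⟨j, hj, hle⟩ := h
    simp only [Set.mem_iUnion]
    refine ⟨j, hj, ?_⟩
    have := hx j
    simp only [Set.mem_ofPred_eq, inner_sub_right]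
    linarith

section Pot

variable [Fintype ι] [Nonempty ι]

theorem le_lagPot (y : ι → E) (ψ : ι → ℝ) (x : E) (i : ι) :
    inner ℝ x (y i) - ψ i ≤ lagPot y ψ x :=
  Finset.le_sup' (fun i => inner ℝ x (y i) - ψ i) (Finset.mem_univ i)

theorem exists_lagPot_eq (y : ι → E) (ψ : ι → ℝ) (x : E) :
    ∃ i, lagPot y ψ x = inner ℝ x (y i) - ψ i := by
  obtain ⟨i, _, hi⟩ := Finset.exists_mem_eq_sup' Finset.univ_nonempty
    (fun i => inner ℝ x (y i) - ψ i)
  exact ⟨i, hi⟩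

theorem lagPot_le_iff (y : ι → E) (ψ : ι → ℝ) (x : E) (a : ℝ) :
    lagPot y ψ x ≤ a ↔ ∀ i, inner ℝ x (y i) - ψ i ≤ a := by
  simp [lagPot, Finset.sup'_le_iff]

theorem mem_lagCell_iff_lagPot (y : ι → E) (ψ : ι → ℝ) (x : E) (i : ι) :
    x ∈ lagCell y ψ i ↔ lagPot y ψ x = inner ℝ x (y i) - ψ i := by
  constructor
  · intro h
    exact le_antisymm ((lagPot_le_iff y ψ x _).2 h) (le_lagPot y ψ x i)
  · intro h j
    rw [← h]; exact le_lagPot y ψ x j

theorem iUnion_lagCell (y : ι → E) (ψ : ι → ℝ) : ⋃ i, lagCell y ψ i = Set.univ := by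
  ext x
  simp only [Set.mem_iUnion, Set.mem_univ, iff_true]
  obtain ⟨i, hi⟩ := exists_lagPot_eq y ψ x
  exact ⟨i, (mem_lagCell_iff_lagPot y ψ x i).2 hi⟩

theorem continuous_lagPot (y : ι → E) (ψ : ι → ℝ) : Continuous (lagPot y ψ) := by
  unfold lagPot
  apply Continuous.finset_sup'_apply
  intro i _
  fun_prop

theorem measurable_lagPot (y : ι → E) (ψ : ι → ℝ) : Measurable (lagPot y ψ) :=
  (continuous_lagPot y ψ).measurable

theorem lagPot_mono (y : ι → E) {ψ ψ' : ι → ℝ} (h : ∀ i, ψ i ≤ ψ' i) (x : E) :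
    lagPot y ψ' x ≤ lagPot y ψ x := by
  rw [lagPot_le_iff]
  intro i
  exact le_trans (by linarith [h i]) (le_lagPot y ψ x i)

theorem lagPot_add_const (y : ι → E) (ψ : ι → ℝ) (c : ℝ) (x : E) :
    lagPot y (fun i => ψ i + c) x = lagPot y ψ x - c := by
  apply le_antisymm
  · rw [lagPot_le_iff]
    intro i
    have := le_lagPot y ψ x i
    linarith
  · have : lagPot y ψ x ≤ lagPot y (fun i => ψ i + c) x + c := by
      rw [lagPot_le_iff]
      intro i
      have := le_lagPot y (fun i => ψ i + c) x i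
      linarith
    linarith

omit [Fintype ι] [Nonempty ι] in
theorem lagCell_add_const (y : ι → E) (ψ : ι → ℝ) (c : ℝ) (i : ι) :
    lagCell y (fun i => ψ i + c) i = lagCell y ψ i := by
  ext x
  simp only [lagCell, Set.mem_ofPred_eq]
  constructor
  · intro h j; have := h j; linarith
  · intro h j; have := h j; linarith

/-- `lagPot` is 1-Lipschitz in the weights (sup norm). -/
theorem abs_lagPot_sub_le (y : ι → E) (ψ ψ' : ι → ℝ) (x : E) :
    |lagPot y ψ x - lagPot y ψ' x| ≤ ‖ψ - ψ'‖ := by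
  have key : ∀ φ φ' : ι → ℝ, lagPot y φ x ≤ lagPot y φ' x + ‖φ - φ'‖ := by
    intro φ φ'
    rw [lagPot_le_iff]
    intro i
    have h1 := le_lagPot y φ' x i
    have h2 : |φ i - φ' i| ≤ ‖φ - φ'‖ := by
      have := norm_le_pi_norm (φ - φ') i
      simpa [Real.norm_eq_abs] using this
    have h3 := (abs_le.1 h2).1
    linarith
  rw [abs_le]
  constructor
  · have := key ψ' ψ
    rw [norm_sub_rev] at this
    linarith
  · have := key ψ ψ'
    linarith

theorem abs_lagPot_le (y : ι → E) (ψ : ι → ℝ) (x : E) (R L : ℝ) (hx : ‖x‖ ≤ R)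
    (hL : ∀ i, ‖y i‖ ≤ L) : |lagPot y ψ x| ≤ R * L + ‖ψ‖ := by
  have hR : 0 ≤ R := le_trans (norm_nonneg _) hx
  have hb : ∀ i, |inner ℝ x (y i) - ψ i| ≤ R * L + ‖ψ‖ := by
    intro i
    have h1 : |inner ℝ x (y i)| ≤ R * L :=
      le_trans (abs_real_inner_le_norm _ _) (mul_le_mul hx (hL i) (norm_nonneg _) hR)
    have h2 : |ψ i| ≤ ‖ψ‖ := by
      simpa [Real.norm_eq_abs] using norm_le_pi_norm ψ i
    calc |inner ℝ x (y i) - ψ i| ≤ |inner ℝ x (y i)| + |ψ i| := abs_sub _ _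
      _ ≤ R * L + ‖ψ‖ := add_le_add h1 h2
  obtain ⟨i, hi⟩ := exists_lagPot_eq y ψ x
  rw [hi]; exact hb i

/-- subgradient inequality: on the cell `i` the vector `y i` is a subgradient of `lagPot`. -/
theorem lagPot_subgradient (y : ι → E) (ψ : ι → ℝ) (i : ι) {x : E} (hx : x ∈ lagCell y ψ i)
    (z : E) : lagPot y ψ x + inner ℝ (y i) (z - x) ≤ lagPot y ψ z := by
  rw [(mem_lagCell_iff_lagPot y ψ x i).1 hx]
  have := le_lagPot y ψ z i
  rw [inner_sub_right, real_inner_comm z, real_inner_comm x]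
  linarith

theorem convexOn_lagPot (y : ι → E) (ψ : ι → ℝ) : ConvexOn ℝ Set.univ (lagPot y ψ) := by
  refine ⟨convex_univ, ?_⟩
  intro x _ z _ a b ha hb hab
  rw [lagPot_le_iff]
  intro i
  have h1 := le_lagPot y ψ x i
  have h2 := le_lagPot y ψ z i
  simp only [inner_add_left, inner_smul_left, RCLike.conj_to_real, smul_eq_mul]
  have e2 : ψ i = a * ψ i + b * ψ i := by rw [← add_mul, hab, one_mul]
  rw [e2]
  nlinarith [mul_le_mul_of_nonneg_left h1 ha, mul_le_mul_of_nonneg_left h2 hb]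

theorem lipschitzWith_lagPot (y : ι → E) (ψ : ι → ℝ) (L : ℝ≥0) (hL : ∀ i, ‖y i‖ ≤ L) :
    LipschitzWith L (lagPot y ψ) := by
  apply LipschitzWith.of_le_add_mul
  intro x z
  rw [lagPot_le_iff]
  intro i
  have h1 := le_lagPot y ψ z i
  have h2 : inner ℝ (x - z) (y i) ≤ L * dist x z := by
    calc inner ℝ (x - z) (y i) ≤ ‖x - z‖ * ‖y i‖ := real_inner_le_norm _ _
      _ ≤ ‖x - z‖ * L := by gcongr; exact hL i
      _ = L * dist x z := by rw [dist_eq_norm, mul_comm]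
  rw [inner_sub_left] at h2
  linarith

end Pot

end Crest.Agent.S0109Aux
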