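import Crest.Agent.S0109Aux.Cells
import Crest.Agent.S0109Aux.Laguerre

/-!
# S0109, step D3a: semi-discrete optimal transport

Existence of weights with prescribed cell masses (`exists_weights`), uniqueness up to a constant
(`weights_unique`) and continuity of the weights in the masses (`weights_tendsto`).
-/

set_option autoImplicit false
open MeasureTheory Set Filter Topology
open scoped ENNReal NNReal RealInnerProductSpace
open Crest.AnalysisR.OT

namespace Crest.Agent.S0109Aux

variable {d : ℕ} {ι : Type*}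

local notation "E" => EuclideanSpace ℝ (Fin d)

theorem cell_eq_inter (K : Set E) (y : ι → E) (ψ : ι → ℝ) (j : ι) :
    cell K y ψ j = K ∩ lagCell y ψ j := rfl

/-- lowering the weight of `i` by `t` -/
noncomputable def lower [DecidableEq ι] (ψ : ι → ℝ) (i : ι) (t : ℝ) : ι → ℝ :=
  Function.update ψ i (ψ i - t)

section lower
variable [DecidableEq ι]

theorem lower_self (ψ : ι → ℝ) (i : ι) (t : ℝ) : lower ψ i t i = ψ i - t := by
  simp [lower]

theorem lower_of_ne (ψ : ι → ℝ) {i j : ι} (h : j ≠ i) (t : ℝ) : lower ψ i t j = ψ j := by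
  simp [lower, h]

theorem mem_cell_lower {K : Set E} {y : ι → E} {ψ : ι → ℝ} {i : ι} {t : ℝ} (ht : 0 ≤ t) {x : E} :
    x ∈ cell K y (lower ψ i t) i ↔ x ∈ K ∧ ∀ j, ⟪x, y j⟫ - ψ j ≤ ⟪x, y i⟫ - ψ i + t := by
  simp only [cell, mem_ofPred_eq, lower_self]
  constructor
  · rintro ⟨hK, h⟩
    refine ⟨hK, fun j => ?_⟩
    by_cases hj : j = i
    · subst hj; linarith
    · have := h j
      rw [lower_of_ne ψ hj] at this
      linarith
  · rintro ⟨hK, h⟩
    refine ⟨hK, fun j => ?_⟩
    by_cases hj : j = i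
    · subst hj; rw [lower_self]
    · rw [lower_of_ne ψ hj]
      have := h j
      linarith

theorem iInter_cell_lower (K : Set E) (y : ι → E) (ψ : ι → ℝ) (i : ι) :
    ⋂ n : ℕ, cell K y (lower ψ i (1 / ((n : ℝ) + 1))) i = cell K y ψ i := by
  ext x
  simp only [mem_iInter]
  constructor
  · intro h
    have hK : x ∈ K := (h 0).1
    refine ⟨hK, fun j => ?_⟩
    have hlim : Tendsto (fun n : ℕ => ⟪x, y i⟫ - ψ i + 1 / ((n : ℝ) + 1)) atTop
        (𝓝 (⟪x, y i⟫ - ψ i + 0)) :=
      tendsto_const_nhds.add tendsto_one_div_add_atTop_nhds_zero_nat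
    rw [add_zero] at hlim
    refine ge_of_tendsto' hlim fun n => ?_
    exact ((mem_cell_lower (by positivity)).1 (h n)).2 j
  · intro h n
    refine (mem_cell_lower (by positivity)).2 ⟨h.1, fun j => ?_⟩
    have := h.2 j
    have h2 : (0 : ℝ) ≤ 1 / ((n : ℝ) + 1) := by positivity
    linarith

theorem cell_lower_mono (K : Set E) (y : ι → E) (ψ : ι → ℝ) (i : ι) {s t : ℝ} (hs : 0 ≤ s)
    (hst : s ≤ t) : cell K y (lower ψ i s) i ⊆ cell K y (lower ψ i t) i := by
  intro x hx
  rw [mem_cell_lower hs] at hx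
  rw [mem_cell_lower (hs.trans hst)]
  exact ⟨hx.1, fun j => by have := hx.2 j; linarith⟩

end lower

section main

variable [Fintype ι] [Nonempty ι] {K : Set (EuclideanSpace ℝ (Fin d))}

theorem uP_prob (hKc : IsCompact K) (hKi : (interior K).Nonempty) :
    IsProbabilityMeasure (uniformProbOn K) :=
  uP_isProbabilityMeasure (uP_volume_ne_zero hKi) hKc.measure_lt_top.ne

omit [Fintype ι] [Nonempty ι] in
theorem cellMass_le_of_subset (hKc : IsCompact K) (hKi : (interior K).Nonempty)
    {y y' : ι → E} {ψ ψ' : ι → ℝ} {i i' : ι} (h : cell K y ψ i ⊆ cell K y' ψ' i') :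
    cellMass K y ψ i ≤ cellMass K y' ψ' i' := by
  have := uP_prob hKc hKi
  exact ENNReal.toReal_mono (measure_ne_top _ _) (measure_mono h)

omit [Nonempty ι] in
/-- right continuity of the mass of the enlarged cell -/
theorem exists_lower_cellMass_le [DecidableEq ι] (hKc : IsCompact K) (hKi : (interior K).Nonempty)
    (y : ι → E) (ψ : ι → ℝ) (i : ι) {ε : ℝ} (hε : 0 < ε) :
    ∃ t : ℝ, 0 < t ∧ cellMass K y (lower ψ i t) i ≤ cellMass K y ψ i + ε := by
  have := uP_prob hKc hKi
  have hKm : MeasurableSet K := hKc.measurableSet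
  have hanti : Antitone fun n : ℕ => cell K y (lower ψ i (1 / ((n : ℝ) + 1))) i := by
    intro n k hnk
    apply cell_lower_mono K y ψ i (by positivity)
    apply one_div_le_one_div_of_le (by positivity)
    have : (n : ℝ) ≤ k := by exact_mod_cast hnk
    linarith
  have hlim := tendsto_measure_iInter_atTop (μ := uniformProbOn K)
    (fun n : ℕ => (measurableSet_cell (y := y) (ψ := lower ψ i (1 / ((n : ℝ) + 1))) (j := i)
      hKm).nullMeasurableSet) hanti ⟨0, measure_ne_top _ _⟩
  rw [iInter_cell_lower] at hlim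
  have hlim2 : Tendsto (fun n : ℕ => cellMass K y (lower ψ i (1 / ((n : ℝ) + 1))) i) atTop
      (𝓝 (cellMass K y ψ i)) :=
    (ENNReal.tendsto_toReal (measure_ne_top _ _)).comp hlim
  have hev : ∀ᶠ n : ℕ in atTop,
      cellMass K y (lower ψ i (1 / ((n : ℝ) + 1))) i < cellMass K y ψ i + ε :=
    hlim2.eventually (gt_mem_nhds (by linarith))
  obtain ⟨n, hn⟩ := hev.exists
  exact ⟨1 / ((n : ℝ) + 1), by positivity, hn.le⟩

omit [Nonempty ι] in
/-- upper semicontinuity of the cell mass in the weights -/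
theorem cellMass_usc (hKc : IsCompact K) (hKi : (interior K).Nonempty)
    (y : ι → E) (ψ : ι → ℝ) (i : ι) {ε : ℝ} (hε : 0 < ε) :
    ∃ t : ℝ, 0 < t ∧ ∀ ψ' : ι → ℝ, ‖ψ' - ψ‖ ≤ t → cellMass K y ψ' i ≤ cellMass K y ψ i + ε := by
  classical
  obtain ⟨t, ht, hle⟩ := exists_lower_cellMass_le hKc hKi y ψ i hε
  refine ⟨t / 2, by positivity, fun ψ' hψ' => le_trans ?_ hle⟩
  apply cellMass_le_of_subset hKc hKi
  intro x hx
  rw [mem_cell_lower ht.le]
  refine ⟨hx.1, fun j => ?_⟩
  have h1 := hx.2 j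
  have hb : ∀ k, |ψ' k - ψ k| ≤ t / 2 := fun k => by
    have := norm_le_pi_norm (ψ' - ψ) k
    rw [Real.norm_eq_abs, Pi.sub_apply] at this
    exact this.trans hψ'
  have h2 := abs_le.1 (hb j)
  have h3 := abs_le.1 (hb i)
  linarith [h2.1, h2.2, h3.1, h3.2]

omit [Nonempty ι] in
theorem exists_bounds (hKc : IsCompact K) (y : ι → E) :
    ∃ R L : ℝ, 0 ≤ R ∧ 0 ≤ L ∧ (∀ x ∈ K, ‖x‖ ≤ R) ∧ ∀ i, ‖y i‖ ≤ L := by
  obtain ⟨R, hR⟩ := hKc.isBounded.exists_norm_le
  refine ⟨max R 0, ∑ i, ‖y i‖, le_max_right _ _, Finset.sum_nonneg fun i _ => norm_nonneg _,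
    fun x hx => (hR x hx).trans (le_max_left _ _), fun i => ?_⟩
  exact Finset.single_le_sum (f := fun i => ‖y i‖) (fun i _ => norm_nonneg _) (Finset.mem_univ i)

theorem integrable_lagPot (hKc : IsCompact K) (hKi : (interior K).Nonempty) (y : ι → E)
    (ψ : ι → ℝ) : Integrable (lagPot y ψ) (uniformProbOn K) := by
  obtain ⟨R, L, _, _, hR, hL⟩ := exists_bounds hKc y
  refine uP_integrable_of_bound hKc.measurableSet (uP_volume_ne_zero hKi) hKc.measure_lt_top.ne
    (continuous_lagPot y ψ).aestronglyMeasurable (C := R * L + ‖ψ‖) fun x hx => ?_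
  rw [Real.norm_eq_abs]
  exact abs_lagPot_le y ψ x R L (hR x hx) hL

theorem le_integral_of_forall_mem (hKc : IsCompact K) (hKi : (interior K).Nonempty) {f : E → ℝ}
    (hf : Integrable f (uniformProbOn K)) {a : ℝ} (h : ∀ x ∈ K, a ≤ f x) :
    a ≤ ∫ x, f x ∂(uniformProbOn K) := by
  have := uP_prob hKc hKi
  calc a = ∫ _, a ∂(uniformProbOn K) := by simp
    _ ≤ ∫ x, f x ∂(uniformProbOn K) :=
        integral_mono_ae (integrable_const _) hf
          ((uP_ae_mem hKc.measurableSet).mono fun x hx => h x hx)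

theorem integral_le_of_forall_mem (hKc : IsCompact K) (hKi : (interior K).Nonempty) {f : E → ℝ}
    (hf : Integrable f (uniformProbOn K)) {a : ℝ} (h : ∀ x ∈ K, f x ≤ a) :
    ∫ x, f x ∂(uniformProbOn K) ≤ a := by
  have := uP_prob hKc hKi
  calc ∫ x, f x ∂(uniformProbOn K) ≤ ∫ _, a ∂(uniformProbOn K) :=
        integral_mono_ae hf (integrable_const _)
          ((uP_ae_mem hKc.measurableSet).mono fun x hx => h x hx)
    _ = a := by simp

/-- the semi-discrete Kantorovich functional -/
noncomputable def kant (K : Set E) (y : ι → E) (m : ι → ℝ) (ψ : ι → ℝ) : ℝ :=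
  ∫ x, lagPot y ψ x ∂(uniformProbOn K) + ∑ i, m i * ψ i

theorem kant_add_const (hKc : IsCompact K) (hKi : (interior K).Nonempty) (y : ι → E)
    (m : ι → ℝ) (hm : ∑ i, m i = 1) (ψ : ι → ℝ) (c : ℝ) :
    kant K y m (fun i => ψ i + c) = kant K y m ψ := by
  have := uP_prob hKc hKi
  unfold kant
  simp only [lagPot_add_const]
  rw [integral_sub (integrable_lagPot hKc hKi y ψ) (integrable_const _)]
  simp only [integral_const, probReal_univ, smul_eq_mul, one_mul, mul_add, Finset.sum_add_distrib]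
  rw [← Finset.sum_mul, hm]
  ring

theorem continuous_kant (hKc : IsCompact K) (hKi : (interior K).Nonempty) (y : ι → E)
    (m : ι → ℝ) : Continuous (kant K y m) := by
  have := uP_prob hKc hKi
  unfold kant
  refine Continuous.add ?_ (by fun_prop)
  have hlip : LipschitzWith 1 fun ψ : ι → ℝ => ∫ x, lagPot y ψ x ∂(uniformProbOn K) := by
    apply LipschitzWith.of_dist_le_mul
    intro ψ ψ'
    rw [Real.dist_eq, ← integral_sub (integrable_lagPot hKc hKi y ψ)
      (integrable_lagPot hKc hKi y ψ'), dist_eq_norm, NNReal.coe_one, one_mul, ← Real.norm_eq_abs]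
    have := norm_integral_le_of_norm_le_const (μ := uniformProbOn K)
      (f := fun x => lagPot y ψ x - lagPot y ψ' x) (C := ‖ψ - ψ'‖)
      (Eventually.of_forall fun x => by
        rw [Real.norm_eq_abs]; exact abs_lagPot_sub_le y ψ ψ' x)
    simpa using this
  exact hlip.continuous

/-- existence of a global minimiser of the Kantorovich functional -/
theorem exists_kant_min (hKc : IsCompact K) (hKi : (interior K).Nonempty) (y : ι → E)
    (m : ι → ℝ) (hpos : ∀ i, 0 < m i) (hm : ∑ i, m i = 1) :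
    ∃ ψ : ι → ℝ, ∀ ψ' : ι → ℝ, kant K y m ψ ≤ kant K y m ψ' := by
  obtain ⟨R, L, hR0, hL0, hR, hL⟩ := exists_bounds hKc y
  set B : ℝ := ∑ k, 2 * (R * L) / m k with hB
  have hBk : ∀ k, 2 * (R * L) / m k ≤ B := fun k =>
    Finset.single_le_sum (f := fun k => 2 * (R * L) / m k)
      (fun i _ => div_nonneg (by positivity) (hpos i).le) (Finset.mem_univ k)
  have hB0 : 0 ≤ B := Finset.sum_nonneg fun i _ => div_nonneg (by positivity) (hpos i).le
  have hcomp : IsCompact (Icc (0 : ι → ℝ) (fun _ => B)) := isCompact_Icc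
  have h0mem : (0 : ι → ℝ) ∈ Icc (0 : ι → ℝ) (fun _ => B) :=
    ⟨le_refl _, fun _ => hB0⟩
  obtain ⟨ψ₀, _, hmin⟩ := hcomp.exists_isMinOn ⟨0, h0mem⟩ (continuous_kant hKc hKi y m).continuousOn
  refine ⟨ψ₀, fun ψ' => ?_⟩
  obtain ⟨i₀, hi₀⟩ := Finite.exists_min ψ'
  set φ : ι → ℝ := fun i => ψ' i + (- ψ' i₀) with hφ
  have hkφ : kant K y m φ = kant K y m ψ' := kant_add_const hKc hKi y m hm ψ' _
  have hφ0 : ∀ i, 0 ≤ φ i := fun i => by simp only [hφ]; linarith [hi₀ i]
  rw [← hkφ]
  by_cases hbox : ∀ k, φ k ≤ B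
  · exact hmin ⟨hφ0, hbox⟩
  · simp only [not_forall, not_le] at hbox
    obtain ⟨k, hk⟩ := hbox
    have h1 : kant K y m ψ₀ ≤ kant K y m 0 := hmin h0mem
    have h2 : kant K y m 0 ≤ R * L := by
      unfold kant
      simp only [Pi.zero_apply, mul_zero, Finset.sum_const_zero, add_zero]
      apply integral_le_of_forall_mem hKc hKi (integrable_lagPot hKc hKi y 0)
      intro x hx
      have := abs_lagPot_le y 0 x R L (hR x hx) hL
      rw [norm_zero, add_zero] at this
      exact (le_abs_self _).trans this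
    have h3 : - (R * L) ≤ ∫ x, lagPot y φ x ∂(uniformProbOn K) := by
      apply le_integral_of_forall_mem hKc hKi (integrable_lagPot hKc hKi y φ)
      intro x hx
      have h4 := le_lagPot y φ x i₀
      have h5 : φ i₀ = 0 := by simp [hφ]
      rw [h5, sub_zero] at h4
      have h6 : |⟪x, y i₀⟫| ≤ R * L :=
        (abs_real_inner_le_norm _ _).trans (mul_le_mul (hR x hx) (hL i₀) (norm_nonneg _) hR0)
      linarith [(abs_le.1 h6).1]
    have h7 : m k * φ k ≤ ∑ i, m i * φ i :=
      Finset.single_le_sum (f := fun i => m i * φ i)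
        (fun i _ => mul_nonneg (hpos i).le (hφ0 i)) (Finset.mem_univ k)
    have h8 : 2 * (R * L) ≤ m k * φ k := by
      have h9 := hBk k
      rw [div_le_iff₀ (hpos k)] at h9
      have : B * m k ≤ φ k * m k := by
        apply mul_le_mul_of_nonneg_right hk.le (hpos k).le
      linarith
    unfold kant at h1 h2 ⊢
    linarith

/-- first order condition: at a minimiser every cell has mass at least `m i` -/
theorem le_cellMass_of_min (hKc : IsCompact K) (hKi : (interior K).Nonempty) (y : ι → E)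
    (m : ι → ℝ) (ψ : ι → ℝ) (hmin : ∀ ψ' : ι → ℝ, kant K y m ψ ≤ kant K y m ψ') (i : ι) :
    m i ≤ cellMass K y ψ i := by
  classical
  have := uP_prob hKc hKi
  have hKm : MeasurableSet K := hKc.measurableSet
  -- for each `t > 0`
  have key : ∀ t : ℝ, 0 < t → m i ≤ cellMass K y (lower ψ i t) i := by
    intro t ht
    have h1 := hmin (lower ψ i t)
    unfold kant at h1
    have hsum : ∑ j, m j * lower ψ i t j = ∑ j, m j * ψ j - t * m i := by
      have : ∀ j, m j * lower ψ i t j = m j * ψ j - (if j = i then t * m i else 0) := by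
        intro j
        by_cases hj : j = i
        · subst hj; rw [lower_self]; simp; ring
        · rw [lower_of_ne ψ hj]; simp [hj]
      simp only [this, Finset.sum_sub_distrib, Finset.sum_ite_eq', Finset.mem_univ, if_true]
    rw [hsum] at h1
    have hmc : MeasurableSet (cell K y (lower ψ i t) i) := measurableSet_cell hKm
    have hint : ∫ x, lagPot y (lower ψ i t) x ∂(uniformProbOn K) ≤
        ∫ x, (lagPot y ψ x + (cell K y (lower ψ i t) i).indicator (fun _ => t) x)
          ∂(uniformProbOn K) := by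
      apply integral_mono_ae (integrable_lagPot hKc hKi y _)
        ((integrable_lagPot hKc hKi y _).add ((integrable_const t).indicator hmc))
      filter_upwards [uP_ae_mem hKm] with x hx
      show lagPot y (lower ψ i t) x ≤
        lagPot y ψ x + (cell K y (lower ψ i t) i).indicator (fun _ => t) x
      by_cases hxc : x ∈ cell K y (lower ψ i t) i
      · rw [indicator_of_mem hxc]
        rw [lagPot_le_iff]
        intro j
        have h2 := le_lagPot y ψ x j
        by_cases hj : j = i
        · subst hj; rw [lower_self]; linarith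
        · rw [lower_of_ne ψ hj]; linarith
      · rw [indicator_of_notMem hxc, add_zero]
        obtain ⟨j, hj⟩ := exists_lagPot_eq y (lower ψ i t) x
        have hji : j ≠ i := by
          rintro rfl
          exact hxc ⟨hx, (mem_lagCell_iff_lagPot y _ x _).2 hj⟩
        rw [hj, lower_of_ne ψ hji]
        exact le_lagPot y ψ x j
    rw [integral_add (integrable_lagPot hKc hKi y _) ((integrable_const t).indicator hmc),
      integral_indicator hmc, setIntegral_const, smul_eq_mul] at hint
    have hreal : (uniformProbOn K).real (cell K y (lower ψ i t) i)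
        = cellMass K y (lower ψ i t) i := rfl
    rw [hreal] at hint
    have h3 : t * m i ≤ cellMass K y (lower ψ i t) i * t := by linarith
    rw [mul_comm] at h3
    exact le_of_mul_le_mul_right h3 ht
  apply le_of_forall_pos_le_add
  intro ε hε
  obtain ⟨t, ht, hle⟩ := exists_lower_cellMass_le hKc hKi y ψ i hε
  exact (key t ht).trans hle

/-- **Existence of weights** with prescribed cell masses. -/
theorem exists_weights (hKc : IsCompact K) (hKi : (interior K).Nonempty) {y : ι → E}
    (hy : Function.Injective y) (m : ι → ℝ) (hpos : ∀ i, 0 < m i) (hm : ∑ i, m i = 1) :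
    ∃ ψ : ι → ℝ, ∀ i, cellMass K y ψ i = m i := by
  obtain ⟨ψ, hmin⟩ := exists_kant_min hKc hKi y m hpos hm
  refine ⟨ψ, ?_⟩
  have hle : ∀ i ∈ Finset.univ, m i ≤ cellMass K y ψ i :=
    fun i _ => le_cellMass_of_min hKc hKi y m ψ hmin i
  have hsum : ∑ i, m i = ∑ i, cellMass K y ψ i := by
    rw [hm, sum_cellMass hKc.measurableSet (uP_volume_ne_zero hKi) hKc.measure_lt_top.ne hy]
  intro i
  exact ((Finset.sum_eq_sum_iff_of_le hle).1 hsum i (Finset.mem_univ i)).symm

end main

section unique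

variable [Fintype ι] [Nonempty ι] {K : Set (EuclideanSpace ℝ (Fin d))}

/-- the gap integrand on the cell `j` of `ψ'` -/
theorem gap_eq_on_cell (y : ι → E) (ψ ψ' : ι → ℝ) (j : ι) {x : E} (hx : x ∈ cell K y ψ' j) :
    lagPot y ψ x - lagPot y ψ' x - (ψ' j - ψ j) = lagPot y ψ x - (⟪x, y j⟫ - ψ j) := by
  rw [(mem_lagCell_iff_lagPot y ψ' x j).1 hx.2]
  ring

theorem integrable_gap (hKc : IsCompact K) (hKi : (interior K).Nonempty) (y : ι → E)
    (ψ ψ' : ι → ℝ) (c : ℝ) :
    Integrable (fun x => lagPot y ψ x - lagPot y ψ' x - c) (uniformProbOn K) := by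
  have := uP_prob hKc hKi
  exact ((integrable_lagPot hKc hKi y ψ).sub (integrable_lagPot hKc hKi y ψ')).sub
    (integrable_const c)

theorem gap_nonneg (hKc : IsCompact K) (y : ι → E) (ψ ψ' : ι → ℝ) (j : ι) :
    0 ≤ ∫ x in cell K y ψ' j, (lagPot y ψ x - lagPot y ψ' x - (ψ' j - ψ j)) ∂(uniformProbOn K) := by
  apply setIntegral_nonneg (measurableSet_cell hKc.measurableSet)
  intro x hx
  rw [gap_eq_on_cell y ψ ψ' j hx]
  linarith [le_lagPot y ψ x j]

theorem sum_gap (hKc : IsCompact K) (hKi : (interior K).Nonempty) {y : ι → E}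
    (hy : Function.Injective y) (ψ ψ' : ι → ℝ) :
    ∑ j, ∫ x in cell K y ψ' j, (lagPot y ψ x - lagPot y ψ' x - (ψ' j - ψ j)) ∂(uniformProbOn K)
      = ∫ x, lagPot y ψ x ∂(uniformProbOn K) - ∫ x, lagPot y ψ' x ∂(uniformProbOn K)
        - ∑ j, cellMass K y ψ' j * (ψ' j - ψ j) := by
  have := uP_prob hKc hKi
  have hD : Integrable (fun x => lagPot y ψ x - lagPot y ψ' x) (uniformProbOn K) :=
    (integrable_lagPot hKc hKi y ψ).sub (integrable_lagPot hKc hKi y ψ')
  have h1 : ∀ j, ∫ x in cell K y ψ' j, (lagPot y ψ x - lagPot y ψ' x - (ψ' j - ψ j))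
      ∂(uniformProbOn K) = ∫ x in cell K y ψ' j, (lagPot y ψ x - lagPot y ψ' x) ∂(uniformProbOn K)
        - cellMass K y ψ' j * (ψ' j - ψ j) := by
    intro j
    rw [integral_sub hD.integrableOn (integrable_const _).integrableOn, setIntegral_const,
      smul_eq_mul]
    rfl
  simp only [h1, Finset.sum_sub_distrib]
  rw [sum_setIntegral_cell hKc.measurableSet hy hD,
    integral_sub (integrable_lagPot hKc hKi y ψ) (integrable_lagPot hKc hKi y ψ')]

/-- weights with cell masses `m` minimise the Kantorovich functional -/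
theorem kant_le_of_cellMass (hKc : IsCompact K) (hKi : (interior K).Nonempty) {y : ι → E}
    (hy : Function.Injective y) (ψ ψ' : ι → ℝ) :
    kant K y (cellMass K y ψ') ψ' ≤ kant K y (cellMass K y ψ') ψ := by
  have h1 := sum_gap hKc hKi hy ψ ψ'
  have h2 : 0 ≤ ∑ j, ∫ x in cell K y ψ' j, (lagPot y ψ x - lagPot y ψ' x - (ψ' j - ψ j))
      ∂(uniformProbOn K) := Finset.sum_nonneg fun j _ => gap_nonneg hKc y ψ ψ' j
  rw [h1] at h2
  unfold kant
  have h3 : ∑ j, cellMass K y ψ' j * (ψ' j - ψ j)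
      = ∑ j, cellMass K y ψ' j * ψ' j - ∑ j, cellMass K y ψ' j * ψ j := by
    simp only [mul_sub, Finset.sum_sub_distrib]
  rw [h3] at h2
  linarith

theorem volume_eq_zero_of_uP (hKc : IsCompact K) {S : Set E} (hS : S ⊆ K)
    (h : uniformProbOn K S = 0) : volume S = 0 := by
  rw [uniformProbOn, Measure.smul_apply, Measure.restrict_apply' hKc.measurableSet,
    inter_eq_left.2 hS, smul_eq_mul, mul_eq_zero] at h
  rcases h with h | h
  · exact absurd (ENNReal.inv_eq_zero.1 h) hKc.measure_lt_top.ne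
  · exact h

/-- **Uniqueness of the weights up to a constant.** -/
theorem weights_unique (hKc : IsCompact K) (hKv : Convex ℝ K) (hKi : (interior K).Nonempty)
    {y : ι → E} (hy : Function.Injective y) (ψ ψ' : ι → ℝ)
    (hpos : ∀ i, 0 < cellMass K y ψ i) (h : ∀ i, cellMass K y ψ' i = cellMass K y ψ i) :
    ∃ c, ∀ i, ψ' i = ψ i + c := by
  have := uP_prob hKc hKi
  have hKm := hKc.measurableSet
  -- all the gaps vanish
  have hs1 := sum_gap hKc hKi hy ψ ψ'
  have hs2 := sum_gap hKc hKi hy ψ' ψ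
  have hn2 : 0 ≤ ∑ j, ∫ x in cell K y ψ j, (lagPot y ψ' x - lagPot y ψ x - (ψ j - ψ' j))
      ∂(uniformProbOn K) := Finset.sum_nonneg fun j _ => gap_nonneg hKc y ψ' ψ j
  have hsum0 : ∑ j, ∫ x in cell K y ψ' j, (lagPot y ψ x - lagPot y ψ' x - (ψ' j - ψ j))
      ∂(uniformProbOn K) ≤ 0 := by
    have e : ∑ j, cellMass K y ψ' j * (ψ' j - ψ j) = - ∑ j, cellMass K y ψ j * (ψ j - ψ' j) := by
      rw [← Finset.sum_neg_distrib]
      apply Finset.sum_congr rfl
      intro j _
      rw [h j]; ring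
    rw [hs1, e]
    rw [hs2] at hn2
    linarith
  have hzero : ∀ j, ∫ x in cell K y ψ' j, (lagPot y ψ x - lagPot y ψ' x - (ψ' j - ψ j))
      ∂(uniformProbOn K) = 0 := by
    have hall := (Finset.sum_eq_zero_iff_of_nonneg
      (fun j _ => gap_nonneg hKc y ψ ψ' j)).1
      (le_antisymm hsum0 (Finset.sum_nonneg fun j _ => gap_nonneg hKc y ψ ψ' j))
    exact fun j => hall j (Finset.mem_univ j)
  -- a.e. on the cell `j` of `ψ'` the difference of potentials is `ψ' j - ψ j`
  set D : E → ℝ := fun x => lagPot y ψ x - lagPot y ψ' x with hD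
  have hDc : Continuous D := (continuous_lagPot y ψ).sub (continuous_lagPot y ψ')
  have hae : ∀ j, ∀ᵐ x ∂(uniformProbOn K), x ∈ cell K y ψ' j → D x = ψ' j - ψ j := by
    intro j
    have hnn : 0 ≤ᵐ[(uniformProbOn K).restrict (cell K y ψ' j)]
        fun x => lagPot y ψ x - lagPot y ψ' x - (ψ' j - ψ j) := by
      rw [EventuallyLE, ae_restrict_iff' (measurableSet_cell hKm)]
      refine Eventually.of_forall fun x hx => ?_
      rw [gap_eq_on_cell y ψ ψ' j hx]
      simp only [Pi.zero_apply]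
      linarith [le_lagPot y ψ x j]
    have h0 := (setIntegral_eq_zero_iff_of_nonneg_ae hnn
      (integrable_gap hKc hKi y ψ ψ' _).integrableOn).1 (hzero j)
    rw [EventuallyEq, ae_restrict_iff' (measurableSet_cell hKm)] at h0
    filter_upwards [h0] with x hx hxc
    have := hx hxc
    simp only [Pi.zero_apply] at this
    simp only [hD]
    linarith
  -- the finite set of values
  set F : Set ℝ := range fun j => ψ' j - ψ j with hF
  have hFfin : F.Finite := finite_range _
  have haeF : ∀ᵐ x ∂(uniformProbOn K), D x ∈ F := by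
    filter_upwards [ae_all_iff.2 hae, uP_ae_mem hKm] with x hx hxK
    have : x ∈ ⋃ j, cell K y ψ' j := by rw [iUnion_cell]; exact hxK
    obtain ⟨j, hj⟩ := mem_iUnion.1 this
    exact ⟨j, (hx j hj).symm⟩
  -- on the interior of `K`, `D` takes values in `F`
  have hmaps : MapsTo D (interior K) F := by
    set U : Set E := interior K ∩ D ⁻¹' Fᶜ with hU
    have hUo : IsOpen U := isOpen_interior.inter (hFfin.isClosed.isOpen_compl.preimage hDc)
    have hU0 : uniformProbOn K U = 0 := by
      refine measure_mono_null ?_ (ae_iff.1 haeF)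
      intro x hx
      exact hx.2
    have hUv : volume U = 0 :=
      volume_eq_zero_of_uP hKc (fun x hx => interior_subset hx.1) hU0
    intro x hx
    by_contra hxF
    exact (hUo.measure_pos volume ⟨x, hx, hxF⟩).ne' hUv
  obtain ⟨x₀, hx₀⟩ := hKi
  have hconst : ∀ x ∈ interior K, D x = D x₀ := fun x hx =>
    hKv.interior.isPreconnected.constant_of_mapsTo hFfin.isDiscrete hDc.continuousOn hmaps hx hx₀
  have hconstK : ∀ x ∈ K, D x = D x₀ := by
    have hEq : EqOn D (fun _ => D x₀) (closure (interior K)) :=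
      EqOn.closure (fun x hx => hconst x hx) hDc continuous_const
    intro x hx
    apply hEq
    rw [hKv.closure_interior_eq_closure_of_nonempty_interior ⟨x₀, hx₀⟩]
    exact subset_closure hx
  refine ⟨D x₀, fun j => ?_⟩
  -- the cell `j` of `ψ'` has positive mass, hence contains a good point
  have hposj : 0 < uniformProbOn K (cell K y ψ' j) := by
    have h1 : 0 < cellMass K y ψ' j := by rw [h j]; exact hpos j
    exact ENNReal.toReal_pos_iff.1 h1 |>.1
  have hex : ∃ x ∈ cell K y ψ' j, D x = ψ' j - ψ j := by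
    by_contra hcon
    simp only [not_exists, not_and] at hcon
    have : uniformProbOn K (cell K y ψ' j) = 0 := by
      refine measure_mono_null ?_ (ae_iff.1 (hae j))
      intro x hx
      simp only [mem_ofPred_eq, Classical.not_imp]
      exact ⟨hx, hcon x hx⟩
    exact hposj.ne' this
  obtain ⟨x, hxc, hxD⟩ := hex
  have := hconstK x hxc.1
  linarith

omit [Fintype ι] [Nonempty ι] in
theorem cell_add_const (y : ι → E) (ψ : ι → ℝ) (c : ℝ) (i : ι) :
    cell K y (fun k => ψ k + c) i = cell K y ψ i := by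
  rw [cell_eq_inter, cell_eq_inter, lagCell_add_const]

omit [Fintype ι] [Nonempty ι] in
theorem cellMass_add_const (y : ι → E) (ψ : ι → ℝ) (c : ℝ) (i : ι) :
    cellMass K y (fun k => ψ k + c) i = cellMass K y ψ i := by
  unfold cellMass
  rw [cell_add_const]

omit [Fintype ι] [Nonempty ι] in
theorem cell_nonempty_of_pos {y : ι → E} {ψ : ι → ℝ} {i : ι} (h : 0 < cellMass K y ψ i) :
    (cell K y ψ i).Nonempty := by
  by_contra hne
  rw [not_nonempty_iff_eq_empty] at hne
  simp [cellMass, hne] at h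

omit [Fintype ι] [Nonempty ι] in
/-- a priori bound on the oscillation of weights all of whose cells are nonempty -/
theorem weights_sub_le {y : ι → E} {ψ : ι → ℝ} {R L : ℝ} (hR : ∀ x ∈ K, ‖x‖ ≤ R)
    (hL : ∀ i, ‖y i‖ ≤ L) {k : ι} (hk : (cell K y ψ k).Nonempty) (j : ι) :
    ψ k - ψ j ≤ 2 * (R * L) := by
  obtain ⟨x, hxK, hx⟩ := hk
  have h1 := hx j
  have hR0 : 0 ≤ R := (norm_nonneg x).trans (hR x hxK)
  have hb : ∀ i, |⟪x, y i⟫| ≤ R * L := fun i =>
    (abs_real_inner_le_norm _ _).trans (mul_le_mul (hR x hxK) (hL i) (norm_nonneg _) hR0)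
  have h2 := abs_le.1 (hb j)
  have h3 := abs_le.1 (hb k)
  linarith [h2.1, h3.2]

/-- **Continuity of the weights in the masses** (modulo constants). -/
theorem weights_tendsto (hKc : IsCompact K) (hKv : Convex ℝ K) (hKi : (interior K).Nonempty)
    {y : ι → E} (hy : Function.Injective y) {α : Type*} {l : Filter α} (ψs : α → ι → ℝ)
    (ψ : ι → ℝ) (hpos : ∀ i, 0 < cellMass K y ψ i)
    (hlim : ∀ i, Tendsto (fun a => cellMass K y (ψs a) i) l (𝓝 (cellMass K y ψ i))) (i j : ι) :
    Tendsto (fun a => ψs a i - ψs a j) l (𝓝 (ψ i - ψ j)) := by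
  obtain ⟨R, L, hR0, hL0, hR, hL⟩ := exists_bounds hKc y
  rw [tendsto_iff_ultrafilter]
  intro g hg
  set φ : α → ι → ℝ := fun a k => ψs a k + (- ψs a j) with hφ
  have hmass : ∀ a k, cellMass K y (φ a) k = cellMass K y (ψs a) k := fun a k =>
    cellMass_add_const y (ψs a) _ k
  have hevpos : ∀ᶠ a in (g : Filter α), ∀ k, 0 < cellMass K y (ψs a) k := by
    rw [eventually_all]
    intro k
    exact ((hlim k).mono_left hg).eventually (lt_mem_nhds (hpos k))
  have hbox : ∀ᶠ a in (g : Filter α), φ a ∈ Metric.closedBall (0 : ι → ℝ) (2 * (R * L)) := by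
    filter_upwards [hevpos] with a ha
    rw [mem_closedBall_zero_iff, pi_norm_le_iff_of_nonneg (by positivity)]
    intro k
    rw [Real.norm_eq_abs, abs_le]
    have h1 := weights_sub_le hR hL (cell_nonempty_of_pos (ha k)) j
    have h2 := weights_sub_le hR hL (cell_nonempty_of_pos (ha j)) k
    simp only [hφ]
    constructor <;> linarith
  have hcomp : IsCompact (Metric.closedBall (0 : ι → ℝ) (2 * (R * L))) :=
    isCompact_closedBall _ _
  obtain ⟨φbar, _, hφbar⟩ := hcomp.ultrafilter_le_nhds (g.map φ) (by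
    rw [le_principal_iff]
    exact hbox)
  have htend : Tendsto φ g (𝓝 φbar) := hφbar
  -- masses of the limit
  have hle : ∀ k ∈ Finset.univ, cellMass K y ψ k ≤ cellMass K y φbar k := by
    intro k _
    apply le_of_forall_pos_le_add
    intro ε hε
    obtain ⟨t, ht, husc⟩ := cellMass_usc hKc hKi y φbar k hε
    have hev : ∀ᶠ a in (g : Filter α), cellMass K y (ψs a) k ≤ cellMass K y φbar k + ε := by
      have h1 : ∀ᶠ a in (g : Filter α), φ a ∈ Metric.closedBall φbar t :=
        htend.eventually (Metric.closedBall_mem_nhds _ ht)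
      filter_upwards [h1] with a ha
      rw [← hmass a k]
      apply husc
      rw [← dist_eq_norm]
      exact ha
    exact le_of_tendsto ((hlim k).mono_left hg) hev
  have hsum : ∑ k, cellMass K y ψ k = ∑ k, cellMass K y φbar k := by
    rw [sum_cellMass hKc.measurableSet (uP_volume_ne_zero hKi) hKc.measure_lt_top.ne hy,
      sum_cellMass hKc.measurableSet (uP_volume_ne_zero hKi) hKc.measure_lt_top.ne hy]
  have heq : ∀ k, cellMass K y φbar k = cellMass K y ψ k := fun k =>
    ((Finset.sum_eq_sum_iff_of_le hle).1 hsum k (Finset.mem_univ k)).symm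
  obtain ⟨c, hc⟩ := weights_unique hKc hKv hKi hy ψ φbar hpos heq
  have h1 : Tendsto (fun a => φ a i - φ a j) g (𝓝 (φbar i - φbar j)) :=
    (((continuous_apply i).tendsto φbar).comp htend).sub
      (((continuous_apply j).tendsto φbar).comp htend)
  have e1 : (fun a => φ a i - φ a j) = fun a => ψs a i - ψs a j := by
    funext a; simp only [hφ]; ring
  have e2 : φbar i - φbar j = ψ i - ψ j := by rw [hc i, hc j]; ring
  rw [e1, e2] at h1
  exact h1

/-- Continuity of `∑ n i * ψ i` for mean-zero `n`. -/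
theorem weights_tendsto_sum (hKc : IsCompact K) (hKv : Convex ℝ K) (hKi : (interior K).Nonempty)
    {y : ι → E} (hy : Function.Injective y) {α : Type*} {l : Filter α} (ψs : α → ι → ℝ)
    (ψ : ι → ℝ) (hpos : ∀ i, 0 < cellMass K y ψ i)
    (hlim : ∀ i, Tendsto (fun a => cellMass K y (ψs a) i) l (𝓝 (cellMass K y ψ i)))
    (n : ι → ℝ) (hn : ∑ i, n i = 0) :
    Tendsto (fun a => ∑ i, n i * ψs a i) l (𝓝 (∑ i, n i * ψ i)) := by
  obtain ⟨j⟩ := ‹Nonempty ι›
  have key : ∀ χ : ι → ℝ, ∑ i, n i * χ i = ∑ i, n i * (χ i - χ j) := by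
    intro χ
    simp only [mul_sub, Finset.sum_sub_distrib]
    rw [← Finset.sum_mul, hn]; ring
  rw [key ψ]
  simp only [key (ψs _)]
  apply tendsto_finsetSum
  intro i _
  exact (weights_tendsto hKc hKv hKi hy ψs ψ hpos hlim i j).const_mul (n i)

end unique

end Crest.Agent.S0109Aux
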