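import Mathlib
import Crest.Agent.S0109Aux.Cells
import Crest.Agent.S0109Aux.PathAbs
import Crest.Agent.S0109Aux.LemmaS
import Crest.Agent.S0109Aux.SemiDiscrete

/-!
# Step D3 of S0109: weak duality for Laguerre cells, the path argument, variance bound for `dψ`
-/

set_option autoImplicit false
set_option linter.unusedSectionVars false
open MeasureTheory Set
open scoped ENNReal NNReal RealInnerProductSpace
open Crest.AnalysisR.OT

namespace Crest.Agent.S0109Aux

variable {d : ℕ} {ι : Type*} [Fintype ι] [Nonempty ι] {K : Set (EuclideanSpace ℝ (Fin d))}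

/-- The max-affine potential with slopes `y i` and heights `-ψ i`. -/
noncomputable def pot (y : ι → EuclideanSpace ℝ (Fin d)) (ψ : ι → ℝ)
    (x : EuclideanSpace ℝ (Fin d)) : ℝ := ⨆ i, (⟪x, y i⟫ - ψ i)

lemma le_pot (y : ι → EuclideanSpace ℝ (Fin d)) (ψ : ι → ℝ) (x : EuclideanSpace ℝ (Fin d))
    (i : ι) : ⟪x, y i⟫ - ψ i ≤ pot y ψ x :=
  le_ciSup (f := fun i => ⟪x, y i⟫ - ψ i) (Set.finite_range _).bddAbove i

lemma pot_eq_of_mem_cell {y : ι → EuclideanSpace ℝ (Fin d)} {ψ : ι → ℝ}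
    {x : EuclideanSpace ℝ (Fin d)} {j : ι} (hx : x ∈ cell K y ψ j) :
    pot y ψ x = ⟪x, y j⟫ - ψ j :=
  le_antisymm (ciSup_le hx.2) (le_pot y ψ x j)

lemma measurable_pot (y : ι → EuclideanSpace ℝ (Fin d)) (ψ : ι → ℝ) : Measurable (pot y ψ) := by
  unfold pot
  exact Measurable.iSup fun i => by fun_prop

lemma abs_pot_le {R : ℝ} (hR : ∀ x ∈ K, ‖x‖ ≤ R) (y : ι → EuclideanSpace ℝ (Fin d)) (ψ : ι → ℝ)
    {x : EuclideanSpace ℝ (Fin d)} (hx : x ∈ K) :
    ‖pot y ψ x‖ ≤ ∑ i, (R * ‖y i‖ + |ψ i|) := by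
  have hx' : x ∈ ⋃ j, cell K y ψ j := by rw [iUnion_cell]; exact hx
  obtain ⟨j, hj⟩ := mem_iUnion.1 hx'
  rw [pot_eq_of_mem_cell hj]
  have hR0 : 0 ≤ R := le_trans (norm_nonneg _) (hR x hx)
  have h1 : ‖⟪x, y j⟫ - ψ j‖ ≤ R * ‖y j‖ + |ψ j| := by
    calc ‖⟪x, y j⟫ - ψ j‖ ≤ ‖⟪x, y j⟫‖ + ‖ψ j‖ := norm_sub_le _ _
      _ ≤ ‖x‖ * ‖y j‖ + |ψ j| := by
        gcongr
        · exact norm_inner_le_norm _ _
        · exact le_of_eq (Real.norm_eq_abs _)
      _ ≤ R * ‖y j‖ + |ψ j| := by gcongr; exact hR x hx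
  refine h1.trans ?_
  exact Finset.single_le_sum (f := fun i => R * ‖y i‖ + |ψ i|)
    (fun i _ => by positivity) (Finset.mem_univ j)

lemma integrable_pot (hKm : MeasurableSet K) (h0 : volume K ≠ 0) (ht : volume K ≠ ∞) {R : ℝ}
    (hR : ∀ x ∈ K, ‖x‖ ≤ R) (y : ι → EuclideanSpace ℝ (Fin d)) (ψ : ι → ℝ) :
    Integrable (pot y ψ) (uniformProbOn K) :=
  uP_integrable_of_bound hKm h0 ht (measurable_pot y ψ).aestronglyMeasurable
    (fun _ hx => abs_pot_le hR y ψ hx)

lemma integrable_id (hKm : MeasurableSet K) (h0 : volume K ≠ 0) (ht : volume K ≠ ∞) {R : ℝ}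
    (hR : ∀ x ∈ K, ‖x‖ ≤ R) :
    Integrable (fun x : EuclideanSpace ℝ (Fin d) => x) (uniformProbOn K) :=
  uP_integrable_of_bound hKm h0 ht measurable_id.aestronglyMeasurable hR

/-- integral of an affine function over a cell -/
lemma setIntegral_aff (hKm : MeasurableSet K) (h0 : volume K ≠ 0) (ht : volume K ≠ ∞) {R : ℝ}
    (hR : ∀ x ∈ K, ‖x‖ ≤ R) (y : ι → EuclideanSpace ℝ (Fin d)) (ψ : ι → ℝ) (j : ι)
    (v : EuclideanSpace ℝ (Fin d)) (c : ℝ) :
    ∫ x in cell K y ψ j, (⟪x, v⟫ - c) ∂(uniformProbOn K) =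
      ⟪cellMoment K y ψ j, v⟫ - cellMass K y ψ j * c := by
  have := uP_isProbabilityMeasure h0 ht
  have hid := (integrable_id hKm h0 ht hR).integrableOn (s := cell K y ψ j)
  rw [integral_sub (by exact hid.inner_const v) (integrable_const _)]
  congr 1
  · rw [cellMoment, real_inner_comm, ← integral_inner hid]
    simp only [real_inner_comm]
  · simp [cellMass, Measure.real]

/-- **Weak duality** for Laguerre cells. -/
theorem weak_duality (hKm : MeasurableSet K) (h0 : volume K ≠ 0) (ht : volume K ≠ ∞) {R : ℝ}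
    (hR : ∀ x ∈ K, ‖x‖ ≤ R) {y y' : ι → EuclideanSpace ℝ (Fin d)} (hy : Function.Injective y)
    (hy' : Function.Injective y') (ψ ψ' : ι → ℝ) :
    ∑ j, (⟪cellMoment K y' ψ' j, y j⟫ - cellMass K y' ψ' j * ψ j) ≤
      ∑ j, (⟪cellMoment K y ψ j, y j⟫ - cellMass K y ψ j * ψ j) := by
  have := uP_isProbabilityMeasure h0 ht
  have hpot := integrable_pot hKm h0 ht hR y ψ
  have hid := integrable_id hKm h0 ht hR
  calc ∑ j, (⟪cellMoment K y' ψ' j, y j⟫ - cellMass K y' ψ' j * ψ j)
      = ∑ j, ∫ x in cell K y' ψ' j, (⟪x, y j⟫ - ψ j) ∂(uniformProbOn K) := by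
        simp only [setIntegral_aff hKm h0 ht hR]
    _ ≤ ∑ j, ∫ x in cell K y' ψ' j, pot y ψ x ∂(uniformProbOn K) := by
        apply Finset.sum_le_sum
        intro j _
        apply integral_mono
        · exact ((hid.inner_const (y j)).sub (integrable_const _)).integrableOn
        · exact hpot.integrableOn
        · intro x; exact le_pot y ψ x j
    _ = ∫ x, pot y ψ x ∂(uniformProbOn K) := sum_setIntegral_cell hKm hy' hpot
    _ = ∑ j, ∫ x in cell K y ψ j, pot y ψ x ∂(uniformProbOn K) :=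
        (sum_setIntegral_cell hKm hy hpot).symm
    _ = ∑ j, ∫ x in cell K y ψ j, (⟪x, y j⟫ - ψ j) ∂(uniformProbOn K) := by
        apply Finset.sum_congr rfl
        intro j _
        apply setIntegral_congr_fun (measurableSet_cell hKm)
        intro x hx
        exact pot_eq_of_mem_cell hx
    _ = ∑ j, (⟪cellMoment K y ψ j, y j⟫ - cellMass K y ψ j * ψ j) := by
        simp only [setIntegral_aff hKm h0 ht hR]

/-- Optimality of the Laguerre assignment among cell decompositions with the same masses. -/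
theorem moment_le (hKm : MeasurableSet K) (h0 : volume K ≠ 0) (ht : volume K ≠ ∞) {R : ℝ}
    (hR : ∀ x ∈ K, ‖x‖ ≤ R) {y y' : ι → EuclideanSpace ℝ (Fin d)} (hy : Function.Injective y)
    (hy' : Function.Injective y') (ψ ψ' : ι → ℝ)
    (hm : ∀ j, cellMass K y' ψ' j = cellMass K y ψ j) :
    ∑ j, ⟪cellMoment K y' ψ' j, y j⟫ ≤ ∑ j, ⟪cellMoment K y ψ j, y j⟫ := by
  have := weak_duality hKm h0 ht hR hy hy' ψ ψ'
  simp only [hm, Finset.sum_sub_distrib] at this
  linarith

/-- the bad times of a linear path of sites starting at distinct sites form a finite set -/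
lemma finite_bad_times {y u : ι → EuclideanSpace ℝ (Fin d)} (hy : Function.Injective y) :
    ({τ : ℝ | Function.Injective (fun j => y j + τ • u j)}ᶜ).Finite := by
  have hsub : {τ : ℝ | Function.Injective (fun j => y j + τ • u j)}ᶜ ⊆
      ⋃ p : ι × ι, {τ : ℝ | p.1 ≠ p.2 ∧ y p.1 + τ • u p.1 = y p.2 + τ • u p.2} := by
    intro τ hτ
    simp only [mem_compl_iff, mem_ofPred_eq, Function.Injective, not_forall] at hτ
    obtain ⟨i, j, hij, hne⟩ := hτ
    exact mem_iUnion.2 ⟨(i, j), hne, hij⟩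
  refine Set.Finite.subset (Set.finite_iUnion fun p => Set.Subsingleton.finite ?_) hsub
  rintro τ ⟨hne, h1⟩ τ' ⟨-, h2⟩
  by_contra hττ
  apply hne
  apply hy
  have h3 : (τ - τ') • (u p.1 - u p.2) = 0 := by
    have : (τ - τ') • (u p.1 - u p.2) =
        (y p.1 + τ • u p.1) - (y p.2 + τ • u p.2) - ((y p.1 + τ' • u p.1) - (y p.2 + τ' • u p.2)) := by
      module
    rw [this, h1, h2]; simp
  have h4 : u p.1 = u p.2 := by
    rcases smul_eq_zero.1 h3 with h | h
    · exact absurd (sub_eq_zero.1 h) hττ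
    · exact sub_eq_zero.1 h
  rw [h4] at h1
  exact add_right_cancel h1

/-- **Mixed second difference bound** (D3): masses `m` at sites `y`, masses `m'` at sites `z`. -/
theorem mixed_bound (hKc : IsCompact K) (hKv : Convex ℝ K) (hKi : (interior K).Nonempty) {R : ℝ}
    (hR : ∀ x ∈ K, ‖x‖ ≤ R) {y z : ι → EuclideanSpace ℝ (Fin d)} (hy : Function.Injective y)
    (hz : Function.Injective z) (m m' : ι → ℝ) (hm : ∀ i, 0 < m i) (hm' : ∀ i, 0 < m' i)
    (hsum : ∑ i, m i = 1) (hsum' : ∑ i, m' i = 1) (hsmall : ∀ j, ∑ i, |m' i - m i| ≤ m j)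
    (ψy ψz' : ι → ℝ) (hψy : ∀ i, cellMass K y ψy i = m i)
    (hψz' : ∀ i, cellMass K z ψz' i = m' i) :
    ∑ j, (m' j - m j) * (ψz' j - ψy j) ≤
      10 * R * Real.sqrt (∑ j, (m' j - m j) ^ 2 / m j) *
        Real.sqrt (∑ j, m j * ‖z j - y j‖ ^ 2) := by
  have hKm : MeasurableSet K := hKc.measurableSet
  have h0 : volume K ≠ 0 := uP_volume_ne_zero hKi
  have ht : volume K ≠ ∞ := hKc.measure_lt_top.ne
  set u : ι → EuclideanSpace ℝ (Fin d) := fun j => z j - y j with hu
  set Y : ℝ → ι → EuclideanSpace ℝ (Fin d) := fun τ j => y j + τ • u j with hY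
  set G : Set ℝ := {τ : ℝ | Function.Injective (Y τ)} with hGdef
  have hG : Gᶜ.Finite := finite_bad_times hy
  have hY0 : Y 0 = y := by funext j; simp [hY]
  have hY1 : Y 1 = z := by funext j; simp [hY, hu]
  have h0G : (0 : ℝ) ∈ G := by simp only [hGdef, mem_ofPred_eq, hY0]; exact hy
  have h1G : (1 : ℝ) ∈ G := by simp only [hGdef, mem_ofPred_eq, hY1]; exact hz
  have ex0 : ∀ τ : ℝ, ∃ ψ : ι → ℝ, τ ∈ G → ∀ i, cellMass K (Y τ) ψ i = m i := by
    intro τ
    by_cases h : τ ∈ G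
    · obtain ⟨ψ, hψ⟩ := exists_weights hKc hKi h m hm hsum
      exact ⟨ψ, fun _ => hψ⟩
    · exact ⟨0, fun h' => absurd h' h⟩
  have ex1 : ∀ τ : ℝ, ∃ ψ : ι → ℝ, τ ∈ G → ∀ i, cellMass K (Y τ) ψ i = m' i := by
    intro τ
    by_cases h : τ ∈ G
    · obtain ⟨ψ, hψ⟩ := exists_weights hKc hKi h m' hm' hsum'
      exact ⟨ψ, fun _ => hψ⟩
    · exact ⟨0, fun h' => absurd h' h⟩
  choose W0 hW0 using ex0
  choose W1 hW1 using ex1
  set B : ℝ := 10 * R * Real.sqrt (∑ j, (m' j - m j) ^ 2 / m j) *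
        Real.sqrt (∑ j, m j * ‖z j - y j‖ ^ 2) with hB
  -- subgradient inequality, generic in the family of weights
  have sub : ∀ (W : ℝ → ι → ℝ) (μ : ι → ℝ), (∀ τ ∈ G, ∀ i, cellMass K (Y τ) (W τ) i = μ i) →
      ∀ s ∈ G, ∀ t ∈ G, (∑ j, ⟪cellMoment K (Y t) (W t) j, Y t j⟫) +
        (∑ j, ⟪cellMoment K (Y t) (W t) j, u j⟫) * (s - t) ≤
        ∑ j, ⟪cellMoment K (Y s) (W s) j, Y s j⟫ := by
    intro W μ hW s hs t ht'
    have h := moment_le hKm h0 ht hR (y := Y s) (y' := Y t) hs ht' (W s) (W t)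
      (fun j => by rw [hW t ht', hW s hs])
    refine le_trans (le_of_eq ?_) h
    rw [Finset.sum_mul, ← Finset.sum_add_distrib]
    apply Finset.sum_congr rfl
    intro j _
    have : Y s j = Y t j + (s - t) • u j := by
      simp only [hY]; module
    generalize cellMoment K (Y t) (W t) j = M
    generalize Y s j = a at this
    generalize Y t j = b at this
    rw [this, inner_add_right, inner_smul_right]
    ring
  have main := path_lemma hG h0G h1G
    (a := fun τ => ∑ j, ⟪cellMoment K (Y τ) (W1 τ) j, Y τ j⟫)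
    (b := fun τ => ∑ j, ⟪cellMoment K (Y τ) (W0 τ) j, Y τ j⟫)
    (p := fun τ => ∑ j, ⟪cellMoment K (Y τ) (W1 τ) j, u j⟫)
    (q := fun τ => ∑ j, ⟪cellMoment K (Y τ) (W0 τ) j, u j⟫) (B := B)
    (sub W1 m' hW1) (sub W0 m hW0) (by
      intro t htG
      have h := lemmaS hKc hKv hKi hR (y := Y t) htG (W0 t) (W1 t)
        (fun j => by rw [hW0 t htG]; exact hm j)
        (fun j => by simp only [hW0 t htG, hW1 t htG]; exact hsmall j) u
      simp only [hW0 t htG, hW1 t htG, inner_sub_left, Finset.sum_sub_distrib] at h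
      exact h)
  simp only [hY0, hY1] at main
  -- inequalities of type (a)
  have a0 : (∑ j, ⟪cellMoment K y (W1 0) j, y j⟫) - (∑ j, ⟪cellMoment K y (W0 0) j, y j⟫) ≤
      ∑ j, (m' j - m j) * ψy j := by
    have hW10 : ∀ i, cellMass K y (W1 0) i = m' i := by
      have := hW1 0 h0G; rwa [hY0] at this
    have hW00 : ∀ i, cellMass K y (W0 0) i = m i := by
      have := hW0 0 h0G; rwa [hY0] at this
    have e1 := weak_duality hKm h0 ht hR hy hy ψy (W1 0)
    have e2 := moment_le hKm h0 ht hR hy hy (W0 0) ψy (fun j => by rw [hψy, hW00])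
    simp only [hW10, hψy, Finset.sum_sub_distrib] at e1
    simp only [sub_mul, Finset.sum_sub_distrib]
    linarith
  have a1 : ∑ j, (m' j - m j) * ψz' j ≤
      (∑ j, ⟪cellMoment K z (W1 1) j, z j⟫) - (∑ j, ⟪cellMoment K z (W0 1) j, z j⟫) := by
    have hW11 : ∀ i, cellMass K z (W1 1) i = m' i := by
      have := hW1 1 h1G; rwa [hY1] at this
    have hW01 : ∀ i, cellMass K z (W0 1) i = m i := by
      have := hW0 1 h1G; rwa [hY1] at this
    have e1 := weak_duality hKm h0 ht hR hz hz ψz' (W0 1)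
    have e2 := moment_le hKm h0 ht hR hz hz (W1 1) ψz' (fun j => by rw [hψz', hW11])
    simp only [hW01, hψz', Finset.sum_sub_distrib] at e1
    simp only [sub_mul, Finset.sum_sub_distrib]
    linarith
  have : ∑ j, (m' j - m j) * (ψz' j - ψy j) =
      ∑ j, (m' j - m j) * ψz' j - ∑ j, (m' j - m j) * ψy j := by
    simp only [mul_sub, Finset.sum_sub_distrib]
  rw [this]
  linarith

/-- **(P_ψ)**: the `m`-variance of the difference of the weights is controlled by the transport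
cost of the matched atoms. -/
theorem var_dpsi_le (hKc : IsCompact K) (hKv : Convex ℝ K) (hKi : (interior K).Nonempty) {R : ℝ}
    (hR : ∀ x ∈ K, ‖x‖ ≤ R) {y z : ι → EuclideanSpace ℝ (Fin d)} (hy : Function.Injective y)
    (hz : Function.Injective z) (m : ι → ℝ) (hm : ∀ i, 0 < m i)
    (ψy ψz : ι → ℝ) (hψy : ∀ i, cellMass K y ψy i = m i)
    (hψz : ∀ i, cellMass K z ψz i = m i) :
    ∑ j, m j * ((ψz j - ψy j) - ∑ i, m i * (ψz i - ψy i)) ^ 2 ≤
      100 * R ^ 2 * ∑ j, m j * ‖z j - y j‖ ^ 2 := by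
  have hKm : MeasurableSet K := hKc.measurableSet
  have h0 : volume K ≠ 0 := uP_volume_ne_zero hKi
  have ht : volume K ≠ ∞ := hKc.measure_lt_top.ne
  have hR0 : 0 ≤ R := by
    obtain ⟨x, hx⟩ := hKi
    exact le_trans (norm_nonneg _) (hR x (interior_subset hx))
  have hsum : ∑ i, m i = 1 := by
    have := sum_cellMass (ψ := ψy) hKm h0 ht hy
    simpa only [hψy] using this
  set c : ℝ := ∑ i, m i * (ψz i - ψy i) with hc
  set ζ : ι → ℝ := fun j => (ψz j - ψy j) - c with hζ
  set n : ι → ℝ := fun j => m j * ζ j with hn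
  set V : ℝ := ∑ j, m j * ζ j ^ 2 with hV
  set ε2 : ℝ := ∑ j, m j * ‖z j - y j‖ ^ 2 with hε2
  have hV0 : 0 ≤ V := Finset.sum_nonneg fun j _ => mul_nonneg (hm j).le (sq_nonneg _)
  have hε0 : 0 ≤ ε2 := Finset.sum_nonneg fun j _ => mul_nonneg (hm j).le (sq_nonneg _)
  have hnsum : ∑ j, n j = 0 := by
    simp only [hn, hζ, mul_sub, Finset.sum_sub_distrib, ← Finset.sum_mul, hsum]
    simp only [hc, mul_sub, Finset.sum_sub_distrib]
    ring
  have hVeq : ∑ j, n j * ψz j - ∑ j, n j * ψy j = V := by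
    have h1 : ∑ j, n j * ψz j - ∑ j, n j * ψy j = ∑ j, (m j * ζ j ^ 2 + c * n j) := by
      rw [← Finset.sum_sub_distrib]
      apply Finset.sum_congr rfl
      intro j _
      simp only [hn, hζ]
      ring
    rw [h1, Finset.sum_add_distrib, ← Finset.mul_sum, hnsum]
    simp [hV]
  have claim : ∑ j, n j * ψz j - ∑ j, n j * ψy j ≤ 10 * R * Real.sqrt V * Real.sqrt ε2 := by
    obtain ⟨j0, hj0⟩ := Finite.exists_min m
    set N : ℝ := ∑ i, |n i| with hN
    have hN0 : 0 ≤ N := Finset.sum_nonneg fun i _ => abs_nonneg _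
    set s0 : ℝ := (m j0 / 2) / (N + 1) with hs0def
    have hs0 : 0 < s0 := div_pos (half_pos (hm j0)) (by linarith)
    have hni : ∀ i, |n i| ≤ N := fun i =>
      Finset.single_le_sum (f := fun i => |n i|) (fun i _ => abs_nonneg _) (Finset.mem_univ i)
    -- the estimate for a fixed small `s`
    have fixed : ∀ s : ℝ, 0 < s → s ≤ s0 → ∃ ψs : ι → ℝ,
        (∀ i, cellMass K z ψs i = m i + s * n i) ∧
        ∑ j, n j * ψs j ≤ ∑ j, n j * ψy j + 10 * R * Real.sqrt V * Real.sqrt ε2 := by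
      intro s hs0' hss0
      have hsN : s * N ≤ m j0 / 2 := by
        have h1 : s * N ≤ s0 * N := mul_le_mul_of_nonneg_right hss0 hN0
        have h2 : s0 * N ≤ m j0 / 2 := by
          rw [hs0def, div_mul_eq_mul_div, div_le_iff₀ (by linarith)]
          nlinarith [hm j0]
        linarith
      have hsni : ∀ i, |s * n i| ≤ m j0 / 2 := by
        intro i
        rw [abs_mul, abs_of_pos hs0']
        exact le_trans (mul_le_mul_of_nonneg_left (hni i) hs0'.le) hsN
      set m' : ι → ℝ := fun j => m j + s * n j with hm'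
      have hm'pos : ∀ i, 0 < m' i := by
        intro i
        have h1 := hsni i
        have h2 := neg_abs_le (s * n i)
        have h4 := hj0 i
        have h5 := hm j0
        simp only [hm']
        linarith
      have hsum' : ∑ i, m' i = 1 := by
        simp only [hm', Finset.sum_add_distrib, ← Finset.mul_sum, hnsum, hsum]
        ring
      have hsmall : ∀ j, ∑ i, |m' i - m i| ≤ m j := by
        intro j
        have : ∑ i, |m' i - m i| = s * N := by
          rw [hN, Finset.mul_sum]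
          apply Finset.sum_congr rfl
          intro i _
          simp only [hm', add_sub_cancel_left, abs_mul, abs_of_pos hs0']
        rw [this]
        have h4 := hj0 j
        have h5 := hm j0
        linarith
      obtain ⟨ψs, hψs⟩ := exists_weights hKc hKi hz m' hm'pos hsum'
      refine ⟨ψs, hψs, ?_⟩
      have hmb := mixed_bound hKc hKv hKi hR hy hz m m' hm hm'pos hsum hsum' hsmall ψy ψs hψy hψs
      have e1 : ∑ j, (m' j - m j) * (ψs j - ψy j) =
          s * (∑ j, n j * ψs j - ∑ j, n j * ψy j) := by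
        rw [← Finset.sum_sub_distrib, Finset.mul_sum]
        apply Finset.sum_congr rfl
        intro j _
        simp only [hm']
        ring
      have e2 : ∑ j, (m' j - m j) ^ 2 / m j = s ^ 2 * V := by
        rw [hV, Finset.mul_sum]
        apply Finset.sum_congr rfl
        intro j _
        have := (hm j).ne'
        simp only [hm', hn]
        field_simp
        ring
      rw [e1, e2, Real.sqrt_mul (sq_nonneg s), Real.sqrt_sq hs0'.le] at hmb
      have e3 : ∑ j, n j * ψs j - ∑ j, n j * ψy j ≤ 10 * R * Real.sqrt V * Real.sqrt ε2 := by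
        have : s * (∑ j, n j * ψs j - ∑ j, n j * ψy j) ≤
            s * (10 * R * Real.sqrt V * Real.sqrt ε2) := by
          calc _ ≤ _ := hmb
            _ = _ := by ring
        exact le_of_mul_le_mul_left this hs0'
      linarith
    have fixed' : ∀ s : ℝ, ∃ ψs : ι → ℝ, 0 < s → s ≤ s0 →
        (∀ i, cellMass K z ψs i = m i + s * n i) ∧
        ∑ j, n j * ψs j ≤ ∑ j, n j * ψy j + 10 * R * Real.sqrt V * Real.sqrt ε2 := by
      intro s
      by_cases h : 0 < s ∧ s ≤ s0
      · obtain ⟨ψs, h1⟩ := fixed s h.1 h.2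
        exact ⟨ψs, fun _ _ => h1⟩
      · exact ⟨0, fun h1 h2 => absurd ⟨h1, h2⟩ h⟩
    choose Ψ hΨ using fixed'
    have hev : ∀ᶠ s in nhdsWithin (0 : ℝ) (Set.Ioi 0), 0 < s ∧ s ≤ s0 := by
      filter_upwards [Ioc_mem_nhdsGT hs0] with s hs using hs
    have hlim : ∀ i, Filter.Tendsto (fun s => cellMass K z (Ψ s) i)
        (nhdsWithin (0 : ℝ) (Set.Ioi 0)) (nhds (cellMass K z ψz i)) := by
      intro i
      have h1 : Filter.Tendsto (fun s : ℝ => m i + s * n i) (nhdsWithin (0 : ℝ) (Set.Ioi 0))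
          (nhds (m i)) := by
        have : Filter.Tendsto (fun s : ℝ => m i + s * n i) (nhds 0) (nhds (m i + 0 * n i)) :=
          tendsto_const_nhds.add (Filter.tendsto_id.mul_const _)
        simp only [zero_mul, add_zero] at this
        exact this.mono_left nhdsWithin_le_nhds
      rw [hψz]
      refine h1.congr' ?_
      filter_upwards [hev] with s hs
      exact ((hΨ s hs.1 hs.2).1 i).symm
    have T := weights_tendsto_sum hKc hKv hKi hz Ψ ψz (fun i => by rw [hψz]; exact hm i) hlim n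
      hnsum
    have hb : ∀ᶠ s in nhdsWithin (0 : ℝ) (Set.Ioi 0),
        ∑ j, n j * Ψ s j ≤ ∑ j, n j * ψy j + 10 * R * Real.sqrt V * Real.sqrt ε2 := by
      filter_upwards [hev] with s hs
      exact (hΨ s hs.1 hs.2).2
    have := le_of_tendsto T hb
    linarith
  rw [hVeq] at claim
  set a := Real.sqrt V with ha
  set b := Real.sqrt ε2 with hb
  have haV : a ^ 2 = V := Real.sq_sqrt hV0
  have hbε : b ^ 2 = ε2 := Real.sq_sqrt hε0
  have ha0 : 0 ≤ a := Real.sqrt_nonneg _
  have hb0 : 0 ≤ b := Real.sqrt_nonneg _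
  rw [← haV, ← hbε]
  rw [← haV] at claim
  rcases ha0.eq_or_lt with h | h
  · rw [← h]
    have : 0 ≤ 100 * R ^ 2 * b ^ 2 := by positivity
    simpa using this
  · have : a ≤ 10 * R * b := by
      have : a * a ≤ a * (10 * R * b) := by nlinarith
      exact le_of_mul_le_mul_left this h
    calc a ^ 2 ≤ (10 * R * b) ^ 2 := pow_le_pow_left₀ ha0 this 2
      _ = 100 * R ^ 2 * b ^ 2 := by ring

end Crest.Agent.S0109Aux
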