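import Mathlib
import Crest.Agent.S0109Aux.Cells
import Crest.Agent.S0109Aux.Path

/-!
# Step D4 of S0109: Lipschitz stability of the max-affine potentials for matched atomic measures
-/

set_option autoImplicit false
set_option linter.unusedSectionVars false
open MeasureTheory Set
open scoped ENNReal NNReal RealInnerProductSpace
open Crest.AnalysisR.OT

namespace Crest.Agent.S0109Aux

variable {d : ℕ} {ι : Type*} [Fintype ι] [Nonempty ι] {K : Set (EuclideanSpace ℝ (Fin d))}

/-- elementary: a number squeezed between `-(|a| + p)` and `|b| + q`. -/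
lemma sq_le_of_sandwich {t a b p q : ℝ} (h1 : a - p ≤ t)
    (h2 : t ≤ b + q) : t ^ 2 ≤ (2 * a ^ 2 + 2 * p ^ 2) + (2 * b ^ 2 + 2 * q ^ 2) := by
  rcases le_total 0 t with h | h
  · have : t ^ 2 ≤ (b + q) ^ 2 := pow_le_pow_left₀ h h2 2
    nlinarith [sq_nonneg (b - q), sq_nonneg a, sq_nonneg p]
  · have : (-t) ^ 2 ≤ (p - a) ^ 2 := pow_le_pow_left₀ (by linarith) (by linarith) 2
    nlinarith [sq_nonneg (a + p), sq_nonneg b, sq_nonneg q]

/-- **Claim (P)**: for matched atomic measures `∑ m i δ_{y i}`, `∑ m i δ_{z i}` the max-affine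
potentials with the right cell masses are `L²(ρ)`-close up to a constant. -/
theorem claimP (hKc : IsCompact K) (hKv : Convex ℝ K) (hKi : (interior K).Nonempty) {R : ℝ}
    (hR : ∀ x ∈ K, ‖x‖ ≤ R) {y z : ι → EuclideanSpace ℝ (Fin d)} (hy : Function.Injective y)
    (hz : Function.Injective z) (m : ι → ℝ) (hm : ∀ i, 0 < m i)
    (ψ ψ' : ι → ℝ) (hψ : ∀ i, cellMass K y ψ i = m i) (hψ' : ∀ i, cellMass K z ψ' i = m i) :
    ∃ c : ℝ, ∫ x, (pot y ψ x - pot z ψ' x - c) ^ 2 ∂(uniformProbOn K) ≤
      404 * R ^ 2 * ∑ i, m i * ‖y i - z i‖ ^ 2 := by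
  have hKm : MeasurableSet K := hKc.measurableSet
  have h0 : volume K ≠ 0 := uP_volume_ne_zero hKi
  have ht : volume K ≠ ∞ := hKc.measure_lt_top.ne
  have := uP_isProbabilityMeasure h0 ht
  have hR0 : 0 ≤ R := by
    obtain ⟨x, hx⟩ := hKi
    exact le_trans (norm_nonneg _) (hR x (interior_subset hx))
  set c : ℝ := ∑ i, m i * (ψ' i - ψ i) with hc
  refine ⟨c, ?_⟩
  have hvar := var_dpsi_le hKc hKv hKi hR hy hz m hm ψ ψ' hψ hψ'
  rw [← hc] at hvar
  set g : ι → ℝ := fun i => 2 * ((ψ' i - ψ i) - c) ^ 2 + 2 * (R * ‖y i - z i‖) ^ 2 with hg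
  have hg0 : ∀ i, 0 ≤ g i := fun i => by simp only [hg]; positivity
  -- pointwise bound
  have hpt : ∀ x ∈ K, (pot y ψ x - pot z ψ' x - c) ^ 2 ≤
      (∑ i, (cell K y ψ i).indicator (fun _ => g i) x) +
        ∑ i, (cell K z ψ' i).indicator (fun _ => g i) x := by
    intro x hx
    have hx1 : x ∈ ⋃ j, cell K y ψ j := by rw [iUnion_cell]; exact hx
    have hx2 : x ∈ ⋃ j, cell K z ψ' j := by rw [iUnion_cell]; exact hx
    obtain ⟨i, hi⟩ := mem_iUnion.1 hx1
    obtain ⟨j, hj⟩ := mem_iUnion.1 hx2
    have hinner : ∀ k, |⟪x, y k - z k⟫| ≤ R * ‖y k - z k‖ := fun k =>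
      (abs_real_inner_le_norm _ _).trans (mul_le_mul_of_nonneg_right (hR x hx) (norm_nonneg _))
    have up : pot y ψ x - pot z ψ' x - c ≤ ((ψ' i - ψ i) - c) + R * ‖y i - z i‖ := by
      have e1 := pot_eq_of_mem_cell hi
      have e2 := le_pot z ψ' x i
      have e3 := (abs_le.1 (hinner i)).2
      rw [inner_sub_right] at e3
      linarith
    have lo : ((ψ' j - ψ j) - c) - R * ‖y j - z j‖ ≤ pot y ψ x - pot z ψ' x - c := by
      have e1 := pot_eq_of_mem_cell hj
      have e2 := le_pot y ψ x j
      have e3 := (abs_le.1 (hinner j)).1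
      rw [inner_sub_right] at e3
      linarith
    have hsq := sq_le_of_sandwich lo up
    have s1 : g i ≤ ∑ i, (cell K y ψ i).indicator (fun _ => g i) x := by
      have := Finset.single_le_sum (f := fun i => (cell K y ψ i).indicator (fun _ => g i) x)
        (fun k _ => Set.indicator_nonneg (fun _ _ => hg0 k) x) (Finset.mem_univ i)
      simpa [Set.indicator_of_mem hi] using this
    have s2 : g j ≤ ∑ i, (cell K z ψ' i).indicator (fun _ => g i) x := by
      have := Finset.single_le_sum (f := fun i => (cell K z ψ' i).indicator (fun _ => g i) x)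
        (fun k _ => Set.indicator_nonneg (fun _ _ => hg0 k) x) (Finset.mem_univ j)
      simpa [Set.indicator_of_mem hj] using this
    simp only [hg] at s1 s2 ⊢
    linarith
  have hint1 : ∀ i, Integrable ((cell K y ψ i).indicator (fun _ => g i)) (uniformProbOn K) :=
    fun i => (integrable_const _).indicator (measurableSet_cell hKm)
  have hint2 : ∀ i, Integrable ((cell K z ψ' i).indicator (fun _ => g i)) (uniformProbOn K) :=
    fun i => (integrable_const _).indicator (measurableSet_cell hKm)
  calc ∫ x, (pot y ψ x - pot z ψ' x - c) ^ 2 ∂(uniformProbOn K)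
      ≤ ∫ x, ((∑ i, (cell K y ψ i).indicator (fun _ => g i) x) +
        ∑ i, (cell K z ψ' i).indicator (fun _ => g i) x) ∂(uniformProbOn K) := by
        apply integral_mono_of_nonneg
        · exact Filter.Eventually.of_forall fun x => sq_nonneg _
        · exact (integrable_finsetSum _ fun i _ => hint1 i).add
            (integrable_finsetSum _ fun i _ => hint2 i)
        · exact (uP_ae_mem hKm).mono fun x hx => hpt x hx
    _ = ∑ i, m i * g i + ∑ i, m i * g i := by
        rw [integral_add (integrable_finsetSum _ fun i _ => hint1 i)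
          (integrable_finsetSum _ fun i _ => hint2 i),
          integral_finsetSum _ fun i _ => hint1 i, integral_finsetSum _ fun i _ => hint2 i]
        congr 1
        · apply Finset.sum_congr rfl
          intro i _
          rw [integral_indicator_const _ (measurableSet_cell hKm), ← hψ i]
          rfl
        · apply Finset.sum_congr rfl
          intro i _
          rw [integral_indicator_const _ (measurableSet_cell hKm), ← hψ' i]
          rfl
    _ = 4 * ∑ j, m j * ((ψ' j - ψ j) - c) ^ 2 + 4 * R ^ 2 * ∑ i, m i * ‖y i - z i‖ ^ 2 := by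
        simp only [hg, Finset.mul_sum, ← Finset.sum_add_distrib]
        apply Finset.sum_congr rfl
        intro i _
        ring
    _ ≤ 404 * R ^ 2 * ∑ i, m i * ‖y i - z i‖ ^ 2 := by
        have : ∑ j, m j * ‖z j - y j‖ ^ 2 = ∑ i, m i * ‖y i - z i‖ ^ 2 := by
          apply Finset.sum_congr rfl
          intro i _
          rw [norm_sub_rev]
        rw [this] at hvar
        linarith

end Crest.Agent.S0109Aux
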