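import Mathlib
import Crest.Prelude.Def_QuadraticTransport

/-!
# Step E of S0109: discretisation of a coupling
-/

set_option autoImplicit false
open MeasureTheory Set
open scoped ENNReal NNReal RealInnerProductSpace
open Crest.AnalysisR.OT

namespace Crest.Agent.S0109Aux

/-- Push-forward of a measure under a map factoring through a finite type. -/
lemma map_comp_eq_sum {Ω κ F : Type*} [MeasurableSpace Ω] [MeasurableSpace κ] [MeasurableSpace F]
    [Fintype κ] [MeasurableSingletonClass κ] (π : Measure Ω) {Q : Ω → κ} (hQ : Measurable Q)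
    (g : κ → F) : π.map (g ∘ Q) = ∑ k, π (Q ⁻¹' {k}) • Measure.dirac (g k) := by
  classical
  have hg : Measurable g := Measurable.of_discrete
  rw [← Measure.map_map hg hQ]
  conv_lhs => rw [← Measure.sum_smul_dirac (π.map Q)]
  rw [Measure.sum_fintype]
  ext A hA
  rw [Measure.map_apply hg hA]
  simp only [Measure.finsetSum_apply, Measure.smul_apply, smul_eq_mul]
  refine Finset.sum_congr rfl fun k _ => ?_
  rw [Measure.map_apply hQ (measurableSet_singleton k), Measure.dirac_apply' _ hA,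
    Measure.dirac_apply' _ (hg hA)]
  rfl

/-- Sums over the subtype of "non-null" indices. -/
lemma sum_subtype_of_zero {κ M : Type*} [Fintype κ] [AddCommMonoid M] (p : κ → Prop)
    [DecidablePred p] (f : κ → M) (h : ∀ k, ¬ p k → f k = 0) :
    ∑ i : {k // p k}, f i.1 = ∑ k, f k := by
  rw [← Finset.sum_subtype (Finset.univ.filter p) (by simp) f]
  refine Finset.sum_subset (Finset.filter_subset _ _) fun k _ hk => h k ?_
  simpa using hk

/-- An injective choice function for finitely many infinite sets. -/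
lemma exists_injective_choice {ι X : Type*} [Finite ι] (S : ι → Set X)
    (hS : ∀ i, (S i).Infinite) : ∃ f : ι → X, Function.Injective f ∧ ∀ i, f i ∈ S i := by
  classical
  have := Fintype.ofFinite ι
  have key : ∀ s : Finset ι, ∃ f : ι → X, Set.InjOn f s ∧ ∀ i, f i ∈ S i := by
    intro s
    induction s using Finset.induction_on with
    | empty => exact ⟨fun i => (hS i).nonempty.some, by simp, fun i => (hS i).nonempty.some_mem⟩
    | insert a s ha ih =>
      obtain ⟨f, hf, hfS⟩ := ih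
      obtain ⟨x, hxS, hx⟩ := (hS a).exists_notMem_finset (s.image f)
      refine ⟨Function.update f a x, ?_, ?_⟩
      · intro i hi j hj hij
        simp only [Finset.coe_insert, Set.mem_insert_iff, Finset.mem_coe] at hi hj
        by_cases hia : i = a
        · by_cases hja : j = a
          · rw [hia, hja]
          · exfalso
            have hjs : j ∈ s := hj.resolve_left hja
            rw [hia, Function.update_self, Function.update_of_ne hja] at hij
            exact hx (hij ▸ Finset.mem_image_of_mem f hjs)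
        · by_cases hja : j = a
          · exfalso
            have his : i ∈ s := hi.resolve_left hia
            rw [hja, Function.update_self, Function.update_of_ne hia] at hij
            exact hx (hij ▸ Finset.mem_image_of_mem f his)
          · rw [Function.update_of_ne hia, Function.update_of_ne hja] at hij
            exact hf (hi.resolve_left hia) (hj.resolve_left hja) hij
      · intro i
        by_cases hia : i = a
        · subst hia; simpa using hxS
        · rw [Function.update_of_ne hia]; exact hfS i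
  obtain ⟨f, hf, hfS⟩ := key Finset.univ
  exact ⟨f, fun i j hij => hf (by simp) (by simp) hij, hfS⟩

/-- A finite `r`-net of a nonempty compact set, enumerated by a sequence. -/
lemma exists_finite_net {X : Type*} [PseudoMetricSpace X] {Y : Set X} (hYc : IsCompact Y)
    (hYn : Y.Nonempty) {r : ℝ} (hr : 0 < r) :
    ∃ (N : ℕ) (e : ℕ → X), (∀ k, e k ∈ Y) ∧ ∀ x ∈ Y, ∃ k ≤ N, dist (e k) x < r := by
  classical
  obtain ⟨t, htY, htf, hcov⟩ := hYc.finite_cover_balls hr
  have htn : t.Nonempty := by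
    obtain ⟨x, hx⟩ := hYn
    have := hcov hx
    simp only [mem_iUnion] at this
    obtain ⟨c, hc, _⟩ := this
    exact ⟨c, hc⟩
  obtain ⟨e, he⟩ := htf.countable.exists_eq_range htn
  have hidx : ∀ c ∈ t, ∃ k, e k = c := by
    intro c hc
    rw [he] at hc
    exact hc
  choose! idx hidx using hidx
  obtain ⟨N, hN⟩ := (htf.image idx).bddAbove
  refine ⟨N, e, fun k => htY (he ▸ mem_range_self k), fun x hx => ?_⟩
  have := hcov hx
  simp only [mem_iUnion] at this
  obtain ⟨c, hc, hxc⟩ := this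
  refine ⟨idx c, hN (mem_image_of_mem idx hc), ?_⟩
  rw [hidx c hc, dist_comm]
  exact hxc


lemma ofReal_le_two_mul_add {A B c : ℝ} (hB : 0 ≤ B) (hc : 0 ≤ c) (h : A ≤ 2 * B + c) :
    ENNReal.ofReal A ≤ 2 * ENNReal.ofReal B + ENNReal.ofReal c := by
  rw [show (2 : ℝ≥0∞) = ENNReal.ofReal 2 by simp, ← ENNReal.ofReal_mul (by norm_num),
    ← ENNReal.ofReal_add (by positivity) hc]
  exact ENNReal.ofReal_le_ofReal h

section main

variable {d : ℕ}

local notation "E" => EuclideanSpace ℝ (Fin d)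

lemma coupling_isProbabilityMeasure {μ ν : Measure E} {π : Measure (E × E)}
    (hμ : IsProbabilityMeasure μ) (hπ : IsPairCoupling μ ν π) : IsProbabilityMeasure π := by
  constructor
  have h := hμ.measure_univ
  rw [← hπ.1, Measure.map_apply measurable_fst MeasurableSet.univ] at h
  simpa using h

lemma coupling_ae_fst {μ ν : Measure E} {π : Measure (E × E)} (hπ : IsPairCoupling μ ν π)
    {Y : Set E} (hYm : MeasurableSet Y) (h : μ Yᶜ = 0) : ∀ᵐ p ∂π, p.1 ∈ Y := by
  rw [← hπ.1, Measure.map_apply measurable_fst hYm.compl] at h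
  exact h

lemma coupling_ae_snd {μ ν : Measure E} {π : Measure (E × E)} (hπ : IsPairCoupling μ ν π)
    {Y : Set E} (hYm : MeasurableSet Y) (h : ν Yᶜ = 0) : ∀ᵐ p ∂π, p.2 ∈ Y := by
  rw [← hπ.2, Measure.map_apply measurable_snd hYm.compl] at h
  exact h

/-- The quadratic cost of a coupling of two probability measures on a compact set is finite. -/
lemma quadCost_ne_top {Y : Set E} (hYc : IsCompact Y) {μ ν : Measure E}
    (hμ : IsProbabilityOn Y μ) (hν : IsProbabilityOn Y ν) {π : Measure (E × E)}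
    (hπ : IsPairCoupling μ ν π) : quadCost π ≠ ∞ := by
  have hP := coupling_isProbabilityMeasure hμ.1 hπ
  obtain ⟨L, hL⟩ := hYc.isBounded.exists_norm_le
  have h1 := coupling_ae_fst hπ hYc.measurableSet hμ.2
  have h2 := coupling_ae_snd hπ hYc.measurableSet hν.2
  have hle : quadCost π ≤ ∫⁻ _, ENNReal.ofReal ((2 * L) ^ 2) ∂π := by
    unfold quadCost
    refine lintegral_mono_ae ?_
    filter_upwards [h1, h2] with p hp1 hp2
    rw [← ofReal_norm, ← ENNReal.ofReal_pow (norm_nonneg _)]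
    apply ENNReal.ofReal_le_ofReal
    have : ‖p.1 - p.2‖ ≤ 2 * L := by
      calc ‖p.1 - p.2‖ ≤ ‖p.1‖ + ‖p.2‖ := norm_sub_le _ _
        _ ≤ 2 * L := by linarith [hL _ hp1, hL _ hp2]
    exact pow_le_pow_left₀ (norm_nonneg _) this 2
  refine ne_top_of_le_ne_top ?_ hle
  simp

/-- If a coupling is concentrated on pairs at distance `≤ η`, its `W₁`-type cost is `≤ η`. -/
lemma lintegral_enorm_le_of_ae {γ : Measure (E × E)} [IsProbabilityMeasure γ] {η : ℝ}
    (h : ∀ᵐ p ∂γ, ‖p.1 - p.2‖ ≤ η) : ∫⁻ p, ‖p.1 - p.2‖ₑ ∂γ ≤ ENNReal.ofReal η := by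
  calc ∫⁻ p, ‖p.1 - p.2‖ₑ ∂γ ≤ ∫⁻ _, ENNReal.ofReal η ∂γ := by
        refine lintegral_mono_ae ?_
        filter_upwards [h] with p hp
        rw [← ofReal_norm]
        exact ENNReal.ofReal_le_ofReal hp
    _ = ENNReal.ofReal η := by simp

/-- If a coupling is concentrated on pairs at distance `≤ η`, its quadratic cost is `≤ η²`. -/
lemma quadCost_le_of_ae {γ : Measure (E × E)} [IsProbabilityMeasure γ] {η : ℝ}
    (h : ∀ᵐ p ∂γ, ‖p.1 - p.2‖ ≤ η) : quadCost γ ≤ ENNReal.ofReal (η ^ 2) := by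
  unfold quadCost
  calc ∫⁻ p, ‖p.1 - p.2‖ₑ ^ 2 ∂γ ≤ ∫⁻ _, ENNReal.ofReal (η ^ 2) ∂γ := by
        refine lintegral_mono_ae ?_
        filter_upwards [h] with p hp
        rw [← ofReal_norm, ← ENNReal.ofReal_pow (norm_nonneg _)]
        exact ENNReal.ofReal_le_ofReal (pow_le_pow_left₀ (norm_nonneg _) hp 2)
    _ = ENNReal.ofReal (η ^ 2) := by simp

/-- STEP E. Discretisation of a coupling `π` of `μ, ν` (probability measures on a compact `Y`):
matched atomic measures `∑ mᵢ δ_{yᵢ}`, `∑ mᵢ δ_{zᵢ}` with distinct atoms, `η`-close to `μ`, `ν`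
(in the `W_∞` sense), with matched cost at most `2 cost(π) + 8 η²`. -/
theorem exists_discretisation (hd : 0 < d) (Y : Set E)
    (hYc : IsCompact Y) (hYn : Y.Nonempty)
    (μ ν : Measure E) (hμ : IsProbabilityOn Y μ) (hν : IsProbabilityOn Y ν)
    (π : Measure (E × E)) (hπ : IsPairCoupling μ ν π)
    (η : ℝ) (hη : 0 < η) :
    ∃ (ι : Type) (_ : Fintype ι) (_ : Nonempty ι) (y z : ι → E) (m : ι → ℝ),
      Function.Injective y ∧ Function.Injective z ∧ (∀ i, 0 < m i) ∧ ∑ i, m i = 1 ∧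
      (∀ i, ∃ w ∈ Y, ‖y i - w‖ ≤ η) ∧ (∀ i, ∃ w ∈ Y, ‖z i - w‖ ≤ η) ∧
      (∃ γ, IsPairCoupling μ (∑ i, ENNReal.ofReal (m i) • Measure.dirac (y i)) γ ∧
        ∀ᵐ p ∂γ, ‖p.1 - p.2‖ ≤ η) ∧
      (∃ γ, IsPairCoupling ν (∑ i, ENNReal.ofReal (m i) • Measure.dirac (z i)) γ ∧
        ∀ᵐ p ∂γ, ‖p.1 - p.2‖ ≤ η) ∧
      quadCost π ≠ ∞ ∧
      ∑ i, m i * ‖y i - z i‖ ^ 2 ≤ 2 * (quadCost π).toReal + 8 * η ^ 2 := by
  classical
  have hP : IsProbabilityMeasure π := coupling_isProbabilityMeasure hμ.1 hπ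
  have hcost : quadCost π ≠ ∞ := quadCost_ne_top hYc hμ hν hπ
  have hne : Nonempty (Fin d) := Fin.pos_iff_nonempty.1 hd
  have hae1 := coupling_ae_fst hπ hYc.measurableSet hμ.2
  have hae2 := coupling_ae_snd hπ hYc.measurableSet hν.2
  -- the net and the quantiser
  obtain ⟨N, e, heY, hnet⟩ := exists_finite_net hYc hYn (half_pos hη)
  set q : E → Fin (N + 1) := fun x =>
    ⟨SimpleFunc.nearestPtInd e N x, Nat.lt_succ_of_le (SimpleFunc.nearestPtInd_le e N x)⟩ with hq
  have hqm : Measurable q := by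
    refine measurable_to_countable' fun k => ?_
    have : q ⁻¹' {k} = (SimpleFunc.nearestPtInd e N) ⁻¹' {k.1} := by
      ext x
      simp [hq, Fin.ext_iff]
    rw [this]
    exact SimpleFunc.measurableSet_fiber _ _
  have hqd : ∀ x ∈ Y, ‖e (q x) - x‖ < η / 2 := by
    intro x hx
    obtain ⟨k, hk, hkx⟩ := hnet x hx
    have h1 := SimpleFunc.edist_nearestPt_le e x hk
    rw [edist_dist, edist_dist, ENNReal.ofReal_le_ofReal_iff dist_nonneg] at h1
    rw [← dist_eq_norm]
    exact lt_of_le_of_lt h1 hkx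
  set Q : E × E → Fin (N + 1) × Fin (N + 1) := fun p => (q p.1, q p.2) with hQ
  have hQm : Measurable Q := (hqm.comp measurable_fst).prodMk (hqm.comp measurable_snd)
  set w : Fin (N + 1) × Fin (N + 1) → ℝ≥0∞ := fun k => π (Q ⁻¹' {k}) with hw
  have hwtop : ∀ k, w k ≠ ∞ := fun k => measure_ne_top π _
  have hwsum : ∑ k, w k = 1 := by
    have h := congrArg (fun ρ : Measure (Fin (N + 1) × Fin (N + 1)) => ρ univ)
      (map_comp_eq_sum π hQm id)
    simp only [Function.id_comp, Measure.finsetSum_apply, Measure.smul_apply, smul_eq_mul,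
      measure_univ, mul_one] at h
    rw [Measure.map_apply hQm MeasurableSet.univ] at h
    simpa using h.symm
  have haeQ : ∀ᵐ p ∂π, w (Q p) ≠ 0 := by
    have : ∀ᵐ p ∂π, ∀ k, Q p = k → w k ≠ 0 := by
      rw [ae_all_iff]
      intro k
      by_cases hk : w k = 0
      · have : ∀ᵐ p ∂π, p ∉ Q ⁻¹' {k} := measure_eq_zero_iff_ae_notMem.1 hk
        filter_upwards [this] with p hp hpk
        exact absurd hpk hp
      · exact Filter.Eventually.of_forall fun _ _ => hk
    filter_upwards [this] with p hp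
    exact hp _ rfl
  -- the index type
  let ι : Type := {k : Fin (N + 1) × Fin (N + 1) // w k ≠ 0}
  have hιn : Nonempty ι := by
    by_contra hcon
    have : ∀ k, w k = 0 := by
      intro k
      by_contra hk
      exact hcon ⟨⟨k, hk⟩⟩
    simp [this] at hwsum
  -- the atoms
  have hinf : ∀ c : E, (Metric.ball c (η / 2)).Infinite := fun c =>
    infinite_of_mem_nhds c (Metric.ball_mem_nhds c (half_pos hη))
  obtain ⟨y, hyinj, hy⟩ := exists_injective_choice (fun i : ι => Metric.ball (e i.1.1) (η / 2))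
    (fun i => hinf _)
  obtain ⟨z, hzinj, hz⟩ := exists_injective_choice (fun i : ι => Metric.ball (e i.1.2) (η / 2))
    (fun i => hinf _)
  set yt : Fin (N + 1) × Fin (N + 1) → E := fun k => if h : w k ≠ 0 then y ⟨k, h⟩ else 0 with hyt
  set zt : Fin (N + 1) × Fin (N + 1) → E := fun k => if h : w k ≠ 0 then z ⟨k, h⟩ else 0 with hzt
  have hyti : ∀ i : ι, yt i.1 = y i := fun i => by simp [hyt, i.2]
  have hzti : ∀ i : ι, zt i.1 = z i := fun i => by simp [hzt, i.2]
  have hytm : Measurable yt := Measurable.of_discrete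
  have hztm : Measurable zt := Measurable.of_discrete
  set m : ι → ℝ := fun i => (w i.1).toReal with hm
  have hmw : ∀ i : ι, ENNReal.ofReal (m i) = w i.1 := fun i => ENNReal.ofReal_toReal (hwtop _)
  -- push-forwards as finite sums over `ι`
  have hpush : ∀ {F : Type} [MeasurableSpace F] (g : Fin (N + 1) × Fin (N + 1) → F),
      π.map (g ∘ Q) = ∑ i : ι, ENNReal.ofReal (m i) • Measure.dirac (g i.1) := by
    intro F _ g
    rw [map_comp_eq_sum π hQm g]
    rw [← sum_subtype_of_zero (fun k => w k ≠ 0) (fun k => w k • Measure.dirac (g k))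
      (fun k hk => by simp [not_not.1 hk])]
    exact Finset.sum_congr rfl fun i _ => by rw [hmw]
  -- closeness
  have hclose1 : ∀ᵐ p ∂π, ‖p.1 - yt (Q p)‖ ≤ η := by
    filter_upwards [hae1, haeQ] with p hp1 hpQ
    have h1 := hqd p.1 hp1
    have h2 : ‖y ⟨Q p, hpQ⟩ - e (q p.1)‖ < η / 2 := by
      have := hy ⟨Q p, hpQ⟩
      rwa [Metric.mem_ball, dist_eq_norm] at this
    have h3 : yt (Q p) = y ⟨Q p, hpQ⟩ := hyti ⟨Q p, hpQ⟩
    rw [h3]
    calc ‖p.1 - y ⟨Q p, hpQ⟩‖ = ‖-(e (q p.1) - p.1) - (y ⟨Q p, hpQ⟩ - e (q p.1))‖ := by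
          congr 1; abel
      _ ≤ ‖-(e (q p.1) - p.1)‖ + ‖y ⟨Q p, hpQ⟩ - e (q p.1)‖ := norm_sub_le _ _
      _ ≤ η := by rw [norm_neg]; linarith
  have hclose2 : ∀ᵐ p ∂π, ‖p.2 - zt (Q p)‖ ≤ η := by
    filter_upwards [hae2, haeQ] with p hp2 hpQ
    have h1 := hqd p.2 hp2
    have h2 : ‖z ⟨Q p, hpQ⟩ - e (q p.2)‖ < η / 2 := by
      have := hz ⟨Q p, hpQ⟩
      rwa [Metric.mem_ball, dist_eq_norm] at this
    have h3 : zt (Q p) = z ⟨Q p, hpQ⟩ := hzti ⟨Q p, hpQ⟩
    rw [h3]
    calc ‖p.2 - z ⟨Q p, hpQ⟩‖ = ‖-(e (q p.2) - p.2) - (z ⟨Q p, hpQ⟩ - e (q p.2))‖ := by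
          congr 1; abel
      _ ≤ ‖-(e (q p.2) - p.2)‖ + ‖z ⟨Q p, hpQ⟩ - e (q p.2)‖ := norm_sub_le _ _
      _ ≤ η := by rw [norm_neg]; linarith
  refine ⟨ι, inferInstance, hιn, y, z, m, hyinj, hzinj, ?_, ?_, ?_, ?_, ?_, ?_, hcost, ?_⟩
  · intro i
    exact ENNReal.toReal_pos i.2 (hwtop _)
  · have h1 : ∑ i : ι, m i = ∑ k, (w k).toReal :=
      sum_subtype_of_zero (fun k => w k ≠ 0) (fun k => (w k).toReal)
        (fun k hk => by simp [not_not.1 hk])
    rw [h1, ← ENNReal.toReal_sum (fun k _ => hwtop k), hwsum]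
    simp
  · intro i
    refine ⟨e i.1.1, heY _, ?_⟩
    have := hy i
    rw [Metric.mem_ball, dist_eq_norm] at this
    linarith
  · intro i
    refine ⟨e i.1.2, heY _, ?_⟩
    have := hz i
    rw [Metric.mem_ball, dist_eq_norm] at this
    linarith
  · have hG : Measurable (fun p : E × E => (p.1, yt (Q p))) :=
      measurable_fst.prodMk (hytm.comp hQm)
    refine ⟨π.map (fun p : E × E => (p.1, yt (Q p))), ⟨?_, ?_⟩, ?_⟩
    · rw [Measure.map_map measurable_fst hG]
      exact hπ.1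
    · rw [Measure.map_map measurable_snd hG]
      have := hpush yt
      simp only [hyti] at this
      exact this
    · rw [ae_map_iff hG.aemeasurable (measurableSet_le (by fun_prop) (by fun_prop))]
      exact hclose1
  · have hG : Measurable (fun p : E × E => (p.2, zt (Q p))) :=
      measurable_snd.prodMk (hztm.comp hQm)
    refine ⟨π.map (fun p : E × E => (p.2, zt (Q p))), ⟨?_, ?_⟩, ?_⟩
    · rw [Measure.map_map measurable_fst hG]
      exact hπ.2
    · rw [Measure.map_map measurable_snd hG]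
      have := hpush zt
      simp only [hzti] at this
      exact this
    · rw [ae_map_iff hG.aemeasurable (measurableSet_le (by fun_prop) (by fun_prop))]
      exact hclose2
  · -- the cost
    have hmeas : Measurable (fun p : E × E => ‖p.1 - p.2‖ₑ ^ 2) := by fun_prop
    have hg : Measurable (fun k : Fin (N + 1) × Fin (N + 1) => (yt k, zt k)) :=
      Measurable.of_discrete
    have h1 : ∫⁻ p, ‖yt (Q p) - zt (Q p)‖ₑ ^ 2 ∂π
        = ∑ i : ι, ENNReal.ofReal (m i) * ‖y i - z i‖ₑ ^ 2 := by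
      have h2 := hpush (fun k => (yt k, zt k))
      have h3 : ∫⁻ p, ‖yt (Q p) - zt (Q p)‖ₑ ^ 2 ∂π
          = ∫⁻ r, ‖r.1 - r.2‖ₑ ^ 2 ∂(π.map ((fun k => (yt k, zt k)) ∘ Q)) := by
        rw [lintegral_map hmeas (hg.comp hQm)]
        rfl
      rw [h3, h2, lintegral_finsetSum_measure]
      refine Finset.sum_congr rfl fun i _ => ?_
      rw [lintegral_smul_measure, lintegral_dirac' _ hmeas, hyti, hzti, smul_eq_mul]
    have h4 : ∫⁻ p, ‖yt (Q p) - zt (Q p)‖ₑ ^ 2 ∂π
        ≤ 2 * quadCost π + ENNReal.ofReal (8 * η ^ 2) := by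
      calc ∫⁻ p, ‖yt (Q p) - zt (Q p)‖ₑ ^ 2 ∂π
          ≤ ∫⁻ p, (2 * ‖p.1 - p.2‖ₑ ^ 2 + ENNReal.ofReal (8 * η ^ 2)) ∂π := by
            refine lintegral_mono_ae ?_
            filter_upwards [hclose1, hclose2] with p hp1 hp2
            rw [← ofReal_norm, ← ofReal_norm, ← ENNReal.ofReal_pow (norm_nonneg _),
              ← ENNReal.ofReal_pow (norm_nonneg _)]
            apply ofReal_le_two_mul_add (by positivity) (by positivity)
            have h5 : ‖yt (Q p) - zt (Q p)‖ ≤ ‖p.1 - p.2‖ + 2 * η := by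
              calc ‖yt (Q p) - zt (Q p)‖
                  = ‖(p.1 - p.2) - (p.1 - yt (Q p)) + (p.2 - zt (Q p))‖ := by congr 1; abel
                _ ≤ ‖(p.1 - p.2) - (p.1 - yt (Q p))‖ + ‖p.2 - zt (Q p)‖ := norm_add_le _ _
                _ ≤ ‖p.1 - p.2‖ + ‖p.1 - yt (Q p)‖ + ‖p.2 - zt (Q p)‖ := by
                    gcongr; exact norm_sub_le _ _
                _ ≤ ‖p.1 - p.2‖ + 2 * η := by linarith
            have h6 : ‖yt (Q p) - zt (Q p)‖ ^ 2 ≤ (‖p.1 - p.2‖ + 2 * η) ^ 2 :=
              pow_le_pow_left₀ (norm_nonneg _) h5 2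
            nlinarith [sq_nonneg (‖p.1 - p.2‖ - 2 * η)]
        _ = 2 * quadCost π + ENNReal.ofReal (8 * η ^ 2) := by
            rw [lintegral_add_right _ measurable_const, lintegral_const_mul _ hmeas]
            simp [quadCost]
    rw [h1] at h4
    have h7 : ∑ i : ι, m i * ‖y i - z i‖ ^ 2
        = (∑ i : ι, ENNReal.ofReal (m i) * ‖y i - z i‖ₑ ^ 2).toReal := by
      rw [ENNReal.toReal_sum (fun i _ => by
        rw [← ofReal_norm, ← ENNReal.ofReal_pow (norm_nonneg _)]
        exact ENNReal.mul_ne_top ENNReal.ofReal_ne_top ENNReal.ofReal_ne_top)]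
      refine Finset.sum_congr rfl fun i _ => ?_
      rw [← ofReal_norm, ← ENNReal.ofReal_pow (norm_nonneg _), ENNReal.toReal_mul,
        ENNReal.toReal_ofReal ENNReal.toReal_nonneg, ENNReal.toReal_ofReal (by positivity)]
    have h8 : (2 * quadCost π + ENNReal.ofReal (8 * η ^ 2)) ≠ ∞ :=
      ENNReal.add_ne_top.2 ⟨ENNReal.mul_ne_top (by simp) hcost, ENNReal.ofReal_ne_top⟩
    rw [h7]
    calc (∑ i : ι, ENNReal.ofReal (m i) * ‖y i - z i‖ₑ ^ 2).toReal
        ≤ (2 * quadCost π + ENNReal.ofReal (8 * η ^ 2)).toReal := ENNReal.toReal_mono h8 h4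
      _ = 2 * (quadCost π).toReal + 8 * η ^ 2 := by
          rw [ENNReal.toReal_add (ENNReal.mul_ne_top (by simp) hcost) ENNReal.ofReal_ne_top,
            ENNReal.toReal_mul, ENNReal.toReal_ofReal (by positivity)]
          simp

end main

end Crest.Agent.S0109Aux
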