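import Mathlib
import Crest.Prelude.Def_QuadraticTransport

/-!
# S0109, STEP C: a Gagliardo–Nirenberg type inequality by directional second differences
(helper10)
-/

set_option autoImplicit false
open MeasureTheory
open scoped ENNReal NNReal
open Crest.AnalysisR.OT

namespace Crest.Agent.S0109Aux

variable {E : Type*} [NormedAddCommGroup E] [InnerProductSpace ℝ E] [FiniteDimensional ℝ E]
  [MeasurableSpace E] [BorelSpace E]

/-- Translation: if `K' + v ⊆ K` and `F ≥ 0` then `∫_{K'} F(x+v) ≤ ∫_K F`. -/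
lemma setIntegral_comp_add_le {K K' : Set E} (v : E)
    (hsub : ∀ x ∈ K', x + v ∈ K) {F : E → ℝ} (hF0 : ∀ x, 0 ≤ F x)
    (hFi : IntegrableOn F K volume) :
    ∫ x in K', F (x + v) ≤ ∫ x in K, F x := by
  have h1 : ∫ x in (fun x => x + v) ⁻¹' K, F (x + v) = ∫ y in K, F y :=
    (measurePreserving_add_right volume v).setIntegral_preimage_emb
      (measurableEmbedding_addRight v) F K
  rw [← h1]
  apply setIntegral_mono_set
  · exact ((measurePreserving_add_right volume v).integrableOn_comp_preimage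
      (measurableEmbedding_addRight v)).mpr hFi
  · exact Filter.Eventually.of_forall (fun x => hF0 _)
  · exact Filter.Eventually.of_forall (fun x hx => hsub x hx)

/-- The integral of a second difference of a Lipschitz function over `K` is controlled by the
boundary layer `K \ K'`. -/
lemma setIntegral_secondDiff_le {K K' : Set E} (hKc : IsCompact K)
    (v : E) (hp : ∀ x ∈ K', x + v ∈ K) (hm : ∀ x ∈ K', x - v ∈ K)
    {g : E → ℝ} {L : ℝ≥0} (hg : LipschitzWith L g) :
    ∫ x in K, (g (x + v) + g (x - v) - 2 * g x) ≤ 2 * L * ‖v‖ * volume.real (K \ K') := by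
  have hKm : MeasurableSet K := hKc.measurableSet
  set G : E → ℝ := fun x => g (x + v) - g x with hG
  have hGc : Continuous G := by
    have := hg.continuous
    fun_prop
  have hGb : ∀ x, ‖G x‖ ≤ L * ‖v‖ := by
    intro x
    have := hg.dist_le_mul (x + v) x
    rw [Real.dist_eq, dist_eq_norm] at this
    simpa [hG, Real.norm_eq_abs] using this
  set Km : Set E := (fun x => x + v) ⁻¹' K with hKm'
  have hKmm : MeasurableSet Km := (measurable_add_const v) hKm
  have hKfin : volume K ≠ ∞ := hKc.measure_lt_top.ne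
  have hKmfin : volume Km ≠ ∞ := by
    rw [hKm', measure_preimage_add_right]; exact hKfin
  have hGK : IntegrableOn G K volume :=
    Measure.integrableOn_of_bounded hKfin hGc.aestronglyMeasurable
      (Filter.Eventually.of_forall hGb)
  have hGKm : IntegrableOn G Km volume :=
    Measure.integrableOn_of_bounded hKmfin hGc.aestronglyMeasurable
      (Filter.Eventually.of_forall hGb)
  -- rewrite the integrand
  have e1 : ∀ x, g (x + v) + g (x - v) - 2 * g x = G x - G (x + -v) := by
    intro x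
    simp only [hG]
    have : x + -v + v = x := by abel
    rw [this, ← sub_eq_add_neg]
    ring
  have hpre : (fun x => x + -v) ⁻¹' Km = K := by
    ext x
    simp [hKm']
  have e2 : ∫ x in K, G (x + -v) = ∫ y in Km, G y := by
    have := (measurePreserving_add_right volume (-v)).setIntegral_preimage_emb
      (measurableEmbedding_addRight (-v)) G Km
    rwa [hpre] at this
  have hGK' : IntegrableOn (fun x => G (x + -v)) K volume := by
    have := ((measurePreserving_add_right volume (-v)).integrableOn_comp_preimage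
      (measurableEmbedding_addRight (-v))).mpr hGKm
    rwa [hpre] at this
  have e3 : ∫ x in K, (g (x + v) + g (x - v) - 2 * g x) =
      (∫ x in K, G x) - ∫ y in Km, G y := by
    simp only [e1]
    rw [integral_sub hGK hGK', e2]
  rw [e3]
  have s1 := integral_inter_add_sdiff hKmm hGK
  have s2 := integral_inter_add_sdiff hKm hGKm
  rw [Set.inter_comm] at s2
  have b1 : ‖∫ x in K \ Km, G x‖ ≤ L * ‖v‖ * volume.real (K \ Km) :=
    norm_setIntegral_le_of_norm_le_const
      (lt_of_le_of_lt (measure_mono Set.sdiff_subset) hKc.measure_lt_top) (fun x _ => hGb x)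
  have b2 : ‖∫ x in Km \ K, G x‖ ≤ L * ‖v‖ * volume.real (Km \ K) :=
    norm_setIntegral_le_of_norm_le_const
      (lt_of_le_of_lt (measure_mono Set.sdiff_subset) (lt_top_iff_ne_top.mpr hKmfin))
      (fun x _ => hGb x)
  have hfin : volume (K \ K') ≠ ∞ :=
    (lt_of_le_of_lt (measure_mono Set.sdiff_subset) hKc.measure_lt_top).ne
  have m1 : volume.real (K \ Km) ≤ volume.real (K \ K') := by
    apply measureReal_mono _ hfin
    intro x hx
    exact ⟨hx.1, fun hx' => hx.2 (hp x hx')⟩
  have m2 : volume.real (Km \ K) ≤ volume.real (K \ K') := by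
    have hsub : Km \ K ⊆ (fun x => x + v) ⁻¹' (K \ K') := by
      intro x hx
      refine ⟨hx.1, fun hx' => hx.2 ?_⟩
      have := hm _ hx'
      simpa using this
    have heq : volume.real ((fun x => x + v) ⁻¹' (K \ K')) = volume.real (K \ K') := by
      simp only [Measure.real, measure_preimage_add_right]
    rw [← heq]
    exact measureReal_mono hsub (by rw [measure_preimage_add_right]; exact hfin)
  have hLv : 0 ≤ (L : ℝ) * ‖v‖ := by positivity
  rw [Real.norm_eq_abs] at b1 b2
  have c1 := (abs_le.mp b1).2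
  have c2 := (abs_le.mp b2).1
  have d1 := mul_le_mul_of_nonneg_left m1 hLv
  have d2 := mul_le_mul_of_nonneg_left m2 hLv
  linarith

/-- Shrinking a convex body towards the centre of an inscribed ball. -/
lemma exists_shrink {K : Set E} (hKc : IsCompact K) (hKv : Convex ℝ K) {x0 : E} {r : ℝ}
    (hr : 0 < r) (hball : Metric.closedBall x0 r ⊆ K) {t : ℝ} (ht0 : 0 < t) (htr : t ≤ r) :
    ∃ K' : Set E, MeasurableSet K' ∧ K' ⊆ K ∧ (∀ v : E, ‖v‖ ≤ t → ∀ x ∈ K', x + v ∈ K) ∧
      volume.real (K \ K') ≤ (Module.finrank ℝ E) * t / r * volume.real K := by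
  set lam : ℝ := 1 - t / r with hlam
  have htr' : t / r ≤ 1 := (div_le_one hr).mpr htr
  have htr0 : 0 < t / r := div_pos ht0 hr
  have hlam0 : 0 ≤ lam := by rw [hlam]; linarith
  set K' : Set E := AffineMap.homothety x0 lam '' K with hK'
  have hK'c : IsCompact K' := hKc.image (AffineMap.homothety_continuous x0 lam)
  have hadd : ∀ v : E, ‖v‖ ≤ t → ∀ x ∈ K', x + v ∈ K := by
    rintro v hv _ ⟨y, hy, rfl⟩
    have hz : x0 + (r / t) • v ∈ K := by
      apply hball
      rw [Metric.mem_closedBall, dist_eq_norm, add_sub_cancel_left, norm_smul, Real.norm_eq_abs,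
        abs_of_pos (div_pos hr ht0)]
      calc r / t * ‖v‖ ≤ r / t * t := by gcongr
        _ = r := by field_simp
    have hconv := hKv hy hz hlam0 htr0.le (by rw [hlam]; ring)
    have heq : AffineMap.homothety x0 lam y + v = lam • y + (t / r) • (x0 + (r / t) • v) := by
      rw [AffineMap.homothety_apply, vsub_eq_sub, vadd_eq_add, smul_add, smul_smul]
      have h1 : t / r * (r / t) = 1 := by field_simp
      rw [h1, one_smul, smul_sub]
      have h2 : (t / r) • x0 = x0 - lam • x0 := by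
        rw [hlam, sub_smul, one_smul]; abel
      rw [h2]; abel
    rw [heq]; exact hconv
  have hsub : K' ⊆ K := by
    intro x hx
    have := hadd 0 (by simpa using ht0.le) x hx
    simpa using this
  refine ⟨K', hK'c.measurableSet, hsub, hadd, ?_⟩
  have hvol : volume K' = ENNReal.ofReal |lam ^ Module.finrank ℝ E| * volume K :=
    Measure.addHaar_image_homothety volume x0 lam K
  have hvolr : volume.real K' = lam ^ Module.finrank ℝ E * volume.real K := by
    simp only [Measure.real, hvol, ENNReal.toReal_mul]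
    rw [ENNReal.toReal_ofReal (abs_nonneg _), abs_of_nonneg (pow_nonneg hlam0 _)]
  have hdiff : volume.real (K \ K') = volume.real K - volume.real K' :=
    measureReal_sdiff hsub hK'c.measurableSet hKc.measure_lt_top.ne
  rw [hdiff, hvolr]
  have hbern : 1 + (Module.finrank ℝ E : ℝ) * (-(t / r)) ≤ (1 + -(t / r)) ^ Module.finrank ℝ E :=
    one_add_mul_le_pow (by linarith) _
  have hlam' : lam = 1 + -(t / r) := by rw [hlam]; ring
  rw [← hlam'] at hbern
  have hv0 : 0 ≤ volume.real K := measureReal_nonneg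
  have : (1 - lam ^ Module.finrank ℝ E) * volume.real K ≤
      ((Module.finrank ℝ E : ℝ) * (t / r)) * volume.real K := by
    apply mul_le_mul_of_nonneg_right _ hv0
    linarith
  calc volume.real K - lam ^ Module.finrank ℝ E * volume.real K
      = (1 - lam ^ Module.finrank ℝ E) * volume.real K := by ring
    _ ≤ ((Module.finrank ℝ E : ℝ) * (t / r)) * volume.real K := this
    _ = (Module.finrank ℝ E) * t / r * volume.real K := by ring

omit [FiniteDimensional ℝ E] [MeasurableSpace E] [BorelSpace E] in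
/-- A subgradient of an `L`-Lipschitz function has norm at most `L`. -/
lemma norm_le_of_subgradient {f : E → ℝ} {L : ℝ≥0} (hf : LipschitzWith L f) {x p : E}
    (h : ∀ z, f x + inner ℝ p (z - x) ≤ f z) : ‖p‖ ≤ L := by
  have h1 := h (x + p)
  rw [add_sub_cancel_left, real_inner_self_eq_norm_sq] at h1
  have h2 := hf.dist_le_mul (x + p) x
  rw [Real.dist_eq, dist_eq_norm, add_sub_cancel_left] at h2
  have h3 := (abs_le.mp h2).2
  by_contra hcon
  push Not at hcon
  have hp : 0 < ‖p‖ := lt_of_le_of_lt L.coe_nonneg hcon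
  nlinarith

omit [FiniteDimensional ℝ E] [MeasurableSpace E] [BorelSpace E] in
/-- The pointwise inequality behind STEP C. -/
lemma pointwise_gn {f g : E → ℝ} {x e p q : E} {t L c : ℝ} (ht : 0 < t)
    (hf : ∀ z, f x + inner ℝ p (z - x) ≤ f z) (hg : ∀ z, g x + inner ℝ q (z - x) ≤ g z)
    (hD : |inner ℝ (p - q) e| ≤ 2 * L) :
    (inner ℝ (p - q) e) ^ 2 ≤
      3 / t ^ 2 * ((f (x + t • e) - g (x + t • e) - c) ^ 2 +
        (f (x - t • e) - g (x - t • e) - c) ^ 2 + (f x - g x - c) ^ 2) +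
      4 * L / t * (g (x + t • e) + g (x - t • e) - 2 * g x) := by
  have f1 := hf (x + t • e)
  have f2 := hf (x - t • e)
  have g1 := hg (x + t • e)
  have g2 := hg (x - t • e)
  rw [add_sub_cancel_left, inner_smul_right] at f1 g1
  rw [sub_sub_cancel_left, inner_neg_right, inner_smul_right] at f2 g2
  rw [inner_sub_left] at hD ⊢
  set P := inner ℝ p e
  set Q := inner ℝ q e
  set fp := f (x + t • e)
  set fm := f (x - t • e)
  set gp := g (x + t • e)
  set gm := g (x - t • e)
  set kp := fp - gp - c with hkp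
  set km := fm - gm - c with hkm
  set k0 := f x - g x - c with hk0
  set SD := gp + gm - 2 * g x with hSD
  have hSD0 : 0 ≤ SD := by rw [hSD]; linarith
  set W := |kp| + |km| + |k0| with hW
  have hW0 : 0 ≤ W := by positivity
  set A := t * |P - Q| with hA
  have hA0 : 0 ≤ A := by positivity
  have hAW : A ≤ W + SD := by
    rw [hA, hW]
    have a1 := le_abs_self kp
    have a2 := le_abs_self km
    have a3 := neg_abs_le k0
    have a4 := abs_nonneg kp
    have a5 := abs_nonneg km
    rcases abs_cases (P - Q) with ⟨h, _⟩ | ⟨h, _⟩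
    · rw [h]
      have : t * (P - Q) ≤ kp - k0 + SD := by rw [hkp, hk0, hSD]; linarith
      linarith
    · rw [h]
      have : t * -(P - Q) ≤ km - k0 + SD := by rw [hkm, hk0, hSD]; linarith
      linarith
  have hASD : A * SD ≤ 2 * L * t * SD := by
    have : A ≤ 2 * L * t := by
      rw [hA]
      nlinarith
    exact mul_le_mul_of_nonneg_right this hSD0
  have hA2 : A ^ 2 ≤ W ^ 2 + 4 * L * t * SD := by
    have h1 : A * A ≤ A * (W + SD) := mul_le_mul_of_nonneg_left hAW hA0
    nlinarith [sq_nonneg (A - W)]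
  have hW2 : W ^ 2 ≤ 3 * (kp ^ 2 + km ^ 2 + k0 ^ 2) := by
    rw [hW]
    have := sq_abs kp
    have := sq_abs km
    have := sq_abs k0
    nlinarith [sq_nonneg (|kp| - |km|), sq_nonneg (|kp| - |k0|), sq_nonneg (|km| - |k0|)]
  have hAD : A ^ 2 = t ^ 2 * (P - Q) ^ 2 := by
    rw [hA, mul_pow, sq_abs]
  have ht2 : 0 < t ^ 2 := by positivity
  have key : t ^ 2 * (P - Q) ^ 2 ≤ 3 * (kp ^ 2 + km ^ 2 + k0 ^ 2) + 4 * L * t * SD := by
    rw [← hAD]; linarith
  have : (P - Q) ^ 2 ≤ (3 * (kp ^ 2 + km ^ 2 + k0 ^ 2) + 4 * L * t * SD) / t ^ 2 := by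
    rw [le_div_iff₀ ht2]; linarith
  refine this.trans (le_of_eq ?_)
  field_simp

/-- Directional estimate, volume form. -/
lemma gn_dir_volume {K : Set E} (hKc : IsCompact K) (hKv : Convex ℝ K) {x0 : E} {r : ℝ}
    (hr : 0 < r) (hball : Metric.closedBall x0 r ⊆ K) {L : ℝ≥0} {f g : E → ℝ} {S T : E → E}
    (hf : LipschitzWith L f) (hg : LipschitzWith L g) (hS : Measurable S) (hT : Measurable T)
    (hSf : ∀ᵐ x ∂(volume.restrict K), ∀ z, f x + inner ℝ (S x) (z - x) ≤ f z)
    (hTg : ∀ᵐ x ∂(volume.restrict K), ∀ z, g x + inner ℝ (T x) (z - x) ≤ g z)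
    (c : ℝ) (e : E) (he : ‖e‖ = 1) {t : ℝ} (ht0 : 0 < t) (htr : t ≤ r) :
    ∫ x in K, (inner ℝ (S x - T x) e) ^ 2 ≤
      9 / t ^ 2 * (∫ x in K, (f x - g x - c) ^ 2) +
        12 * (L : ℝ) ^ 2 * ((Module.finrank ℝ E) * t / r * volume.real K) := by
  obtain ⟨K', hK'm, hK'K, hadd, hvol⟩ := exists_shrink hKc hKv hr hball ht0 htr
  have hKm : MeasurableSet K := hKc.measurableSet
  have hKfin : volume K ≠ ∞ := hKc.measure_lt_top.ne
  set v : E := t • e with hv
  have hvn : ‖v‖ = t := by rw [hv, norm_smul, he, mul_one, Real.norm_eq_abs, abs_of_pos ht0]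
  have hp : ∀ x ∈ K', x + v ∈ K := hadd v hvn.le
  have hm' : ∀ x ∈ K', x + -v ∈ K := hadd (-v) (by rw [norm_neg]; exact hvn.le)
  have hm : ∀ x ∈ K', x - v ∈ K := fun x hx => by rw [sub_eq_add_neg]; exact hm' x hx
  set D : E → ℝ := fun x => inner ℝ (S x - T x) e with hD
  have hDm : Measurable D := by
    have : Measurable fun x => S x - T x := hS.sub hT
    exact this.inner_const
  have hDb : ∀ᵐ x ∂(volume.restrict K), |D x| ≤ 2 * L := by
    filter_upwards [hSf, hTg] with x h1 h2
    have n1 := norm_le_of_subgradient hf h1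
    have n2 := norm_le_of_subgradient hg h2
    calc |D x| ≤ ‖S x - T x‖ * ‖e‖ := abs_real_inner_le_norm _ _
      _ = ‖S x - T x‖ := by rw [he, mul_one]
      _ ≤ ‖S x‖ + ‖T x‖ := norm_sub_le _ _
      _ ≤ 2 * L := by linarith
  have hD2b : ∀ᵐ x ∂(volume.restrict K), ‖D x ^ 2‖ ≤ 4 * (L : ℝ) ^ 2 := by
    filter_upwards [hDb] with x hx
    rw [Real.norm_eq_abs, abs_of_nonneg (sq_nonneg _), ← sq_abs]
    nlinarith [abs_nonneg (D x)]
  have hD2i : IntegrableOn (fun x => D x ^ 2) K volume :=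
    Measure.integrableOn_of_bounded hKfin (hDm.pow_const 2).aestronglyMeasurable hD2b
  -- continuous pieces
  have hfc := hf.continuous
  have hgc := hg.continuous
  set k : E → ℝ := fun x => (f x - g x - c) ^ 2 with hk
  have hkc : Continuous k := by fun_prop
  have hk0 : ∀ x, 0 ≤ k x := fun x => sq_nonneg _
  have hki : IntegrableOn k K volume := hkc.continuousOn.integrableOn_compact hKc
  set SD : E → ℝ := fun x => g (x + v) + g (x - v) - 2 * g x with hSD
  have hSDc : Continuous SD := by fun_prop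
  have hSDi : IntegrableOn SD K volume := hSDc.continuousOn.integrableOn_compact hKc
  have hSD0 : ∀ᵐ x ∂(volume.restrict K), 0 ≤ SD x := by
    filter_upwards [hTg] with x h2
    have g1 := h2 (x + v)
    have g2 := h2 (x - v)
    rw [add_sub_cancel_left] at g1
    rw [sub_sub_cancel_left, inner_neg_right] at g2
    simp only [hSD]
    linarith
  -- split
  have hsplit := integral_inter_add_sdiff hK'm hD2i
  rw [Set.inter_eq_right.mpr hK'K] at hsplit
  have hfinD : volume (K \ K') < ∞ :=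
    lt_of_le_of_lt (measure_mono Set.sdiff_subset) hKc.measure_lt_top
  have hout : ∫ x in K \ K', D x ^ 2 ≤ 4 * (L : ℝ) ^ 2 * volume.real (K \ K') := by
    have := norm_setIntegral_le_of_norm_le_const_ae (μ := volume) (f := fun x => D x ^ 2) hfinD
      (ae_restrict_of_ae_restrict_of_subset Set.sdiff_subset hD2b)
    exact (le_abs_self _).trans this
  -- the inner part
  have hkpi : IntegrableOn (fun x => k (x + v)) K' volume :=
    ((hkc.comp (continuous_add_right v)).continuousOn.integrableOn_compact hKc).mono_set hK'K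
  have hkmi : IntegrableOn (fun x => k (x - v)) K' volume :=
    ((hkc.comp (continuous_sub_right v)).continuousOn.integrableOn_compact hKc).mono_set hK'K
  have hki' : IntegrableOn k K' volume := hki.mono_set hK'K
  have hSDi' : IntegrableOn SD K' volume := hSDi.mono_set hK'K
  have hI1 : IntegrableOn (fun x => k (x + v) + k (x - v)) K' volume := hkpi.add hkmi
  have hI2 : IntegrableOn (fun x => k (x + v) + k (x - v) + k x) K' volume := hI1.add hki'
  have hI3 : IntegrableOn (fun x => 3 / t ^ 2 * (k (x + v) + k (x - v) + k x)) K' volume :=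
    hI2.const_mul _
  have hI4 : IntegrableOn (fun x => 4 * L / t * SD x) K' volume := hSDi'.const_mul _
  have hin : ∫ x in K', D x ^ 2 ≤
      ∫ x in K', (3 / t ^ 2 * (k (x + v) + k (x - v) + k x) + 4 * L / t * SD x) := by
    apply setIntegral_mono_ae_restrict (hD2i.mono_set hK'K) (hI3.add hI4)
    · have a1 := ae_restrict_of_ae_restrict_of_subset hK'K hSf
      have a2 := ae_restrict_of_ae_restrict_of_subset hK'K hTg
      have a3 := ae_restrict_of_ae_restrict_of_subset hK'K hDb
      filter_upwards [a1, a2, a3] with x h1 h2 h3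
      exact pointwise_gn ht0 h1 h2 h3
  have hlin : ∫ x in K', (3 / t ^ 2 * (k (x + v) + k (x - v) + k x) + 4 * L / t * SD x) =
      3 / t ^ 2 * ((∫ x in K', k (x + v)) + (∫ x in K', k (x - v)) + ∫ x in K', k x) +
        4 * L / t * ∫ x in K', SD x := by
    rw [integral_add hI3 hI4, integral_const_mul, integral_const_mul, integral_add hI1 hki',
      integral_add hkpi hkmi]
  have t1 : ∫ x in K', k (x + v) ≤ ∫ x in K, k x := setIntegral_comp_add_le v hp hk0 hki
  have t2 : ∫ x in K', k (x - v) ≤ ∫ x in K, k x := by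
    have := setIntegral_comp_add_le (-v) hm' hk0 hki
    simpa only [← sub_eq_add_neg] using this
  have t3 : ∫ x in K', k x ≤ ∫ x in K, k x :=
    setIntegral_mono_set hki (Filter.Eventually.of_forall hk0)
      (Filter.Eventually.of_forall hK'K)
  have t4 : ∫ x in K', SD x ≤ ∫ x in K, SD x :=
    setIntegral_mono_set hSDi hSD0 (Filter.Eventually.of_forall hK'K)
  have t5 : ∫ x in K, SD x ≤ 2 * L * ‖v‖ * volume.real (K \ K') :=
    setIntegral_secondDiff_le hKc v hp hm hg
  rw [hvn] at t5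
  have hc1 : 0 ≤ 3 / t ^ 2 := by positivity
  have hc2 : 0 ≤ 4 * (L : ℝ) / t := by positivity
  have u1 : 3 / t ^ 2 * ((∫ x in K', k (x + v)) + (∫ x in K', k (x - v)) + ∫ x in K', k x) ≤
      3 / t ^ 2 * (3 * ∫ x in K, k x) := by
    apply mul_le_mul_of_nonneg_left _ hc1
    linarith
  have u2 : 4 * (L : ℝ) / t * ∫ x in K', SD x ≤
      4 * (L : ℝ) / t * (2 * L * t * volume.real (K \ K')) := by
    apply mul_le_mul_of_nonneg_left _ hc2
    linarith
  have u3 : 4 * (L : ℝ) / t * (2 * L * t * volume.real (K \ K')) =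
      8 * (L : ℝ) ^ 2 * volume.real (K \ K') := by
    field_simp
    ring
  have u4 : 3 / t ^ 2 * (3 * ∫ x in K, k x) = 9 / t ^ 2 * ∫ x in K, k x := by ring
  have u5 : 12 * (L : ℝ) ^ 2 * volume.real (K \ K') ≤
      12 * (L : ℝ) ^ 2 * ((Module.finrank ℝ E) * t / r * volume.real K) :=
    mul_le_mul_of_nonneg_left hvol (by positivity)
  calc ∫ x in K, D x ^ 2 = (∫ x in K', D x ^ 2) + ∫ x in K \ K', D x ^ 2 := hsplit.symm
    _ ≤ 9 / t ^ 2 * (∫ x in K, k x) + 12 * (L : ℝ) ^ 2 * volume.real (K \ K') := by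
        rw [hlin] at hin
        linarith
    _ ≤ _ := by linarith

/-- Integrals against the uniform probability measure. -/
lemma integral_uniformProbOn (K : Set E) (F : E → ℝ) :
    ∫ x, F x ∂(uniformProbOn K) = (volume.real K)⁻¹ * ∫ x in K, F x := by
  unfold uniformProbOn
  rw [integral_smul_measure, smul_eq_mul, ENNReal.toReal_inv]
  rfl

/-- a.e. statements for the uniform probability measure. -/
lemma ae_uniformProbOn_iff {K : Set E} (hK : volume K ≠ ∞) {p : E → Prop} :
    (∀ᵐ x ∂(uniformProbOn K), p x) ↔ ∀ᵐ x ∂(volume.restrict K), p x := by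
  unfold uniformProbOn
  exact Measure.ae_ennreal_smul_measure_iff (ENNReal.inv_ne_zero.mpr hK)

/-- Optimisation in `t`. -/
lemma optimise_t {a κ B r : ℝ} (ha0 : 0 ≤ a) (hκ : 0 ≤ κ) (hB : 0 < B)
    (haB : a ≤ 2 * B * r) (h : ∀ t, 0 < t → t ≤ r → a ≤ 9 / t ^ 2 * κ + B * t) :
    a ^ 3 ≤ 72 * B ^ 2 * κ := by
  rcases ha0.eq_or_lt with h0 | hpos
  · rw [← h0]
    have : 0 ≤ 72 * B ^ 2 * κ := by positivity
    simpa using this
  have ht0 : 0 < a / (2 * B) := by positivity
  have htr : a / (2 * B) ≤ r := by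
    rw [div_le_iff₀ (by positivity)]
    linarith
  have h1 := h _ ht0 htr
  have e1 : 9 / (a / (2 * B)) ^ 2 * κ = 36 * B ^ 2 * κ / a ^ 2 := by
    field_simp
    ring
  have e2 : B * (a / (2 * B)) = a / 2 := by
    field_simp
  rw [e1, e2] at h1
  have h2 : a / 2 ≤ 36 * B ^ 2 * κ / a ^ 2 := by linarith
  rw [le_div_iff₀ (by positivity)] at h2
  nlinarith

/-- Directional estimate for the uniform probability measure. -/
lemma gn_dir {K : Set E} (hKc : IsCompact K) (hKv : Convex ℝ K) {x0 : E} {r : ℝ}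
    (hr : 0 < r) (hball : Metric.closedBall x0 r ⊆ K) {L : ℝ≥0} {f g : E → ℝ} {S T : E → E}
    (hf : LipschitzWith L f) (hg : LipschitzWith L g) (hS : Measurable S) (hT : Measurable T)
    (hSf : ∀ᵐ x ∂(uniformProbOn K), ∀ z, f x + inner ℝ (S x) (z - x) ≤ f z)
    (hTg : ∀ᵐ x ∂(uniformProbOn K), ∀ z, g x + inner ℝ (T x) (z - x) ≤ g z)
    (c : ℝ) (e : E) (he : ‖e‖ = 1) :
    (∫ x, (inner ℝ (S x - T x) e) ^ 2 ∂(uniformProbOn K)) ^ 3 ≤
      72 * (12 * ((L : ℝ) ^ 2 + 1) * ((Module.finrank ℝ E : ℝ) + 1) / r) ^ 2 *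
        ∫ x, (f x - g x - c) ^ 2 ∂(uniformProbOn K) := by
  have hKfin : volume K ≠ ∞ := hKc.measure_lt_top.ne
  rw [ae_uniformProbOn_iff hKfin] at hSf hTg
  have hVpos : 0 < volume.real K := by
    have h1 : 0 < volume (Metric.closedBall x0 r) := Metric.measure_closedBall_pos volume x0 hr
    have h2 : 0 < volume K := lt_of_lt_of_le h1 (measure_mono hball)
    exact ENNReal.toReal_pos h2.ne' hKfin
  set V := volume.real K with hV
  set n : ℝ := (Module.finrank ℝ E : ℝ) with hn
  have hn0 : 0 ≤ n := by rw [hn]; positivity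
  set B : ℝ := 12 * ((L : ℝ) ^ 2 + 1) * (n + 1) / r with hB
  have hBpos : 0 < B := by rw [hB]; positivity
  rw [integral_uniformProbOn, integral_uniformProbOn]
  set ID := ∫ x in K, (inner ℝ (S x - T x) e) ^ 2 with hID
  set Ik := ∫ x in K, (f x - g x - c) ^ 2 with hIk
  have hID0 : 0 ≤ ID := integral_nonneg (fun x => sq_nonneg _)
  have hIk0 : 0 ≤ Ik := integral_nonneg (fun x => sq_nonneg _)
  -- crude bound
  have hcrude : ID ≤ 4 * (L : ℝ) ^ 2 * V := by
    have hD2b : ∀ᵐ x ∂(volume.restrict K), ‖(inner ℝ (S x - T x) e) ^ 2‖ ≤ 4 * (L : ℝ) ^ 2 := by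
      filter_upwards [hSf, hTg] with x h1 h2
      have n1 := norm_le_of_subgradient hf h1
      have n2 := norm_le_of_subgradient hg h2
      have h3 : |inner ℝ (S x - T x) e| ≤ 2 * L := by
        calc |inner ℝ (S x - T x) e| ≤ ‖S x - T x‖ * ‖e‖ := abs_real_inner_le_norm _ _
          _ = ‖S x - T x‖ := by rw [he, mul_one]
          _ ≤ ‖S x‖ + ‖T x‖ := norm_sub_le _ _
          _ ≤ 2 * L := by linarith
      rw [Real.norm_eq_abs, abs_of_nonneg (sq_nonneg _), ← sq_abs]
      nlinarith [abs_nonneg (inner ℝ (S x - T x) e)]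
    have := norm_setIntegral_le_of_norm_le_const_ae (μ := volume)
      (f := fun x => (inner ℝ (S x - T x) e) ^ 2) hKc.measure_lt_top hD2b
    exact (le_abs_self _).trans this
  apply optimise_t (by positivity) (by positivity) hBpos
  · -- `a ≤ 2 B r`
    have h1 : V⁻¹ * ID ≤ 4 * (L : ℝ) ^ 2 := by
      rw [inv_mul_le_iff₀ hVpos]; linarith
    have h2 : 2 * B * r = 24 * ((L : ℝ) ^ 2 + 1) * (n + 1) := by
      rw [hB]; field_simp; ring
    rw [h2]
    nlinarith [sq_nonneg (L : ℝ)]
  · intro t ht0 htr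
    have h := gn_dir_volume hKc hKv hr hball hf hg hS hT hSf hTg c e he ht0 htr
    rw [← hID, ← hIk, ← hV, ← hn] at h
    have h1 : V⁻¹ * ID ≤ V⁻¹ * (9 / t ^ 2 * Ik + 12 * (L : ℝ) ^ 2 * (n * t / r * V)) :=
      mul_le_mul_of_nonneg_left h (by positivity)
    have h2 : V⁻¹ * (9 / t ^ 2 * Ik + 12 * (L : ℝ) ^ 2 * (n * t / r * V)) =
        9 / t ^ 2 * (V⁻¹ * Ik) + 12 * (L : ℝ) ^ 2 * n / r * t := by
      field_simp
    have h3 : 12 * (L : ℝ) ^ 2 * n / r * t ≤ B * t := by
      apply mul_le_mul_of_nonneg_right _ ht0.le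
      rw [hB]
      apply div_le_div_of_nonneg_right _ hr.le
      nlinarith [sq_nonneg (L : ℝ)]
    linarith

/-- **STEP C** (Gagliardo–Nirenberg type inequality). -/
theorem gn_step (K : Set E) (hKc : IsCompact K) (hKv : Convex ℝ K)
    (hKi : (interior K).Nonempty) (L : ℝ≥0) :
    ∃ C : ℝ, 0 ≤ C ∧ ∀ (f g : E → ℝ) (S T : E → E), LipschitzWith L f → LipschitzWith L g →
      Measurable S → Measurable T →
      (∀ᵐ x ∂(uniformProbOn K), ∀ z, f x + inner ℝ (S x) (z - x) ≤ f z) →
      (∀ᵐ x ∂(uniformProbOn K), ∀ z, g x + inner ℝ (T x) (z - x) ≤ g z) →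
      ∀ c : ℝ, (∫ x, ‖S x - T x‖ ^ 2 ∂(uniformProbOn K)) ^ 3 ≤
        C * ∫ x, (f x - g x - c) ^ 2 ∂(uniformProbOn K) := by
  obtain ⟨x0, hx0⟩ := hKi
  obtain ⟨r, hr, hball⟩ := Metric.nhds_basis_closedBall.mem_iff.mp (mem_interior_iff_mem_nhds.mp hx0)
  set n : ℕ := Module.finrank ℝ E with hn
  set C0 : ℝ := 72 * (12 * ((L : ℝ) ^ 2 + 1) * ((n : ℝ) + 1) / r) ^ 2 with hC0
  have hC00 : 0 ≤ C0 := by rw [hC0]; positivity
  refine ⟨(n : ℝ) ^ 2 * (n * C0), by positivity, ?_⟩
  intro f g S T hf hg hS hT hSf hTg c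
  have hKfin : volume K ≠ ∞ := hKc.measure_lt_top.ne
  set b := stdOrthonormalBasis ℝ E with hb
  set ρ := uniformProbOn K with hρ
  set κ := ∫ x, (f x - g x - c) ^ 2 ∂ρ with hκ
  have hdir : ∀ i, (∫ x, (inner ℝ (S x - T x) (b i)) ^ 2 ∂ρ) ^ 3 ≤ C0 * κ := fun i =>
    gn_dir hKc hKv hr hball hf hg hS hT hSf hTg c (b i) (b.orthonormal.1 i)
  -- integrability of each directional square
  have hfinρ : IsFiniteMeasure ρ := by
    rw [hρ]; unfold uniformProbOn
    have : IsFiniteMeasure (volume.restrict K) := ⟨by simpa using hKc.measure_lt_top⟩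
    exact Measure.smul_finite _ (ENNReal.inv_ne_top.mpr (by
      have h1 : 0 < volume (Metric.closedBall x0 r) := Metric.measure_closedBall_pos volume x0 hr
      exact (lt_of_lt_of_le h1 (measure_mono hball)).ne'))
  have hint : ∀ i, Integrable (fun x => (inner ℝ (S x - T x) (b i)) ^ 2) ρ := by
    intro i
    have hmeas : Measurable fun x => (inner ℝ (S x - T x) (b i)) ^ 2 :=
      ((hS.sub hT).inner_const).pow_const 2
    refine Integrable.of_bound hmeas.aestronglyMeasurable (4 * (L : ℝ) ^ 2) ?_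
    · filter_upwards [hSf, hTg] with x h1 h2
      have n1 := norm_le_of_subgradient hf h1
      have n2 := norm_le_of_subgradient hg h2
      have h3 : |inner ℝ (S x - T x) (b i)| ≤ 2 * L := by
        calc |inner ℝ (S x - T x) (b i)| ≤ ‖S x - T x‖ * ‖b i‖ := abs_real_inner_le_norm _ _
          _ = ‖S x - T x‖ := by rw [b.orthonormal.1 i, mul_one]
          _ ≤ ‖S x‖ + ‖T x‖ := norm_sub_le _ _
          _ ≤ 2 * L := by linarith
      rw [Real.norm_eq_abs, abs_of_nonneg (sq_nonneg _), ← sq_abs]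
      nlinarith [abs_nonneg (inner ℝ (S x - T x) (b i))]
  have hsum : ∫ x, ‖S x - T x‖ ^ 2 ∂ρ = ∑ i, ∫ x, (inner ℝ (S x - T x) (b i)) ^ 2 ∂ρ := by
    rw [← integral_finsetSum _ (fun i _ => hint i)]
    congr 1
    funext x
    exact (b.sum_sq_inner_left (S x - T x)).symm
  rw [hsum]
  have hnn : ∀ i ∈ (Finset.univ : Finset (Fin n)),
      0 ≤ ∫ x, (inner ℝ (S x - T x) (b i)) ^ 2 ∂ρ :=
    fun i _ => integral_nonneg (fun x => sq_nonneg _)
  have hj := pow_sum_le_card_mul_sum_pow hnn 2
  simp only [Finset.card_univ, Fintype.card_fin] at hj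
  refine hj.trans ?_
  have hs : ∑ i : Fin n, (∫ x, (inner ℝ (S x - T x) (b i)) ^ 2 ∂ρ) ^ (2 + 1) ≤ n * (C0 * κ) := by
    calc ∑ i : Fin n, (∫ x, (inner ℝ (S x - T x) (b i)) ^ 2 ∂ρ) ^ (2 + 1)
        ≤ ∑ _i : Fin n, C0 * κ := Finset.sum_le_sum (fun i _ => hdir i)
      _ = n * (C0 * κ) := by simp
  calc (n : ℝ) ^ 2 * ∑ i : Fin n, (∫ x, (inner ℝ (S x - T x) (b i)) ^ 2 ∂ρ) ^ (2 + 1)
      ≤ (n : ℝ) ^ 2 * (n * (C0 * κ)) := mul_le_mul_of_nonneg_left hs (by positivity)
    _ = (n : ℝ) ^ 2 * (n * C0) * κ := by ring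

end Crest.Agent.S0109Aux
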