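import Mathlib
import Crest.Prelude.Def_QuadraticTransport
import Crest.Agent.S0109Aux.GN

/-!
# S0109, STEP B: crude stability of optimal maps (exponent 1/4), from potentials
(helper10)
-/

set_option autoImplicit false
open MeasureTheory
open scoped ENNReal NNReal
open Crest.AnalysisR.OT

namespace Crest.Agent.S0109Aux

variable {E : Type*} [NormedAddCommGroup E] [InnerProductSpace ℝ E]

/-- The conjugate of `g` computed on the ball of radius `R`. -/
noncomputable def conjOn (R : ℝ) (g : E → ℝ) (y : E) : ℝ :=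
  sSup ((fun x => inner ℝ x y - g x) '' Metric.closedBall (0 : E) R)

section conj

variable [FiniteDimensional ℝ E]

lemma conjOn_bddAbove (R : ℝ) {g : E → ℝ} (hg : Continuous g) (y : E) :
    BddAbove ((fun x => inner ℝ x y - g x) '' Metric.closedBall (0 : E) R) := by
  apply (isCompact_closedBall (0 : E) R).bddAbove_image
  fun_prop

lemma le_conjOn (R : ℝ) {g : E → ℝ} (hg : Continuous g) (y : E) {x : E} (hx : ‖x‖ ≤ R) :
    inner ℝ x y - g x ≤ conjOn R g y :=
  le_csSup (conjOn_bddAbove R hg y) ⟨x, by simpa using hx, rfl⟩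

lemma conjOn_le_add (R : ℝ) (hR : 0 ≤ R) {g : E → ℝ} (hg : Continuous g) (y z : E) :
    conjOn R g y ≤ conjOn R g z + R * ‖y - z‖ := by
  apply csSup_le
  · exact ⟨_, ⟨0, by simpa using hR, rfl⟩⟩
  · rintro _ ⟨x, hx, rfl⟩
    have hx' : ‖x‖ ≤ R := by simpa using hx
    have h1 := le_conjOn R hg z hx'
    have h2 : inner ℝ x (y - z) ≤ R * ‖y - z‖ :=
      (real_inner_le_norm _ _).trans (mul_le_mul_of_nonneg_right hx' (norm_nonneg _))
    rw [inner_sub_right] at h2
    simp only
    linarith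

lemma conjOn_lipschitz (R : ℝ) (hR : 0 ≤ R) {g : E → ℝ} (hg : Continuous g) :
    LipschitzWith R.toNNReal (conjOn R g) := by
  apply LipschitzWith.of_dist_le_mul
  intro y z
  rw [Real.dist_eq, dist_eq_norm, Real.coe_toNNReal _ hR, abs_le]
  have h1 := conjOn_le_add R hR hg y z
  have h2 := conjOn_le_add R hR hg z y
  rw [norm_sub_rev] at h2
  constructor <;> linarith

lemma conjOn_eq_of_subgradient (R : ℝ) {g : E → ℝ} (hg : Continuous g) {x q : E}
    (hx : ‖x‖ ≤ R) (h : ∀ z, g x + inner ℝ q (z - x) ≤ g z) :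
    conjOn R g q = inner ℝ x q - g x := by
  apply le_antisymm
  · apply csSup_le
    · exact ⟨_, ⟨x, by simpa using hx, rfl⟩⟩
    · rintro _ ⟨z, -, rfl⟩
      have := h z
      rw [inner_sub_right, real_inner_comm z q, real_inner_comm x q] at this
      simp only
      linarith
  · exact le_conjOn R hg q hx

end conj

/-- The pointwise inequality behind STEP B. -/
lemma pointwise_B {g : E → ℝ} {gcy : ℝ} {x e y q : E} {t : ℝ}
    (h1 : inner ℝ (x + t • e) y - g (x + t • e) ≤ gcy)
    (h2 : inner ℝ (x - t • e) y - g (x - t • e) ≤ gcy)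
    (hg : ∀ z, g x + inner ℝ q (z - x) ≤ g z) :
    t * |inner ℝ (y - q) e| ≤
      (g x + gcy - inner ℝ x y) + (g (x + t • e) + g (x - t • e) - 2 * g x) := by
  have g1 := hg (x + t • e)
  have g2 := hg (x - t • e)
  rw [add_sub_cancel_left, inner_smul_right] at g1
  rw [sub_sub_cancel_left, inner_neg_right, inner_smul_right] at g2
  rw [inner_add_left, inner_smul_left, real_inner_comm y e] at h1
  rw [inner_sub_left, inner_smul_left, real_inner_comm y e] at h2
  simp only [conj_trivial] at h1 h2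
  rw [inner_sub_left]
  rcases abs_cases (inner ℝ y e - inner ℝ q e) with ⟨h, _⟩ | ⟨h, _⟩
  · rw [h]; linarith
  · rw [h]; linarith

variable [FiniteDimensional ℝ E] [MeasurableSpace E] [BorelSpace E]

lemma isProbabilityMeasure_uniformProbOn {K : Set E} (h0 : volume K ≠ 0) (htop : volume K ≠ ∞) :
    IsProbabilityMeasure (uniformProbOn K) := by
  constructor
  unfold uniformProbOn
  rw [Measure.smul_apply, Measure.restrict_apply MeasurableSet.univ, Set.univ_inter, smul_eq_mul,
    ENNReal.inv_mul_cancel h0 htop]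

lemma ae_mem_uniformProbOn {K : Set E} (hKm : MeasurableSet K) (htop : volume K ≠ ∞) :
    ∀ᵐ x ∂(uniformProbOn K), x ∈ K :=
  (ae_uniformProbOn_iff htop).mpr (ae_restrict_mem hKm)

/-- The Fenchel gap of `g` along `S` has small integral. -/
lemma integral_gap_le {K : Set E} (hKc : IsCompact K) (hV0 : volume K ≠ 0) {R : ℝ} (hR : 0 ≤ R)
    (hKR : ∀ x ∈ K, ‖x‖ ≤ R) {L : ℝ≥0} {f g : E → ℝ} {S T : E → E}
    (hf : LipschitzWith L f) (hg : LipschitzWith L g) (hS : Measurable S) (hT : Measurable T)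
    (hSf : ∀ᵐ x ∂(uniformProbOn K), ∀ z, f x + inner ℝ (S x) (z - x) ≤ f z)
    (hTg : ∀ᵐ x ∂(uniformProbOn K), ∀ z, g x + inner ℝ (T x) (z - x) ≤ g z)
    (π : Measure (E × E))
    (hπ : IsPairCoupling ((uniformProbOn K).map S) ((uniformProbOn K).map T) π)
    {η : ℝ} (hη0 : 0 ≤ η) (hη : ∫⁻ p, ‖p.1 - p.2‖ₑ ∂π ≤ ENNReal.ofReal η) :
    Integrable (fun x => g x + conjOn R g (S x) - inner ℝ x (S x)) (uniformProbOn K) ∧
      ∫ x, (g x + conjOn R g (S x) - inner ℝ x (S x)) ∂(uniformProbOn K) ≤ 2 * R * η := by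
  have htop : volume K ≠ ∞ := hKc.measure_lt_top.ne
  haveI := isProbabilityMeasure_uniformProbOn hV0 htop
  set ρ := uniformProbOn K with hρ
  have hmem : ∀ᵐ x ∂ρ, x ∈ K := ae_mem_uniformProbOn hKc.measurableSet htop
  have hfc := hf.continuous
  have hgc := hg.continuous
  have hlg := conjOn_lipschitz R hR hgc
  have hlf := conjOn_lipschitz R hR hfc
  set H : E → ℝ := fun y => conjOn R g y - conjOn R f y with hH
  have hHc : Continuous H := hlg.continuous.sub hlf.continuous
  have hHl : ∀ y z, H y - H z ≤ 2 * R * ‖y - z‖ := by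
    intro y z
    have h1 := conjOn_le_add R hR hgc y z
    have h2 := conjOn_le_add R hR hfc z y
    rw [norm_sub_rev] at h2
    simp only [hH]
    linarith
  have hHb : ∀ y, ‖y‖ ≤ L → ‖H y‖ ≤ |H 0| + 2 * R * L := by
    intro y hy
    have h1 := hHl y 0
    have h2 := hHl 0 y
    rw [sub_zero] at h1
    rw [zero_sub, norm_neg] at h2
    have h3 : 2 * R * ‖y‖ ≤ 2 * R * L := by gcongr
    rw [Real.norm_eq_abs, abs_le]
    have := le_abs_self (H 0)
    have := neg_abs_le (H 0)
    constructor <;> linarith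
  have hHS : Integrable (fun x => H (S x)) ρ := by
    refine Integrable.of_bound (hHc.measurable.comp hS).aestronglyMeasurable
      (|H 0| + 2 * R * L) ?_
    filter_upwards [hSf] with x h1
    exact hHb _ (norm_le_of_subgradient hf h1)
  have hHT : Integrable (fun x => H (T x)) ρ := by
    refine Integrable.of_bound (hHc.measurable.comp hT).aestronglyMeasurable
      (|H 0| + 2 * R * L) ?_
    filter_upwards [hTg] with x h1
    exact hHb _ (norm_le_of_subgradient hg h1)
  set A : E → ℝ := fun x => g x + conjOn R g (S x) - inner ℝ x (S x) with hA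
  have hAm : Measurable A := by
    have m1 : Measurable fun x => conjOn R g (S x) := hlg.continuous.measurable.comp hS
    have m2 : Measurable fun x => inner ℝ x (S x) := measurable_id.inner hS
    exact (hgc.measurable.add m1).sub m2
  have hAle : ∀ᵐ x ∂ρ, 0 ≤ A x ∧ A x ≤ H (S x) - H (T x) := by
    filter_upwards [hmem, hSf, hTg] with x hx h1 h2
    have hxR := hKR x hx
    have a1 := le_conjOn R hgc (S x) hxR
    have a2 := le_conjOn R hfc (T x) hxR
    have a3 := conjOn_eq_of_subgradient R hfc hxR h1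
    have a4 := conjOn_eq_of_subgradient R hgc hxR h2
    simp only [hA, hH]
    constructor <;> linarith
  have hAi : Integrable A ρ := by
    refine Integrable.mono' (hHS.sub hHT) hAm.aestronglyMeasurable ?_
    filter_upwards [hAle] with x hx
    rw [Real.norm_eq_abs, abs_of_nonneg hx.1]
    exact hx.2
  refine ⟨hAi, ?_⟩
  have h1 : ∫ x, A x ∂ρ ≤ ∫ x, (H (S x) - H (T x)) ∂ρ :=
    integral_mono_ae hAi (hHS.sub hHT) (by filter_upwards [hAle] with x hx using hx.2)
  have hHsm : ∀ μ' : Measure E, AEStronglyMeasurable H μ' := fun _ => hHc.aestronglyMeasurable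
  have e1 : ∫ x, H (S x) ∂ρ = ∫ p, H p.1 ∂π := by
    rw [← integral_map hS.aemeasurable (hHsm _), ← hπ.1,
      integral_map measurable_fst.aemeasurable (hHsm _)]
  have e2 : ∫ x, H (T x) ∂ρ = ∫ p, H p.2 ∂π := by
    rw [← integral_map hT.aemeasurable (hHsm _), ← hπ.2,
      integral_map measurable_snd.aemeasurable (hHsm _)]
  have i1 : Integrable (fun p : E × E => H p.1) π := by
    have : Integrable H (π.map Prod.fst) := by
      rw [hπ.1]
      exact (integrable_map_measure (hHsm _) hS.aemeasurable).mpr hHS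
    exact (integrable_map_measure (hHsm _) measurable_fst.aemeasurable).mp this
  have i2 : Integrable (fun p : E × E => H p.2) π := by
    have : Integrable H (π.map Prod.snd) := by
      rw [hπ.2]
      exact (integrable_map_measure (hHsm _) hT.aemeasurable).mpr hHT
    exact (integrable_map_measure (hHsm _) measurable_snd.aemeasurable).mp this
  have hdm : Measurable fun p : E × E => p.1 - p.2 := measurable_fst.sub measurable_snd
  have i3 : Integrable (fun p : E × E => ‖p.1 - p.2‖) π := by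
    refine ⟨hdm.norm.aestronglyMeasurable, ?_⟩
    unfold HasFiniteIntegral
    simp only [enorm_norm]
    exact lt_of_le_of_lt hη ENNReal.ofReal_lt_top
  have e3 : ∫ p, ‖p.1 - p.2‖ ∂π ≤ η := by
    rw [integral_norm_eq_lintegral_enorm hdm.aestronglyMeasurable]
    exact ENNReal.toReal_le_of_le_ofReal hη0 hη
  have h2 : ∫ p, (H p.1 - H p.2) ∂π ≤ ∫ p, 2 * R * ‖p.1 - p.2‖ ∂π :=
    integral_mono (i1.sub i2) (i3.const_mul _) (fun p => hHl p.1 p.2)
  rw [integral_const_mul] at h2
  rw [integral_sub hHS hHT, e1, e2, ← integral_sub i1 i2] at h1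
  have h3 : 2 * R * ∫ p, ‖p.1 - p.2‖ ∂π ≤ 2 * R * η :=
    mul_le_mul_of_nonneg_left e3 (by positivity)
  linarith

/-- Directional `L¹` estimate. -/
lemma stepB_dir {K : Set E} (hKc : IsCompact K) (hKv : Convex ℝ K) {x0 : E} {r : ℝ}
    (hr : 0 < r) (hball : Metric.closedBall x0 r ⊆ K) {R : ℝ} (hR : 0 ≤ R)
    (hKR : ∀ x ∈ K, ‖x‖ ≤ R) {L : ℝ≥0} {f g : E → ℝ} {S T : E → E}
    (hf : LipschitzWith L f) (hg : LipschitzWith L g) (hS : Measurable S) (hT : Measurable T)
    (hSf : ∀ᵐ x ∂(uniformProbOn K), ∀ z, f x + inner ℝ (S x) (z - x) ≤ f z)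
    (hTg : ∀ᵐ x ∂(uniformProbOn K), ∀ z, g x + inner ℝ (T x) (z - x) ≤ g z)
    (π : Measure (E × E))
    (hπ : IsPairCoupling ((uniformProbOn K).map S) ((uniformProbOn K).map T) π)
    {η : ℝ} (hη0 : 0 ≤ η) (hη : ∫⁻ p, ‖p.1 - p.2‖ₑ ∂π ≤ ENNReal.ofReal η)
    (e : E) (he : ‖e‖ = 1) {t : ℝ} (ht0 : 0 < t) (ht1 : t ≤ 1) (htr : t ≤ r) :
    t * ∫ x, (inner ℝ (S x - T x) e) ^ 2 ∂(uniformProbOn K) ≤
      2 * L * (2 * (R + 1) * η + 2 * L * t * ((Module.finrank ℝ E) * t / r)) := by
  have htop : volume K ≠ ∞ := hKc.measure_lt_top.ne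
  have hVpos' : 0 < volume K :=
    lt_of_lt_of_le (Metric.measure_closedBall_pos volume x0 hr) (measure_mono hball)
  have hV0 : volume K ≠ 0 := hVpos'.ne'
  have hVpos : 0 < volume.real K := ENNReal.toReal_pos hV0 htop
  haveI := isProbabilityMeasure_uniformProbOn hV0 htop
  have hR1 : 0 ≤ R + 1 := by linarith
  have hKR1 : ∀ x ∈ K, ‖x‖ ≤ R + 1 := fun x hx => (hKR x hx).trans (by linarith)
  obtain ⟨hAi, hAle⟩ := integral_gap_le hKc hV0 hR1 hKR1 hf hg hS hT hSf hTg π hπ hη0 hη
  obtain ⟨K', hK'm, hK'K, hadd, hvol⟩ := exists_shrink hKc hKv hr hball ht0 htr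
  set ρ := uniformProbOn K with hρ
  have hmem : ∀ᵐ x ∂ρ, x ∈ K := ae_mem_uniformProbOn hKc.measurableSet htop
  set v : E := t • e with hv
  have hvn : ‖v‖ = t := by rw [hv, norm_smul, he, mul_one, Real.norm_eq_abs, abs_of_pos ht0]
  have hp : ∀ x ∈ K', x + v ∈ K := hadd v hvn.le
  have hm : ∀ x ∈ K', x - v ∈ K := fun x hx => by
    rw [sub_eq_add_neg]; exact hadd (-v) (by rw [norm_neg]; exact hvn.le) x hx
  have hgc := hg.continuous
  set SD : E → ℝ := fun x => g (x + v) + g (x - v) - 2 * g x with hSD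
  have hSDc : Continuous SD := by fun_prop
  have hSDiK : IntegrableOn SD K volume := hSDc.continuousOn.integrableOn_compact hKc
  have hSDi : Integrable SD ρ := by
    rw [hρ]; unfold uniformProbOn
    exact hSDiK.smul_measure (ENNReal.inv_ne_top.mpr hV0)
  have hSDle : ∫ x, SD x ∂ρ ≤ 2 * L * t * ((Module.finrank ℝ E) * t / r) := by
    rw [hρ, integral_uniformProbOn]
    have t5 : ∫ x in K, SD x ≤ 2 * L * ‖v‖ * volume.real (K \ K') :=
      setIntegral_secondDiff_le hKc v hp hm hg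
    rw [hvn] at t5
    have t6 : 2 * L * t * volume.real (K \ K') ≤
        2 * L * t * ((Module.finrank ℝ E) * t / r * volume.real K) :=
      mul_le_mul_of_nonneg_left hvol (by positivity)
    rw [inv_mul_le_iff₀ hVpos]
    calc ∫ x in K, SD x ≤ 2 * L * t * ((Module.finrank ℝ E) * t / r * volume.real K) :=
          t5.trans t6
      _ = volume.real K * (2 * L * t * ((Module.finrank ℝ E) * t / r)) := by ring
  set A : E → ℝ := fun x => g x + conjOn (R + 1) g (S x) - inner ℝ x (S x) with hA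
  set D : E → ℝ := fun x => inner ℝ (S x - T x) e with hD
  have hDm : Measurable D := (hS.sub hT).inner_const
  have hDb : ∀ᵐ x ∂ρ, |D x| ≤ 2 * L := by
    filter_upwards [hSf, hTg] with x h1 h2
    have n1 := norm_le_of_subgradient hf h1
    have n2 := norm_le_of_subgradient hg h2
    calc |D x| ≤ ‖S x - T x‖ * ‖e‖ := abs_real_inner_le_norm _ _
      _ = ‖S x - T x‖ := by rw [he, mul_one]
      _ ≤ ‖S x‖ + ‖T x‖ := norm_sub_le _ _
      _ ≤ 2 * L := by linarith
  have hpt : ∀ᵐ x ∂ρ, t * D x ^ 2 ≤ 2 * L * (A x + SD x) := by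
    filter_upwards [hmem, hTg, hDb] with x hx h2 h3
    have hxR := hKR x hx
    have b1 : ‖x + t • e‖ ≤ R + 1 := by
      calc ‖x + t • e‖ ≤ ‖x‖ + ‖t • e‖ := norm_add_le _ _
        _ ≤ R + 1 := by rw [← hv, hvn]; linarith
    have b2 : ‖x - t • e‖ ≤ R + 1 := by
      calc ‖x - t • e‖ ≤ ‖x‖ + ‖t • e‖ := norm_sub_le _ _
        _ ≤ R + 1 := by rw [← hv, hvn]; linarith
    have key := pointwise_B (le_conjOn (R + 1) hgc (S x) b1) (le_conjOn (R + 1) hgc (S x) b2) h2
    have key' : t * |D x| ≤ A x + SD x := key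
    have h0 : 0 ≤ t * |D x| := by positivity
    calc t * D x ^ 2 = |D x| * (t * |D x|) := by rw [← sq_abs]; ring
      _ ≤ 2 * L * (t * |D x|) := mul_le_mul_of_nonneg_right h3 h0
      _ ≤ 2 * L * (A x + SD x) := mul_le_mul_of_nonneg_left key' (by positivity)
  have hD2i : Integrable (fun x => D x ^ 2) ρ := by
    refine Integrable.of_bound (hDm.pow_const 2).aestronglyMeasurable (4 * (L : ℝ) ^ 2) ?_
    filter_upwards [hDb] with x hx
    rw [Real.norm_eq_abs, abs_of_nonneg (sq_nonneg _), ← sq_abs]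
    nlinarith [abs_nonneg (D x)]
  have hint : ∫ x, t * D x ^ 2 ∂ρ ≤ ∫ x, 2 * L * (A x + SD x) ∂ρ :=
    integral_mono_ae (hD2i.const_mul _) ((hAi.add hSDi).const_mul _) hpt
  rw [integral_const_mul, integral_const_mul, integral_add hAi hSDi] at hint
  refine hint.trans ?_
  apply mul_le_mul_of_nonneg_left _ (by positivity)
  linarith

/-- Optimisation in `t` for STEP B. -/
lemma optimise_B {a η P Q τ M : ℝ} (hτ : 0 < τ) (hP : 0 ≤ P) (hQ : 0 ≤ Q) (hM : 0 ≤ M)
    (hη : 0 ≤ η) (haM : a ≤ M) (h : ∀ t, 0 < t → t ≤ τ → t * a ≤ P * η + Q * t ^ 2) :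
    a ≤ (P + Q + M / τ) * Real.sqrt η := by
  have hs0 : 0 ≤ Real.sqrt η := Real.sqrt_nonneg η
  have hMτ : 0 ≤ M / τ := by positivity
  rcases hη.eq_or_lt with h0 | hpos
  · -- `η = 0`
    rw [← h0, Real.sqrt_zero, mul_zero]
    by_contra hcon
    push Not at hcon
    have hQ1 : 0 < Q + 1 := by linarith
    set t := min τ (a / (2 * (Q + 1))) with ht
    have ht0 : 0 < t := lt_min hτ (by positivity)
    have h1 := h t ht0 (min_le_left _ _)
    rw [← h0, mul_zero, zero_add] at h1
    have h2 : t ≤ a / (2 * (Q + 1)) := min_le_right _ _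
    rw [le_div_iff₀ (by positivity)] at h2
    have h3 : a ≤ Q * t := by
      have : t * a ≤ t * (Q * t) := by nlinarith
      exact le_of_mul_le_mul_left this ht0
    nlinarith
  · have hspos : 0 < Real.sqrt η := Real.sqrt_pos.mpr hpos
    have hsq : Real.sqrt η ^ 2 = η := Real.sq_sqrt hη
    rcases le_total (Real.sqrt η) τ with hle | hgt
    · have h1 := h _ hspos hle
      rw [hsq] at h1
      have h2 : Real.sqrt η * a ≤ Real.sqrt η * ((P + Q) * Real.sqrt η) := by
        calc Real.sqrt η * a ≤ P * η + Q * η := h1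
          _ = (P + Q) * Real.sqrt η ^ 2 := by rw [hsq]; ring
          _ = Real.sqrt η * ((P + Q) * Real.sqrt η) := by ring
      have h3 := le_of_mul_le_mul_left h2 hspos
      nlinarith
    · have h1 : M ≤ M / τ * Real.sqrt η := by
        calc M = M / τ * τ := by field_simp
          _ ≤ M / τ * Real.sqrt η := mul_le_mul_of_nonneg_left hgt hMτ
      nlinarith

/-- **STEP B** (crude stability). -/
theorem stepB (K : Set E) (hKc : IsCompact K) (hKv : Convex ℝ K)
    (hKi : (interior K).Nonempty) (L : ℝ≥0) :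
    ∃ C : ℝ, 0 ≤ C ∧ ∀ (f g : E → ℝ) (S T : E → E), LipschitzWith L f → LipschitzWith L g →
      Measurable S → Measurable T →
      (∀ᵐ x ∂(uniformProbOn K), ∀ z, f x + inner ℝ (S x) (z - x) ≤ f z) →
      (∀ᵐ x ∂(uniformProbOn K), ∀ z, g x + inner ℝ (T x) (z - x) ≤ g z) →
      ∀ π : Measure (E × E),
        IsPairCoupling ((uniformProbOn K).map S) ((uniformProbOn K).map T) π →
      ∀ η : ℝ, 0 ≤ η → ∫⁻ p, ‖p.1 - p.2‖ₑ ∂π ≤ ENNReal.ofReal η →
        ∫ x, ‖S x - T x‖ ^ 2 ∂(uniformProbOn K) ≤ C * Real.sqrt η := by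
  obtain ⟨x0, hx0⟩ := hKi
  obtain ⟨r, hr, hball⟩ :=
    Metric.nhds_basis_closedBall.mem_iff.mp (mem_interior_iff_mem_nhds.mp hx0)
  obtain ⟨R0, hR0⟩ := hKc.isBounded.exists_norm_le
  set R : ℝ := max R0 0 with hRdef
  have hR : 0 ≤ R := le_max_right _ _
  have hKR : ∀ x ∈ K, ‖x‖ ≤ R := fun x hx => (hR0 x hx).trans (le_max_left _ _)
  set n : ℕ := Module.finrank ℝ E with hn
  set τ : ℝ := min 1 r with hτ
  have hτ0 : 0 < τ := lt_min one_pos hr
  set P : ℝ := 2 * L * (2 * (R + 1)) with hP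
  set Q : ℝ := 2 * L * (2 * L * (n / r)) with hQ
  set M : ℝ := 4 * (L : ℝ) ^ 2 with hM
  have hP0 : 0 ≤ P := by rw [hP]; positivity
  have hQ0 : 0 ≤ Q := by rw [hQ]; positivity
  have hM0 : 0 ≤ M := by rw [hM]; positivity
  refine ⟨n * (P + Q + M / τ), by positivity, ?_⟩
  intro f g S T hf hg hS hT hSf hTg π hπ η hη0 hη
  have htop : volume K ≠ ∞ := hKc.measure_lt_top.ne
  have hVpos' : 0 < volume K :=
    lt_of_lt_of_le (Metric.measure_closedBall_pos volume x0 hr) (measure_mono hball)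
  haveI := isProbabilityMeasure_uniformProbOn hVpos'.ne' htop
  set b := stdOrthonormalBasis ℝ E with hb
  set ρ := uniformProbOn K with hρ
  have hbound : ∀ i, ∀ᵐ x ∂ρ, ‖(inner ℝ (S x - T x) (b i)) ^ 2‖ ≤ M := by
    intro i
    filter_upwards [hSf, hTg] with x h1 h2
    have n1 := norm_le_of_subgradient hf h1
    have n2 := norm_le_of_subgradient hg h2
    have h3 : |inner ℝ (S x - T x) (b i)| ≤ 2 * L := by
      calc |inner ℝ (S x - T x) (b i)| ≤ ‖S x - T x‖ * ‖b i‖ := abs_real_inner_le_norm _ _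
        _ = ‖S x - T x‖ := by rw [b.orthonormal.1 i, mul_one]
        _ ≤ ‖S x‖ + ‖T x‖ := norm_sub_le _ _
        _ ≤ 2 * L := by linarith
    rw [Real.norm_eq_abs, abs_of_nonneg (sq_nonneg _), ← sq_abs, hM]
    nlinarith [abs_nonneg (inner ℝ (S x - T x) (b i))]
  have hint : ∀ i, Integrable (fun x => (inner ℝ (S x - T x) (b i)) ^ 2) ρ := by
    intro i
    have hmeas : Measurable fun x => (inner ℝ (S x - T x) (b i)) ^ 2 :=
      ((hS.sub hT).inner_const).pow_const 2
    exact Integrable.of_bound hmeas.aestronglyMeasurable M (hbound i)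
  have hdir : ∀ i, ∫ x, (inner ℝ (S x - T x) (b i)) ^ 2 ∂ρ ≤ (P + Q + M / τ) * Real.sqrt η := by
    intro i
    apply optimise_B hτ0 hP0 hQ0 hM0 hη0
    · have := norm_integral_le_of_norm_le_const (hbound i)
      simp only [probReal_univ, mul_one] at this
      exact (le_abs_self _).trans this
    · intro t ht0 htτ
      have h := stepB_dir hKc hKv hr hball hR hKR hf hg hS hT hSf hTg π hπ hη0 hη (b i)
        (b.orthonormal.1 i) ht0 (htτ.trans (min_le_left _ _)) (htτ.trans (min_le_right _ _))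
      refine h.trans (le_of_eq ?_)
      rw [hP, hQ, ← hn]
      ring
  have hsum : ∫ x, ‖S x - T x‖ ^ 2 ∂ρ = ∑ i, ∫ x, (inner ℝ (S x - T x) (b i)) ^ 2 ∂ρ := by
    rw [← integral_finsetSum _ (fun i _ => hint i)]
    congr 1
    funext x
    exact (b.sum_sq_inner_left (S x - T x)).symm
  rw [hsum]
  calc ∑ i, ∫ x, (inner ℝ (S x - T x) (b i)) ^ 2 ∂ρ
      ≤ ∑ _i : Fin n, (P + Q + M / τ) * Real.sqrt η := Finset.sum_le_sum (fun i _ => hdir i)
    _ = n * (P + Q + M / τ) * Real.sqrt η := by simp; ring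

end Crest.Agent.S0109Aux
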