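import Crest.Agent.S0109Aux.Potential
import Crest.Agent.S0109Aux.StepB
import Crest.Agent.S0109Aux.GN
import Crest.Agent.S0109Aux.ClaimP
import Crest.Agent.S0109Aux.SemiDiscrete
import Crest.Agent.S0109Aux.AtomicMap
import Crest.Agent.S0109Aux.Discretise

/-!
# S0109 : final assembly (steps A + B + C + D + E, `η → 0`, `ℝ≥0∞` bookkeeping)
-/

set_option autoImplicit false
open MeasureTheory Set
open scoped ENNReal NNReal RealInnerProductSpace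
open Crest.AnalysisR.OT

namespace Crest.Agent.S0109Aux

section L2

variable {α : Type*} [MeasurableSpace α] {μ : Measure α} {F : Type*} [NormedAddCommGroup F]

lemma ofReal_sqrt_integral_sq {u : α → F} (hu : MemLp u 2 μ) :
    ENNReal.ofReal (Real.sqrt (∫ a, ‖u a‖ ^ 2 ∂μ)) = eLpNorm u 2 μ := by
  rw [hu.eLpNorm_eq_integral_rpow_norm (by norm_num) (by norm_num)]
  simp [Real.sqrt_eq_rpow]

/-- Minkowski's inequality in `L²`, written with real integrals. -/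
lemma sqrt_integral_add_le {u v : α → F} (hu : MemLp u 2 μ) (hv : MemLp v 2 μ) :
    Real.sqrt (∫ a, ‖u a + v a‖ ^ 2 ∂μ) ≤
      Real.sqrt (∫ a, ‖u a‖ ^ 2 ∂μ) + Real.sqrt (∫ a, ‖v a‖ ^ 2 ∂μ) := by
  have h := eLpNorm_add_le hu.1 hv.1 (by norm_num : (1 : ℝ≥0∞) ≤ 2)
  rw [← ofReal_sqrt_integral_sq hu, ← ofReal_sqrt_integral_sq hv,
    ← ofReal_sqrt_integral_sq (hu.add hv), ← ENNReal.ofReal_add (Real.sqrt_nonneg _) (Real.sqrt_nonneg _)] at h
  exact (ENNReal.ofReal_le_ofReal_iff (by positivity)).1 h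

lemma memLp_two_of_bound [IsFiniteMeasure μ] {u : α → F} (hu : AEStronglyMeasurable u μ) (C : ℝ)
    (hC : ∀ᵐ a ∂μ, ‖u a‖ ≤ C) : MemLp u 2 μ :=
  MemLp.of_bound hu C hC

end L2

section pot

variable {d : ℕ} {ι : Type*} [Fintype ι] [Nonempty ι]

lemma lipschitzWith_iSup_aff (y : ι → EuclideanSpace ℝ (Fin d)) (ψ : ι → ℝ) (L : ℝ≥0)
    (hy : ∀ i, ‖y i‖ ≤ L) :
    LipschitzWith L (fun x : EuclideanSpace ℝ (Fin d) => ⨆ i, (⟪x, y i⟫ - ψ i)) := by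
  apply LipschitzWith.of_le_add_mul
  intro x x'
  apply ciSup_le
  intro i
  have h1 : ⟪x', y i⟫ - ψ i ≤ ⨆ i, (⟪x', y i⟫ - ψ i) :=
    le_ciSup (f := fun i => ⟪x', y i⟫ - ψ i) (Finite.bddAbove_range _) i
  have h2 : ⟪x - x', y i⟫ ≤ L * dist x x' := by
    calc ⟪x - x', y i⟫ ≤ ‖x - x'‖ * ‖y i‖ := real_inner_le_norm _ _
      _ ≤ ‖x - x'‖ * L := by gcongr; exact hy i
      _ = L * dist x x' := by rw [dist_eq_norm, mul_comm]
  rw [inner_sub_left] at h2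
  linarith

/-- The Laguerre map of weights with the right cell masses (from `laguerre_optimal`). -/
lemma exists_laguerre_map {K : Set (EuclideanSpace ℝ (Fin d))} (hKc : IsCompact K)
    (hKi : (interior K).Nonempty) (y : ι → EuclideanSpace ℝ (Fin d)) (hy : Function.Injective y)
    (m ψ : ι → ℝ) (hψ : ∀ i, cellMass K y ψ i = m i) :
    ∃ T0 : EuclideanSpace ℝ (Fin d) → EuclideanSpace ℝ (Fin d), Measurable T0 ∧
      (uniformProbOn K).map T0 = ∑ i, ENNReal.ofReal (m i) • Measure.dirac (y i) ∧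
      ∀ᵐ x ∂(uniformProbOn K), ∀ z, (⨆ i, (⟪x, y i⟫ - ψ i)) + ⟪T0 x, z - x⟫ ≤ ⨆ i, (⟪z, y i⟫ - ψ i) := by
  obtain ⟨T0, hT0, -⟩ := (laguerre_optimal hKc hKi y hy m ψ hψ).1
  exact ⟨T0, hT0.1, hT0.2.1, atomic_optimal_map_subgradient hKc hKi y hy m ψ hψ T0 hT0⟩

end pot

section coupling

variable {G : Type*} [NormedAddCommGroup G] [MeasurableSpace G]

lemma lintegral_enorm_sub_le_of_coupling {μ ν : Measure G} [IsProbabilityMeasure μ] {γ : Measure (G × G)}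
    (hγ : IsPairCoupling μ ν γ) {η : ℝ} (h : ∀ᵐ p ∂γ, ‖p.1 - p.2‖ ≤ η) :
    ∫⁻ p, ‖p.1 - p.2‖ₑ ∂γ ≤ ENNReal.ofReal η := by
  have huniv : γ univ = 1 := by
    have := hγ.1
    have h2 : (γ.map Prod.fst) univ = γ univ := by
      rw [Measure.map_apply measurable_fst MeasurableSet.univ, preimage_univ]
    rw [← h2, this, measure_univ]
  calc ∫⁻ p, ‖p.1 - p.2‖ₑ ∂γ ≤ ∫⁻ _p, ENNReal.ofReal η ∂γ := by
        apply lintegral_mono_ae
        filter_upwards [h] with p hp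
        rw [← ofReal_norm]
        exact ENNReal.ofReal_le_ofReal hp
    _ = ENNReal.ofReal η := by rw [lintegral_const, huniv, mul_one]

end coupling

section main

variable {d : ℕ}

/-- One approximation step. -/
theorem approx_step (hd : 0 < d) {K : Set (EuclideanSpace ℝ (Fin d))} (hKc : IsCompact K)
    (hKv : Convex ℝ K) (hKi : (interior K).Nonempty) {R : ℝ} (hR : ∀ x ∈ K, ‖x‖ ≤ R)
    {Y : Set (EuclideanSpace ℝ (Fin d))} (hYc : IsCompact Y) (hYn : Y.Nonempty) {L : ℝ} (hL : 0 ≤ L)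
    (hYL : ∀ y ∈ Y, ‖y‖ ≤ L) {CB CC : ℝ} (hCC : 0 ≤ CC)
    (hB : ∀ (f g : EuclideanSpace ℝ (Fin d) → ℝ) (S T : EuclideanSpace ℝ (Fin d) → EuclideanSpace ℝ (Fin d)),
      LipschitzWith (L + 1).toNNReal f → LipschitzWith (L + 1).toNNReal g →
      Measurable S → Measurable T →
      (∀ᵐ x ∂(uniformProbOn K), ∀ z, f x + inner ℝ (S x) (z - x) ≤ f z) →
      (∀ᵐ x ∂(uniformProbOn K), ∀ z, g x + inner ℝ (T x) (z - x) ≤ g z) →
      ∀ (π : Measure (EuclideanSpace ℝ (Fin d) × EuclideanSpace ℝ (Fin d))),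
      IsPairCoupling ((uniformProbOn K).map S) ((uniformProbOn K).map T) π →
      ∀ η : ℝ, 0 ≤ η → (∫⁻ p, ‖p.1 - p.2‖ₑ ∂π ≤ ENNReal.ofReal η) →
        ∫ x, ‖S x - T x‖ ^ 2 ∂(uniformProbOn K) ≤ CB * Real.sqrt η)
    (hC : ∀ (f g : EuclideanSpace ℝ (Fin d) → ℝ) (S T : EuclideanSpace ℝ (Fin d) → EuclideanSpace ℝ (Fin d)),
      LipschitzWith (L + 1).toNNReal f → LipschitzWith (L + 1).toNNReal g →
      Measurable S → Measurable T →
      (∀ᵐ x ∂(uniformProbOn K), ∀ z, f x + inner ℝ (S x) (z - x) ≤ f z) →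
      (∀ᵐ x ∂(uniformProbOn K), ∀ z, g x + inner ℝ (T x) (z - x) ≤ g z) →
      ∀ c : ℝ, (∫ x, ‖S x - T x‖ ^ 2 ∂(uniformProbOn K)) ^ 3 ≤
        CC * ∫ x, (f x - g x - c) ^ 2 ∂(uniformProbOn K))
    {μ ν : Measure (EuclideanSpace ℝ (Fin d))} (hμ : IsProbabilityOn Y μ) (hν : IsProbabilityOn Y ν)
    {Tμ Tν : EuclideanSpace ℝ (Fin d) → EuclideanSpace ℝ (Fin d)}
    (hTμ : IsOptimalMap (uniformProbOn K) μ Tμ) (hTν : IsOptimalMap (uniformProbOn K) ν Tν)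
    {π : Measure (EuclideanSpace ℝ (Fin d) × EuclideanSpace ℝ (Fin d))} (hπ : IsPairCoupling μ ν π)
    {η : ℝ} (hη : 0 < η) (hη1 : η ≤ 1) :
    Real.sqrt (∫ x, ‖Tμ x - Tν x‖ ^ 2 ∂(uniformProbOn K)) ≤
      2 * Real.sqrt (CB * Real.sqrt η) +
        Real.sqrt ((CC * (404 * R ^ 2 * (2 * (quadCost π).toReal + 8 * η ^ 2))) ^ (1 / 3 : ℝ)) := by
  classical
  have h0 := uP_volume_ne_zero hKi
  have ht : volume K ≠ ∞ := hKc.measure_lt_top.ne
  have : IsProbabilityMeasure (uniformProbOn K) := uP_isProbabilityMeasure h0 ht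
  have := hμ.1
  have := hν.1
  set L1 : ℝ≥0 := (L + 1).toNNReal with hL1def
  have hL1 : (L1 : ℝ) = L + 1 := Real.coe_toNNReal _ (by linarith)
  obtain ⟨ι, _, _, y, z, m, hy, hz, hm, hsum, hyY, hzY, ⟨γ1, hγ1, hγ1b⟩, ⟨γ2, hγ2, hγ2b⟩, hfin, hcost⟩ :=
    exists_discretisation hd Y hYc hYn μ ν hμ hν π hπ η hη
  obtain ⟨ψ, hψ⟩ := exists_weights hKc hKi hy m hm hsum
  obtain ⟨ψ', hψ'⟩ := exists_weights hKc hKi hz m hm hsum
  obtain ⟨S0, hS0m, hS0map, hS0sub⟩ := exists_laguerre_map hKc hKi y hy m ψ hψ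
  obtain ⟨T0, hT0m, hT0map, hT0sub⟩ := exists_laguerre_map hKc hKi z hz m ψ' hψ'
  obtain ⟨gμ, -, hgμL, hgμ⟩ :=
    exists_potential_on d hd K hKc hKv hKi Y hYc.measurableSet L hL hYL μ hμ Tμ hTμ
  obtain ⟨gν, -, hgνL, hgν⟩ :=
    exists_potential_on d hd K hKc hKv hKi Y hYc.measurableSet L hL hYL ν hν Tν hTν
  have hnear : ∀ v : EuclideanSpace ℝ (Fin d), (∃ w ∈ Y, ‖v - w‖ ≤ η) → ‖v‖ ≤ L1 := by
    rintro v ⟨w, hw, hwv⟩
    calc ‖v‖ = ‖(v - w) + w‖ := by simp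
      _ ≤ ‖v - w‖ + ‖w‖ := norm_add_le _ _
      _ ≤ η + L := add_le_add hwv (hYL w hw)
      _ ≤ L1 := by rw [hL1]; linarith
  have hpy := lipschitzWith_iSup_aff y ψ L1 (fun i => hnear _ (hyY i))
  have hpz := lipschitzWith_iSup_aff z ψ' L1 (fun i => hnear _ (hzY i))
  have hLL1 : L.toNNReal ≤ L1 := Real.toNNReal_le_toNNReal (by linarith)
  have hgμL1 : LipschitzWith L1 gμ := hgμL.weaken hLL1
  have hgνL1 : LipschitzWith L1 gν := hgνL.weaken hLL1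
  -- the two outer terms
  have a1 : ∫ x, ‖Tμ x - S0 x‖ ^ 2 ∂(uniformProbOn K) ≤ CB * Real.sqrt η :=
    hB gμ _ Tμ S0 hgμL1 hpy hTμ.1 hS0m (hgμ.mono fun x hx => hx.2)
      hS0sub γ1 (by rw [hTμ.2.1, hS0map]; exact hγ1) η hη.le
      (lintegral_enorm_sub_le_of_coupling hγ1 hγ1b)
  have a3 : ∫ x, ‖Tν x - T0 x‖ ^ 2 ∂(uniformProbOn K) ≤ CB * Real.sqrt η :=
    hB gν _ Tν T0 hgνL1 hpz hTν.1 hT0m (hgν.mono fun x hx => hx.2)
      hT0sub γ2 (by rw [hTν.2.1, hT0map]; exact hγ2) η hη.le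
      (lintegral_enorm_sub_le_of_coupling hγ2 hγ2b)
  -- the middle term
  obtain ⟨c, hc⟩ := claimP hKc hKv hKi hR hy hz m hm ψ ψ' hψ hψ'
  have a2 : (∫ x, ‖S0 x - T0 x‖ ^ 2 ∂(uniformProbOn K)) ^ 3 ≤
      CC * (404 * R ^ 2 * (2 * (quadCost π).toReal + 8 * η ^ 2)) := by
    refine (hC _ _ S0 T0 hpy hpz hS0m hT0m hS0sub
      hT0sub c).trans ?_
    apply mul_le_mul_of_nonneg_left _ hCC
    refine le_trans hc ?_
    apply mul_le_mul_of_nonneg_left hcost (by positivity)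
  have a2' : ∫ x, ‖S0 x - T0 x‖ ^ 2 ∂(uniformProbOn K) ≤
      (CC * (404 * R ^ 2 * (2 * (quadCost π).toReal + 8 * η ^ 2))) ^ (1 / 3 : ℝ) := by
    have hnn : 0 ≤ ∫ x, ‖S0 x - T0 x‖ ^ 2 ∂(uniformProbOn K) := integral_nonneg fun x => by positivity
    calc ∫ x, ‖S0 x - T0 x‖ ^ 2 ∂(uniformProbOn K)
        = ((∫ x, ‖S0 x - T0 x‖ ^ 2 ∂(uniformProbOn K)) ^ 3) ^ (1 / 3 : ℝ) := by
          rw [← Real.rpow_natCast, ← Real.rpow_mul hnn]; norm_num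
      _ ≤ _ := Real.rpow_le_rpow (by positivity) a2 (by norm_num)
  -- `L²` bounds
  have bS0 : ∀ᵐ x ∂(uniformProbOn K), ‖S0 x‖ ≤ L1 :=
    hS0sub.mono fun x hx => norm_le_of_subgradient hpy hx
  have bT0 : ∀ᵐ x ∂(uniformProbOn K), ‖T0 x‖ ≤ L1 :=
    hT0sub.mono fun x hx => norm_le_of_subgradient hpz hx
  have bTμ : ∀ᵐ x ∂(uniformProbOn K), ‖Tμ x‖ ≤ L1 := hgμ.mono fun x hx => by
    rw [hL1]; linarith [hYL _ hx.1]
  have bTν : ∀ᵐ x ∂(uniformProbOn K), ‖Tν x‖ ≤ L1 := hgν.mono fun x hx => by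
    rw [hL1]; linarith [hYL _ hx.1]
  have m1 : MemLp (fun x => Tμ x - S0 x) 2 (uniformProbOn K) :=
    memLp_two_of_bound (hTμ.1.sub hS0m).aestronglyMeasurable (L1 + L1)
      (by filter_upwards [bTμ, bS0] with x h1 h2 using (norm_sub_le _ _).trans (add_le_add h1 h2))
  have m2 : MemLp (fun x => S0 x - T0 x) 2 (uniformProbOn K) :=
    memLp_two_of_bound (hS0m.sub hT0m).aestronglyMeasurable (L1 + L1)
      (by filter_upwards [bS0, bT0] with x h1 h2 using (norm_sub_le _ _).trans (add_le_add h1 h2))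
  have m3 : MemLp (fun x => T0 x - Tν x) 2 (uniformProbOn K) :=
    memLp_two_of_bound (hT0m.sub hTν.1).aestronglyMeasurable (L1 + L1)
      (by filter_upwards [bT0, bTν] with x h1 h2 using (norm_sub_le _ _).trans (add_le_add h1 h2))
  have t1 := sqrt_integral_add_le m1 (m2.add m3)
  have t2 := sqrt_integral_add_le m2 m3
  have e1 : ∀ x, Tμ x - S0 x + ((fun x => S0 x - T0 x) + fun x => T0 x - Tν x) x = Tμ x - Tν x := by
    intro x; simp
  simp only [e1] at t1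
  have e2 : ∀ x, ((fun x => S0 x - T0 x) + fun x => T0 x - Tν x) x = S0 x - T0 x + (T0 x - Tν x) := by
    intro x; rfl
  simp only [e2] at t1
  have a3' : ∫ x, ‖T0 x - Tν x‖ ^ 2 ∂(uniformProbOn K) ≤ CB * Real.sqrt η := by
    simpa only [norm_sub_rev] using a3
  have s1 := Real.sqrt_le_sqrt a1
  have s2 := Real.sqrt_le_sqrt a2'
  have s3 := Real.sqrt_le_sqrt a3'
  linarith

/-- The real form of the theorem. -/
theorem main_real (hd : 0 < d) {K : Set (EuclideanSpace ℝ (Fin d))} (hKc : IsCompact K)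
    (hKv : Convex ℝ K) (hKi : (interior K).Nonempty)
    {Y : Set (EuclideanSpace ℝ (Fin d))} (hYc : IsCompact Y) (hYn : Y.Nonempty) :
    ∃ C : ℝ, 0 ≤ C ∧ ∀ μ ν : Measure (EuclideanSpace ℝ (Fin d)), IsProbabilityOn Y μ →
      IsProbabilityOn Y ν → ∀ Tμ Tν : EuclideanSpace ℝ (Fin d) → EuclideanSpace ℝ (Fin d),
      IsOptimalMap (uniformProbOn K) μ Tμ → IsOptimalMap (uniformProbOn K) ν Tν →
      ∀ π : Measure (EuclideanSpace ℝ (Fin d) × EuclideanSpace ℝ (Fin d)), IsPairCoupling μ ν π →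
        ∫ x, ‖Tμ x - Tν x‖ ^ 2 ∂(uniformProbOn K) ≤ C * ((quadCost π).toReal) ^ (1 / 3 : ℝ) := by
  obtain ⟨R, hR⟩ := hKc.isBounded.exists_norm_le
  obtain ⟨L0, hL0⟩ := hYc.isBounded.exists_norm_le
  set L : ℝ := max L0 0 with hLdef
  have hL : 0 ≤ L := le_max_right _ _
  have hYL : ∀ y ∈ Y, ‖y‖ ≤ L := fun y hy => (hL0 y hy).trans (le_max_left _ _)
  obtain ⟨CB, -, hB⟩ := stepB K hKc hKv hKi (L + 1).toNNReal
  obtain ⟨CC, hCC, hC⟩ := gn_step K hKc hKv hKi (L + 1).toNNReal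
  refine ⟨(CC * (404 * R ^ 2 * 2)) ^ (1 / 3 : ℝ), by positivity, ?_⟩
  intro μ ν hμ hν Tμ Tν hTμ hTν π hπ
  set q : ℝ := (quadCost π).toReal with hq
  have hq0 : 0 ≤ q := ENNReal.toReal_nonneg
  set F : ℝ → ℝ := fun η => 2 * Real.sqrt (CB * Real.sqrt η) +
        Real.sqrt ((CC * (404 * R ^ 2 * (2 * q + 8 * η ^ 2))) ^ (1 / 3 : ℝ)) with hF
  have key : ∀ η : ℝ, 0 < η → η ≤ 1 →
      Real.sqrt (∫ x, ‖Tμ x - Tν x‖ ^ 2 ∂(uniformProbOn K)) ≤ F η := fun η h1 h2 =>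
    approx_step hd hKc hKv hKi hR hYc hYn hL hYL hCC hB hC hμ hν hTμ hTν hπ h1 h2
  have hFc : Continuous F := by
    apply Continuous.add
    · fun_prop
    · apply Continuous.sqrt
      apply Continuous.rpow_const (by fun_prop)
      intro x; right; norm_num
  have lim : Filter.Tendsto F (nhdsWithin 0 (Set.Ioi 0)) (nhds (F 0)) :=
    hFc.continuousAt.tendsto.mono_left nhdsWithin_le_nhds
  have h1 : Real.sqrt (∫ x, ‖Tμ x - Tν x‖ ^ 2 ∂(uniformProbOn K)) ≤ F 0 := by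
    apply ge_of_tendsto lim
    filter_upwards [Ioc_mem_nhdsGT (zero_lt_one' ℝ)] with η hη using key η hη.1 hη.2
  have hF0 : F 0 = Real.sqrt ((CC * (404 * R ^ 2 * 2)) ^ (1 / 3 : ℝ) * q ^ (1 / 3 : ℝ)) := by
    simp only [hF]
    rw [← Real.mul_rpow (by positivity) hq0]
    simp only [Real.sqrt_zero, mul_zero, zero_add]
    congr 2
    ring
  rw [hF0] at h1
  exact (Real.sqrt_le_sqrt_iff (by positivity)).1 h1

/-- The theorem in `ℝ≥0∞` form. -/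
theorem main_ennreal (hd : 0 < d) {K : Set (EuclideanSpace ℝ (Fin d))} (hKc : IsCompact K)
    (hKv : Convex ℝ K) (hKi : (interior K).Nonempty)
    {Y : Set (EuclideanSpace ℝ (Fin d))} (hYc : IsCompact Y) (hYn : Y.Nonempty) :
    ∃ C : ℝ≥0, ∀ μ ν : Measure (EuclideanSpace ℝ (Fin d)), IsProbabilityOn Y μ →
      IsProbabilityOn Y ν → ∀ Tμ Tν : EuclideanSpace ℝ (Fin d) → EuclideanSpace ℝ (Fin d),
      IsOptimalMap (uniformProbOn K) μ Tμ → IsOptimalMap (uniformProbOn K) ν Tν →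
      ∀ π : Measure (EuclideanSpace ℝ (Fin d) × EuclideanSpace ℝ (Fin d)), IsPairCoupling μ ν π →
        ∫⁻ x, ‖Tμ x - Tν x‖ₑ ^ 2 ∂(uniformProbOn K) ≤ C * quadCost π ^ (1 / 3 : ℝ) := by
  obtain ⟨C, hC0, hC⟩ := main_real hd hKc hKv hKi hYc hYn
  refine ⟨C.toNNReal, ?_⟩
  intro μ ν hμ hν Tμ Tν hTμ hTν π hπ
  have h0 := uP_volume_ne_zero hKi
  have ht : volume K ≠ ∞ := hKc.measure_lt_top.ne
  have : IsProbabilityMeasure (uniformProbOn K) := uP_isProbabilityMeasure h0 ht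
  obtain ⟨L, hL⟩ := hYc.isBounded.exists_norm_le
  have hfin : quadCost π ≠ ∞ := by
    obtain ⟨ι, _, _, y, z, m, -, -, -, -, -, -, -, -, hfin, -⟩ :=
      exists_discretisation hd Y hYc hYn μ ν hμ hν π hπ 1 one_pos
    exact hfin
  have bT : ∀ {κ : Measure (EuclideanSpace ℝ (Fin d))} {T : EuclideanSpace ℝ (Fin d) → EuclideanSpace ℝ (Fin d)},
      IsProbabilityOn Y κ → IsOptimalMap (uniformProbOn K) κ T →
      ∀ᵐ x ∂(uniformProbOn K), ‖T x‖ ≤ L := by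
    intro κ T hκ hT
    have h4 : (uniformProbOn K) (T ⁻¹' Yᶜ) = 0 := by
      rw [← Measure.map_apply hT.1 hYc.measurableSet.compl, hT.2.1, hκ.2]
    have h5 : ∀ᵐ x ∂(uniformProbOn K), x ∉ T ⁻¹' Yᶜ := measure_eq_zero_iff_ae_notMem.1 h4
    filter_upwards [h5] with x hx
    apply hL
    simpa using hx
  have mL : MemLp (fun x => Tμ x - Tν x) 2 (uniformProbOn K) :=
    memLp_two_of_bound (hTμ.1.sub hTν.1).aestronglyMeasurable (L + L) (by
      filter_upwards [bT hμ hTμ, bT hν hTν] with x h1 h2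
      exact (norm_sub_le _ _).trans (add_le_add h1 h2))
  have hint : Integrable (fun x => ‖Tμ x - Tν x‖ ^ 2) (uniformProbOn K) :=
    mL.integrable_norm_pow (by norm_num)
  have e1 : ∫⁻ x, ‖Tμ x - Tν x‖ₑ ^ 2 ∂(uniformProbOn K) =
      ENNReal.ofReal (∫ x, ‖Tμ x - Tν x‖ ^ 2 ∂(uniformProbOn K)) := by
    rw [ofReal_integral_eq_lintegral_ofReal hint (Filter.Eventually.of_forall fun x => by positivity)]
    apply lintegral_congr
    intro x
    rw [ENNReal.ofReal_pow (norm_nonneg _), ofReal_norm]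
  have e2 : (C.toNNReal : ℝ≥0∞) * quadCost π ^ (1 / 3 : ℝ) =
      ENNReal.ofReal (C * ((quadCost π).toReal) ^ (1 / 3 : ℝ)) := by
    rw [ENNReal.ofReal_mul hC0, ← ENNReal.ofReal_rpow_of_nonneg ENNReal.toReal_nonneg (by norm_num),
      ENNReal.ofReal_toReal hfin]
    rfl
  rw [e1, e2]
  exact ENNReal.ofReal_le_ofReal (hC μ ν hμ hν Tμ Tν hTμ hTν π hπ)

end main

end Crest.Agent.S0109Aux
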