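import Mathlib

/-!
# Piecewise translations permuting small balls (S0109, step A, part 2)
-/

set_option linter.unusedSectionVars false
set_option linter.unusedVariables false

open MeasureTheory Metric Set
open scoped RealInnerProductSpace ENNReal

namespace Crest.Agent.S0109Aux

variable {E : Type*} [NormedAddCommGroup E] [InnerProductSpace ℝ E] [FiniteDimensional ℝ E]
  [MeasurableSpace E] [BorelSpace E] (vol : Measure E) [vol.IsAddHaarMeasure]

section swap

variable {ι : Type*} [Fintype ι] (p : Equiv.Perm ι) (w : ι → E) (r : ℝ)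

/-- displacement of the piecewise translation. -/
noncomputable def swapDisp (x : E) : E :=
  ∑ i, (closedBall (w i) r).indicator (fun _ => w (p i) - w i) x

/-- the piecewise translation sending `closedBall (w i) r` onto `closedBall (w (p i)) r`. -/
noncomputable def swapMap (x : E) : E := x + swapDisp p w r x

lemma measurable_swapDisp : Measurable (swapDisp p w r) := by
  unfold swapDisp
  refine Finset.measurable_sum _ fun i _ => ?_
  exact measurable_const.indicator measurableSet_closedBall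

lemma measurable_swapMap : Measurable (swapMap p w r) :=
  measurable_id.add (measurable_swapDisp p w r)

variable {p w r}

lemma swapDisp_of_mem (hd : Pairwise fun i j => Disjoint (closedBall (w i) r) (closedBall (w j) r))
    {i : ι} {x : E} (hx : x ∈ closedBall (w i) r) : swapDisp p w r x = w (p i) - w i := by
  classical
  unfold swapDisp
  rw [Finset.sum_eq_single i]
  · exact indicator_of_mem hx _
  · intro j _ hj
    exact indicator_of_notMem (fun hxj => (Set.disjoint_left.1 (hd hj) hxj hx)) _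
  · intro h; exact absurd (Finset.mem_univ i) h

lemma swapDisp_of_notMem {x : E} (hx : ∀ i, x ∉ closedBall (w i) r) : swapDisp p w r x = 0 := by
  unfold swapDisp
  exact Finset.sum_eq_zero fun i _ => indicator_of_notMem (hx i) _

lemma swapMap_of_mem (hd : Pairwise fun i j => Disjoint (closedBall (w i) r) (closedBall (w j) r))
    {i : ι} {x : E} (hx : x ∈ closedBall (w i) r) : swapMap p w r x = x + (w (p i) - w i) := by
  rw [swapMap, swapDisp_of_mem hd hx]

lemma swapMap_of_notMem {x : E} (hx : ∀ i, x ∉ closedBall (w i) r) : swapMap p w r x = x := by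
  rw [swapMap, swapDisp_of_notMem hx, add_zero]

/-- splitting the volume of `C ∩ K` along the balls. -/
lemma vol_inter_split {K : Set E} (hK : MeasurableSet K)
    (hd : Pairwise fun i j => Disjoint (closedBall (w i) r) (closedBall (w j) r))
    (hsub : ∀ i, closedBall (w i) r ⊆ K) {C : Set E} (hC : MeasurableSet C) :
    vol (C ∩ K) = vol (C ∩ (K \ ⋃ i, closedBall (w i) r))
      + ∑ i, vol (C ∩ closedBall (w i) r) := by
  have hU : MeasurableSet (⋃ i, closedBall (w i) r) :=
    MeasurableSet.iUnion fun i => measurableSet_closedBall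
  have h1 : C ∩ K = (C ∩ (K \ ⋃ i, closedBall (w i) r)) ∪ ⋃ i, (C ∩ closedBall (w i) r) := by
    ext x
    simp only [mem_inter_iff, mem_union, mem_sdiff, mem_iUnion, not_exists]
    constructor
    · rintro ⟨hxC, hxK⟩
      by_cases h : ∃ i, x ∈ closedBall (w i) r
      · obtain ⟨i, hi⟩ := h
        exact Or.inr ⟨i, hxC, hi⟩
      · exact Or.inl ⟨hxC, hxK, not_exists.1 h⟩
    · rintro (⟨hxC, hxK, -⟩ | ⟨i, hxC, hi⟩)
      · exact ⟨hxC, hxK⟩
      · exact ⟨hxC, hsub i hi⟩
  rw [h1, measure_union, measure_iUnion, tsum_fintype]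
  · intro i j hij
    exact (hd hij).mono inter_subset_right inter_subset_right
  · intro i
    exact hC.inter measurableSet_closedBall
  · rw [Set.disjoint_left]
    rintro x ⟨-, -, hx⟩ hx'
    obtain ⟨i, -, hi⟩ := mem_iUnion.1 hx'
    exact hx (mem_iUnion.2 ⟨i, hi⟩)
  · exact MeasurableSet.iUnion fun i => hC.inter measurableSet_closedBall

/-- the piecewise translation preserves `vol.restrict K`. -/
lemma map_swapMap {K : Set E} (hK : MeasurableSet K)
    (hd : Pairwise fun i j => Disjoint (closedBall (w i) r) (closedBall (w j) r))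
    (hsub : ∀ i, closedBall (w i) r ⊆ K) :
    (vol.restrict K).map (swapMap p w r) = vol.restrict K := by
  ext A hA
  rw [Measure.map_apply (measurable_swapMap p w r) hA, Measure.restrict_apply hA,
    Measure.restrict_apply ((measurable_swapMap p w r) hA),
    vol_inter_split vol hK hd hsub hA,
    vol_inter_split vol hK hd hsub ((measurable_swapMap p w r) hA)]
  congr 1
  · congr 1
    ext x
    simp only [mem_inter_iff, mem_preimage, mem_sdiff, mem_iUnion, not_exists]
    constructor
    · rintro ⟨h1, h2, h3⟩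
      rw [swapMap_of_notMem h3] at h1
      exact ⟨h1, h2, h3⟩
    · rintro ⟨h1, h2, h3⟩
      rw [swapMap_of_notMem h3]
      exact ⟨h1, h2, h3⟩
  · rw [← Equiv.sum_comp p (fun i => vol (A ∩ closedBall (w i) r))]
    refine Finset.sum_congr rfl fun i _ => ?_
    have : swapMap p w r ⁻¹' A ∩ closedBall (w i) r
        = (fun x => x + (w (p i) - w i)) ⁻¹' (A ∩ closedBall (w (p i)) r) := by
      ext x
      simp only [mem_inter_iff, mem_preimage, mem_closedBall, dist_eq_norm]
      have e : x + (w (p i) - w i) - w (p i) = x - w i := by abel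
      rw [e]
      constructor
      · rintro ⟨h1, h2⟩
        rw [swapMap_of_mem hd (by simpa [dist_eq_norm] using h2)] at h1
        exact ⟨h1, h2⟩
      · rintro ⟨h1, h2⟩
        rw [swapMap_of_mem hd (by simpa [dist_eq_norm] using h2)]
        exact ⟨h1, h2⟩
    rw [this, measure_preimage_add_right]

end swap

section cost

variable {vol}
variable {m : Measure E} [IsFiniteMeasure m] {R L : ℝ}

lemma integrable_normSq_id (hm : ∀ᵐ x ∂m, ‖x‖ ≤ R) : Integrable (fun x : E => ‖x‖ ^ 2) m := by
  refine Integrable.of_bound (by fun_prop) (R ^ 2) ?_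
  filter_upwards [hm] with x hx
  rw [Real.norm_of_nonneg (by positivity)]
  exact pow_le_pow_left₀ (norm_nonneg _) hx 2

lemma integrable_normSq_map {S : E → E} (hS : Measurable S) (hSL : ∀ x, ‖S x‖ ≤ L) :
    Integrable (fun x : E => ‖S x‖ ^ 2) m := by
  refine Integrable.of_bound (by fun_prop) (L ^ 2) ?_
  filter_upwards with x
  rw [Real.norm_of_nonneg (by positivity)]
  exact pow_le_pow_left₀ (norm_nonneg _) (hSL x) 2

lemma integrable_inner_id_map (hm : ∀ᵐ x ∂m, ‖x‖ ≤ R) {S : E → E} (hS : Measurable S)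
    (hSL : ∀ x, ‖S x‖ ≤ L) : Integrable (fun x : E => ⟪x, S x⟫) m := by
  refine Integrable.of_bound (Measurable.aestronglyMeasurable (by fun_prop)) (R * L) ?_
  filter_upwards [hm] with x hx
  calc ‖⟪x, S x⟫‖ ≤ ‖x‖ * ‖S x‖ := norm_inner_le_norm _ _
    _ ≤ R * L := mul_le_mul hx (hSL x) (norm_nonneg _) ((norm_nonneg _).trans hx)

lemma integral_cost_expand (hm : ∀ᵐ x ∂m, ‖x‖ ≤ R) {S : E → E} (hS : Measurable S)
    (hSL : ∀ x, ‖S x‖ ≤ L) :
    Integrable (fun x : E => ‖x - S x‖ ^ 2) m ∧
    ∫ x, ‖x - S x‖ ^ 2 ∂m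
      = ∫ x, ‖x‖ ^ 2 ∂m - 2 * ∫ x, ⟪x, S x⟫ ∂m + ∫ x, ‖S x‖ ^ 2 ∂m := by
  have h1 := integrable_normSq_id hm
  have h2 := integrable_inner_id_map hm hS hSL
  have h3 : Integrable (fun x : E => ‖S x‖ ^ 2) m := integrable_normSq_map hS hSL
  have h12 : Integrable (fun x : E => ‖x‖ ^ 2 - 2 * ⟪x, S x⟫) m := h1.sub (h2.const_mul 2)
  have e : ∀ x : E, ‖x - S x‖ ^ 2 = ‖x‖ ^ 2 - 2 * ⟪x, S x⟫ + ‖S x‖ ^ 2 := fun x =>
    norm_sub_sq_real _ _
  simp_rw [e]
  refine ⟨h12.add h3, ?_⟩
  rw [integral_add h12 h3, integral_sub h1 (h2.const_mul 2), integral_const_mul]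

lemma lintegral_cost_eq (hm : ∀ᵐ x ∂m, ‖x‖ ≤ R) {S : E → E} (hS : Measurable S)
    (hSL : ∀ x, ‖S x‖ ≤ L) :
    ∫⁻ x, ‖x - S x‖ₑ ^ 2 ∂m = ENNReal.ofReal (∫ x, ‖x - S x‖ ^ 2 ∂m) := by
  rw [ofReal_integral_eq_lintegral_ofReal (integral_cost_expand hm hS hSL).1
    (Filter.Eventually.of_forall fun x => by positivity)]
  refine lintegral_congr fun x => ?_
  rw [ENNReal.ofReal_pow (norm_nonneg _), ofReal_norm]

/-- optimality against a measure preserving rearrangement, in real form. -/
lemma inner_comp_le (hm : ∀ᵐ x ∂m, ‖x‖ ≤ R) {T : E → E} (hT : Measurable T)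
    (hTL : ∀ x, ‖T x‖ ≤ L) {σ : E → E} (hσ : Measurable σ) (hσm : m.map σ = m)
    (h : ∫⁻ x, ‖x - T x‖ₑ ^ 2 ∂m ≤ ∫⁻ x, ‖x - T (σ x)‖ₑ ^ 2 ∂m) :
    ∫ x, ⟪x, T (σ x)⟫ ∂m ≤ ∫ x, ⟪x, T x⟫ ∂m := by
  rw [lintegral_cost_eq hm hT hTL,
    lintegral_cost_eq hm (S := fun x => T (σ x)) (hT.comp hσ) (fun x => hTL _)] at h
  have e : ∫ x, ‖T (σ x)‖ ^ 2 ∂m = ∫ x, ‖T x‖ ^ 2 ∂m := by
    conv_rhs => rw [← hσm]
    rw [integral_map hσ.aemeasurable]
    exact Measurable.aestronglyMeasurable (by fun_prop)
  rw [ENNReal.ofReal_le_ofReal_iff (integral_nonneg fun x => by positivity),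
    (integral_cost_expand hm hT hTL).2,
    (integral_cost_expand hm (S := fun x => T (σ x)) (hT.comp hσ) (fun x => hTL _)).2, e] at h
  linarith

end cost

section swapIneq

variable {ι : Type*} [Fintype ι] {p : Equiv.Perm ι} {w : ι → E} {r : ℝ}

lemma setIntegral_translate (T : E → E) (a v : E) (r : ℝ) :
    ∫ x in closedBall a r, T (x + v) ∂vol = ∫ x in closedBall (a + v) r, T x ∂vol := by
  have := (measurePreserving_add_right vol v).setIntegral_preimage_emb
    (measurableEmbedding_addRight v) T (closedBall (a + v) r)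
  rw [← this]
  congr 2
  ext x
  simp only [mem_closedBall, mem_preimage, dist_eq_norm]
  rw [add_sub_add_right_eq_sub]

lemma integral_inner_swap {K : Set E} (hK : MeasurableSet K) (hKfin : vol K ≠ ∞) {R L : ℝ}
    (hKR : ∀ x ∈ K, ‖x‖ ≤ R)
    (hd : Pairwise fun i j => Disjoint (closedBall (w i) r) (closedBall (w j) r))
    (hsub : ∀ i, closedBall (w i) r ⊆ K) {T : E → E} (hT : Measurable T)
    (hTL : ∀ x, ‖T x‖ ≤ L) :
    ∫ x in K, ⟪x, T (swapMap p w r x)⟫ ∂vol
      = ∫ x in K, ⟪x, T x⟫ ∂vol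
        - ∑ i, ⟪w (p i) - w i, ∫ x in closedBall (w (p i)) r, T x ∂vol⟫ := by
  have : IsFiniteMeasure (vol.restrict K) := ⟨by simpa using hKfin.lt_top⟩
  have hm : ∀ᵐ x ∂(vol.restrict K), ‖x‖ ≤ R :=
    (ae_restrict_iff' hK).2 (Filter.Eventually.of_forall hKR)
  have hσ := measurable_swapMap p w r
  have hσm := map_swapMap (p := p) vol hK hd hsub
  have hmp : MeasurePreserving (swapMap p w r) (vol.restrict K) (vol.restrict K) := ⟨hσ, hσm⟩
  have hF : Integrable (fun x : E => ⟪x, T x⟫) (vol.restrict K) :=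
    integrable_inner_id_map hm hT hTL
  have h1 : ∫ x in K, ⟪swapMap p w r x, T (swapMap p w r x)⟫ ∂vol = ∫ x in K, ⟪x, T x⟫ ∂vol := by
    conv_rhs => rw [← hσm]
    rw [integral_map hσ.aemeasurable]
    exact Measurable.aestronglyMeasurable (by fun_prop)
  have hF' : Integrable (fun x : E => ⟪swapMap p w r x, T (swapMap p w r x)⟫) (vol.restrict K) :=
    (hmp.integrable_comp hF.aestronglyMeasurable).2 hF
  have h2 : ∀ x : E, ⟪x, T (swapMap p w r x)⟫ = ⟪swapMap p w r x, T (swapMap p w r x)⟫
      - ∑ i, (closedBall (w i) r).indicator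
          (fun x => ⟪w (p i) - w i, T (x + (w (p i) - w i))⟫) x := by
    intro x
    have e1 : ⟪swapMap p w r x, T (swapMap p w r x)⟫
        = ⟪x, T (swapMap p w r x)⟫ + ⟪swapDisp p w r x, T (swapMap p w r x)⟫ := by
      conv_lhs => rw [swapMap]
      rw [inner_add_left]
      rfl
    have e2 : ⟪swapDisp p w r x, T (swapMap p w r x)⟫ = ∑ i, (closedBall (w i) r).indicator
          (fun x => ⟪w (p i) - w i, T (x + (w (p i) - w i))⟫) x := by
      conv_lhs => rw [swapDisp]
      rw [sum_inner]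
      refine Finset.sum_congr rfl fun i _ => ?_
      by_cases hx : x ∈ closedBall (w i) r
      · rw [indicator_of_mem hx, indicator_of_mem hx, swapMap_of_mem hd hx]
      · rw [indicator_of_notMem hx, indicator_of_notMem hx, inner_zero_left]
    rw [e1, e2]
    ring
  have hG : ∀ i, Integrable ((closedBall (w i) r).indicator
      (fun x => ⟪w (p i) - w i, T (x + (w (p i) - w i))⟫)) (vol.restrict K) := by
    intro i
    refine Integrable.of_bound (Measurable.aestronglyMeasurable
      (Measurable.indicator (by fun_prop) measurableSet_closedBall)) (‖w (p i) - w i‖ * L) ?_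
    filter_upwards with x
    by_cases hx : x ∈ closedBall (w i) r
    · rw [indicator_of_mem hx]
      exact (norm_inner_le_norm _ _).trans
        (mul_le_mul_of_nonneg_left (hTL _) (norm_nonneg _))
    · rw [indicator_of_notMem hx, norm_zero]
      exact mul_nonneg (norm_nonneg _) ((norm_nonneg _).trans (hTL 0))
  simp_rw [h2]
  rw [integral_sub hF' (integrable_finsetSum _ fun i _ => hG i), h1,
    integral_finsetSum _ fun i _ => hG i]
  congr 1
  refine Finset.sum_congr rfl fun i _ => ?_
  rw [setIntegral_indicator measurableSet_closedBall, inter_eq_right.2 (hsub i)]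
  have hTi : Integrable (fun x => T (x + (w (p i) - w i))) (vol.restrict (closedBall (w i) r)) := by
    have : IsFiniteMeasure (vol.restrict (closedBall (w i) r)) :=
      ⟨by simpa using measure_closedBall_lt_top⟩
    exact Integrable.of_bound (Measurable.aestronglyMeasurable (by fun_prop)) L
      (Filter.Eventually.of_forall fun x => hTL _)
  rw [integral_inner hTi, setIntegral_translate, add_sub_cancel]

/-- The basic inequality obtained from optimality by permuting small balls. -/
lemma swap_ineq {K : Set E} (hK : MeasurableSet K) (hKfin : vol K ≠ ∞) {R L : ℝ}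
    (hKR : ∀ x ∈ K, ‖x‖ ≤ R)
    (hd : Pairwise fun i j => Disjoint (closedBall (w i) r) (closedBall (w j) r))
    (hsub : ∀ i, closedBall (w i) r ⊆ K) {T : E → E} (hT : Measurable T)
    (hTL : ∀ x, ‖T x‖ ≤ L)
    (hopt : ∀ σ : E → E, Measurable σ → (vol.restrict K).map σ = vol.restrict K →
      ∫⁻ x in K, ‖x - T x‖ₑ ^ 2 ∂vol ≤ ∫⁻ x in K, ‖x - T (σ x)‖ₑ ^ 2 ∂vol) :
    0 ≤ ∑ i, ⟪w (p i) - w i, ∫ x in closedBall (w (p i)) r, T x ∂vol⟫ := by
  have : IsFiniteMeasure (vol.restrict K) := ⟨by simpa using hKfin.lt_top⟩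
  have hm : ∀ᵐ x ∂(vol.restrict K), ‖x‖ ≤ R :=
    (ae_restrict_iff' hK).2 (Filter.Eventually.of_forall hKR)
  have hσ := measurable_swapMap p w r
  have hσm := map_swapMap (p := p) vol hK hd hsub
  have h1 := inner_comp_le hm hT hTL hσ hσm (hopt _ hσ hσm)
  rw [integral_inner_swap vol hK hKfin hKR hd hsub hT hTL] at h1
  linarith

end swapIneq

end Crest.Agent.S0109Aux
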