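import Crest.Agent.S0109Aux.Rockafellar
import Crest.Agent.S0109Aux.Swap

/-!
# Cyclical monotonicity at Lebesgue points (S0109, step A, part 3)
-/

set_option linter.unusedSectionVars false
set_option linter.unusedVariables false

open MeasureTheory Metric Set Filter Topology
open scoped RealInnerProductSpace ENNReal

namespace Crest.Agent.S0109Aux

variable {E : Type*} [NormedAddCommGroup E] [InnerProductSpace ℝ E] [FiniteDimensional ℝ E]
  [MeasurableSpace E] [BorelSpace E] (vol : Measure E) [vol.IsAddHaarMeasure]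

/-- Lebesgue points of `T` (for off-centre balls). -/
def LebPt (T : E → E) (x : E) : Prop :=
  ∀ (k : ℕ) (w : ℝ → E) (δ : ℝ → ℝ), Tendsto δ (𝓝[>] 0) (𝓝[>] 0) →
    (∀ᶠ j in 𝓝[>] (0 : ℝ), x ∈ closedBall (w j) ((k : ℝ) * δ j)) →
    Tendsto (fun j => ⨍ y in closedBall (w j) (δ j), T y ∂vol) (𝓝[>] 0) (𝓝 (T x))

lemma ae_lebPt {T : E → E} {L : ℝ} (hT : Measurable T) (hTL : ∀ x, ‖T x‖ ≤ L) :
    ∀ᵐ x ∂vol, LebPt vol T x := by
  have hloc : LocallyIntegrable T vol := by
    refine (locallyIntegrable_const (μ := vol) L).mono hT.aestronglyMeasurable ?_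
    filter_upwards with x
    exact (hTL x).trans (le_abs_self L)
  unfold LebPt
  rw [ae_all_iff]
  intro k
  filter_upwards [IsUnifLocDoublingMeasure.ae_tendsto_average vol hloc (k : ℝ)] with x hx w δ h1 h2
  exact hx w δ h1 h2

/-- offset centres. -/
noncomputable def offC {n : ℕ} (x : Fin (n + 1) → E) (e : E) (s : ℝ) (i : Fin (n + 1)) : E :=
  x i + (3 * ((i : ℕ) : ℝ) * s) • e

lemma continuous_offC {n : ℕ} (x : Fin (n + 1) → E) (e : E) (i : Fin (n + 1)) :
    Continuous fun s => offC x e s i := by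
  unfold offC
  fun_prop

lemma offC_zero {n : ℕ} (x : Fin (n + 1) → E) (e : E) (i : Fin (n + 1)) : offC x e 0 i = x i := by
  simp [offC]

lemma tendsto_offC {n : ℕ} (x : Fin (n + 1) → E) (e : E) (i : Fin (n + 1)) :
    Tendsto (fun s => offC x e s i) (𝓝[>] 0) (𝓝 (x i)) := by
  have := (continuous_offC x e i).tendsto 0
  rw [offC_zero] at this
  exact tendsto_nhdsWithin_of_tendsto_nhds this

lemma dist_offC {n : ℕ} (x : Fin (n + 1) → E) {e : E} (he : ‖e‖ = 1) {s : ℝ} (hs : 0 ≤ s)
    (i : Fin (n + 1)) : dist (x i) (offC x e s i) = 3 * ((i : ℕ) : ℝ) * s := by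
  rw [offC, dist_eq_norm, sub_add_cancel_left, norm_neg, norm_smul, he, mul_one,
    Real.norm_of_nonneg (by positivity)]

lemma eventually_disjoint {n : ℕ} (x : Fin (n + 1) → E) {e : E} (he : ‖e‖ = 1) :
    ∀ᶠ s in 𝓝[>] (0 : ℝ), Pairwise fun i j =>
      Disjoint (closedBall (offC x e s i) s) (closedBall (offC x e s j) s) := by
  have key : ∀ i j : Fin (n + 1), i ≠ j →
      ∀ᶠ s in 𝓝[>] (0 : ℝ), s + s < dist (offC x e s i) (offC x e s j) := by
    intro i j hij
    by_cases hx : x i = x j
    · filter_upwards [self_mem_nhdsWithin] with s hs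
      have hs' : (0 : ℝ) < s := hs
      have h1 : offC x e s i - offC x e s j = ((3 * s) * (((i : ℕ) : ℝ) - ((j : ℕ) : ℝ))) • e := by
        simp only [offC, hx]
        rw [add_sub_add_left_eq_sub, ← sub_smul]
        congr 1
        ring
      rw [dist_eq_norm, h1, norm_smul, he, mul_one, Real.norm_eq_abs, abs_mul,
        abs_of_pos (by positivity : (0 : ℝ) < 3 * s)]
      have h2 : (1 : ℝ) ≤ |((i : ℕ) : ℝ) - ((j : ℕ) : ℝ)| := by
        have hne : ((i : ℕ) : ℤ) - ((j : ℕ) : ℤ) ≠ 0 := by
          intro h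
          apply hij
          apply Fin.ext
          omega
        have := Int.one_le_abs hne
        have h3 : |((i : ℕ) : ℝ) - ((j : ℕ) : ℝ)| = ((|((i : ℕ) : ℤ) - ((j : ℕ) : ℤ)| : ℤ) : ℝ) := by
          push_cast
          rfl
        rw [h3]
        exact_mod_cast this
      nlinarith
    · have h1 : Tendsto (fun s => dist (offC x e s i) (offC x e s j) - (s + s)) (𝓝[>] 0)
          (𝓝 (dist (x i) (x j) - (0 + 0))) := by
        refine ((tendsto_offC x e i).dist (tendsto_offC x e j)).sub ?_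
        have : Tendsto (fun s : ℝ => s) (𝓝[>] 0) (𝓝 0) :=
          tendsto_nhdsWithin_of_tendsto_nhds tendsto_id
        exact this.add this
      have h2 : (0 : ℝ) < dist (x i) (x j) - (0 + 0) := by
        simpa using dist_pos.2 hx
      filter_upwards [h1.eventually (lt_mem_nhds h2)] with s hs
      linarith
  have : ∀ᶠ s in 𝓝[>] (0 : ℝ), ∀ i j : Fin (n + 1), i ≠ j →
      s + s < dist (offC x e s i) (offC x e s j) := by
    rw [eventually_all]
    intro i
    rw [eventually_all]
    intro j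
    by_cases hij : i = j
    · exact Eventually.of_forall fun s h => absurd hij h
    · filter_upwards [key i j hij] with s hs _ using hs
  filter_upwards [this] with s hs i j hij
  exact closedBall_disjoint_closedBall (hs i j hij)

lemma eventually_subset {n : ℕ} (x : Fin (n + 1) → E) (e : E) {K : Set E}
    (hx : ∀ i, x i ∈ interior K) :
    ∀ᶠ s in 𝓝[>] (0 : ℝ), ∀ i, closedBall (offC x e s i) s ⊆ K := by
  rw [eventually_all]
  intro i
  obtain ⟨ε, hε, hball⟩ := Metric.mem_nhds_iff.1 (mem_interior_iff_mem_nhds.1 (hx i))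
  have h1 : Tendsto (fun s => s + dist (offC x e s i) (x i)) (𝓝[>] 0) (𝓝 (0 + dist (x i) (x i))) := by
    have : Tendsto (fun s : ℝ => s) (𝓝[>] 0) (𝓝 0) :=
      tendsto_nhdsWithin_of_tendsto_nhds tendsto_id
    exact this.add ((tendsto_offC x e i).dist tendsto_const_nhds)
  have h2 : 0 + dist (x i) (x i) < ε := by simpa using hε
  filter_upwards [h1.eventually (gt_mem_nhds h2)] with s hs
  exact (closedBall_subset_ball' hs).trans hball

/-- **Cyclical monotonicity** of an optimal (bounded) map on its Lebesgue points inside `K`. -/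
theorem cycMon_lebPt [Nontrivial E] {K : Set E} (hK : MeasurableSet K) (hKfin : vol K ≠ ∞)
    {R L : ℝ} (hKR : ∀ x ∈ K, ‖x‖ ≤ R) {T : E → E} (hT : Measurable T) (hTL : ∀ x, ‖T x‖ ≤ L)
    (hopt : ∀ σ : E → E, Measurable σ → (vol.restrict K).map σ = vol.restrict K →
      ∫⁻ x in K, ‖x - T x‖ₑ ^ 2 ∂vol ≤ ∫⁻ x in K, ‖x - T (σ x)‖ₑ ^ 2 ∂vol) :
    CycMon {x | x ∈ interior K ∧ LebPt vol T x} T := by
  intro n x hx
  obtain ⟨e, he⟩ := exists_norm_eq E zero_le_one
  -- the inequality for small radii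
  have hev : ∀ᶠ s in 𝓝[>] (0 : ℝ), 0 ≤ ∑ j, ⟪offC x e s j - offC x e s (j + 1),
      ⨍ y in closedBall (offC x e s j) s, T y ∂vol⟫ := by
    filter_upwards [eventually_disjoint x he, eventually_subset x e (fun i => (hx i).1),
      self_mem_nhdsWithin] with s hd hsub hs
    have hs' : (0 : ℝ) < s := hs
    have h1 := swap_ineq (p := Equiv.subRight (1 : Fin (n + 1))) vol hK hKfin hKR hd hsub hT hTL hopt
    have h2 : ∑ i, ⟪offC x e s ((Equiv.subRight (1 : Fin (n + 1))) i) - offC x e s i,
        ∫ y in closedBall (offC x e s ((Equiv.subRight (1 : Fin (n + 1))) i)) s, T y ∂vol⟫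
        = ∑ j, ⟪offC x e s j - offC x e s (j + 1),
          ∫ y in closedBall (offC x e s j) s, T y ∂vol⟫ := by
      rw [← Equiv.sum_comp (Equiv.subRight (1 : Fin (n + 1)))
        (fun j => ⟪offC x e s j - offC x e s (j + 1),
          ∫ y in closedBall (offC x e s j) s, T y ∂vol⟫)]
      refine Finset.sum_congr rfl fun i _ => ?_
      simp only [Equiv.subRight_apply, sub_add_cancel]
    rw [h2] at h1
    set c : ℝ := vol.real (closedBall (0 : E) s) with hc
    have hcpos : 0 < c := by
      rw [hc, measureReal_def]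
      exact ENNReal.toReal_pos (measure_closedBall_pos vol _ hs').ne'
        measure_closedBall_lt_top.ne
    have h3 : ∀ j, ∫ y in closedBall (offC x e s j) s, T y ∂vol
        = c • ⨍ y in closedBall (offC x e s j) s, T y ∂vol := by
      intro j
      rw [← measure_smul_setAverage T measure_closedBall_lt_top.ne, hc, measureReal_def,
        measureReal_def, Measure.addHaar_closedBall_center]
    simp_rw [h3, inner_smul_right, ← Finset.mul_sum] at h1
    exact nonneg_of_mul_nonneg_right h1 hcpos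
  -- the limit
  have hlim : Tendsto (fun s => ∑ j, ⟪offC x e s j - offC x e s (j + 1),
      ⨍ y in closedBall (offC x e s j) s, T y ∂vol⟫) (𝓝[>] 0)
      (𝓝 (∑ j, ⟪x j - x (j + 1), T (x j)⟫)) := by
    refine tendsto_finsetSum _ fun j _ => ?_
    refine Tendsto.inner ((tendsto_offC x e j).sub (tendsto_offC x e (j + 1))) ?_
    refine (hx j).2 (3 * (n + 1)) (fun s => offC x e s j) (fun s => s) tendsto_id ?_
    filter_upwards [self_mem_nhdsWithin] with s hs
    have hs' : (0 : ℝ) < s := hs
    rw [mem_closedBall, dist_offC x he hs'.le]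
    have : ((j : ℕ) : ℝ) ≤ (n : ℝ) + 1 := by
      have := j.2
      exact_mod_cast this.le
    push_cast
    nlinarith
  have hfin := ge_of_tendsto hlim hev
  have : ∑ i, ⟪T (x i), x (i + 1) - x i⟫ = - ∑ j, ⟪x j - x (j + 1), T (x j)⟫ := by
    rw [← Finset.sum_neg_distrib]
    refine Finset.sum_congr rfl fun i _ => ?_
    rw [real_inner_comm, ← inner_neg_left, neg_sub]
  rw [this]
  linarith

end Crest.Agent.S0109Aux
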