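import Crest.Prelude.Def_QuadraticTransport
import Crest.Agent.S0109Aux.CycMonLeb

/-!
# Monge-optimal maps have convex Lipschitz potentials (S0109, step A)
-/

set_option linter.unusedSectionVars false
set_option linter.unusedVariables false

open MeasureTheory Metric Set Filter Topology
open scoped RealInnerProductSpace ENNReal
open Crest.AnalysisR.OT

namespace Crest.Agent.S0109Aux

/-- **Step A.** A quadratic Monge-optimal map from the uniform measure on a convex body to a
measure carried by `closedBall 0 L` lies a.e. in the subdifferential of a convex `L`-Lipschitz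
function. -/
theorem exists_potential (d : ℕ) (hd : 0 < d) (K : Set (EuclideanSpace ℝ (Fin d)))
    (hKc : IsCompact K) (hKv : Convex ℝ K) (hKi : (interior K).Nonempty) (L : ℝ) (hL : 0 ≤ L)
    (μ : Measure (EuclideanSpace ℝ (Fin d))) (hμL : μ (closedBall 0 L)ᶜ = 0)
    (T : EuclideanSpace ℝ (Fin d) → EuclideanSpace ℝ (Fin d))
    (hT : IsOptimalMap (uniformProbOn K) μ T) :
    ∃ g : EuclideanSpace ℝ (Fin d) → ℝ, ConvexOn ℝ Set.univ g ∧ LipschitzWith L.toNNReal g ∧
      ∀ᵐ x ∂(uniformProbOn K), ∀ x', g x + ⟪T x, x' - x⟫ ≤ g x' := by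
  classical
  have : Nonempty (Fin d) := ⟨⟨0, hd⟩⟩
  obtain ⟨hTm, hTμ, hTopt⟩ := hT
  have hKm : MeasurableSet K := hKc.measurableSet
  have hKfin : volume K ≠ ∞ := hKc.measure_lt_top.ne
  have hKpos : volume K ≠ 0 :=
    ((isOpen_interior.measure_pos volume hKi).trans_le (measure_mono interior_subset)).ne'
  obtain ⟨R, hR⟩ := hKc.isBounded.exists_norm_le
  set c : ℝ≥0∞ := (volume K)⁻¹ with hc
  have hc0 : c ≠ 0 := ENNReal.inv_ne_zero.2 hKfin
  have hcinf : c ≠ ∞ := ENNReal.inv_ne_top.2 hKpos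
  have hρ : uniformProbOn K = c • volume.restrict K := rfl
  have hac : ∀ {P : EuclideanSpace ℝ (Fin d) → Prop}, (∀ᵐ x ∂(volume.restrict K), P x) →
      ∀ᵐ x ∂(uniformProbOn K), P x := by
    intro P hP
    rw [hρ]
    exact Measure.ae_smul_measure hP c
  -- the bounded modification
  set G : Set (EuclideanSpace ℝ (Fin d)) := {x | ‖T x‖ ≤ L} with hG
  have hGm : MeasurableSet G := measurableSet_le hTm.norm measurable_const
  set T' : EuclideanSpace ℝ (Fin d) → EuclideanSpace ℝ (Fin d) := G.indicator T with hT'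
  have hT'm : Measurable T' := hTm.indicator hGm
  have hT'L : ∀ x, ‖T' x‖ ≤ L := by
    intro x
    by_cases hx : x ∈ G
    · rw [hT', indicator_of_mem hx]; exact hx
    · rw [hT', indicator_of_notMem hx, norm_zero]; exact hL
  have hae : ∀ᵐ x ∂(uniformProbOn K), T' x = T x := by
    have h1 : (uniformProbOn K) (T ⁻¹' (closedBall 0 L)ᶜ) = 0 := by
      rw [← Measure.map_apply hTm measurableSet_closedBall.compl, hTμ, hμL]
    have h2 : ∀ᵐ x ∂(uniformProbOn K), x ∉ T ⁻¹' (closedBall 0 L)ᶜ := measure_eq_zero_iff_ae_notMem.1 h1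
    filter_upwards [h2] with x hx
    have : x ∈ G := by
      simpa [hG] using hx
    rw [hT', indicator_of_mem this]
  -- optimality against rearrangements
  have hopt : ∀ σ : EuclideanSpace ℝ (Fin d) → EuclideanSpace ℝ (Fin d), Measurable σ →
      (volume.restrict K).map σ = volume.restrict K →
      ∫⁻ x in K, ‖x - T' x‖ₑ ^ 2 ≤ ∫⁻ x in K, ‖x - T' (σ x)‖ₑ ^ 2 := by
    intro σ hσ hσm
    have hσρ : (uniformProbOn K).map σ = uniformProbOn K := by
      rw [hρ, Measure.map_smul, hσm]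
    have hS : (uniformProbOn K).map (fun x => T' (σ x)) = μ := by
      have : (fun x => T' (σ x)) = T' ∘ σ := rfl
      rw [this, ← Measure.map_map hT'm hσ, hσρ, Measure.map_congr hae, hTμ]
    have h1 := hTopt _ (hT'm.comp hσ) hS
    have h2 : ∫⁻ x, ‖x - T x‖ₑ ^ 2 ∂(uniformProbOn K) = ∫⁻ x, ‖x - T' x‖ₑ ^ 2 ∂(uniformProbOn K) := by
      refine lintegral_congr_ae ?_
      filter_upwards [hae] with x hx
      rw [hx]
    rw [h2, hρ, lintegral_smul_measure, lintegral_smul_measure, smul_eq_mul, smul_eq_mul] at h1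
    exact (ENNReal.mul_le_mul_iff_right hc0 hcinf).1 h1
  have hcyc := cycMon_lebPt volume hKm hKfin hR hT'm hT'L hopt
  set N : Set (EuclideanSpace ℝ (Fin d)) := {x | x ∈ interior K ∧ LebPt volume T' x} with hN
  have hNae : ∀ᵐ x ∂(uniformProbOn K), x ∈ N := by
    apply hac
    have h1 : ∀ᵐ x ∂(volume.restrict K), LebPt volume T' x :=
      ae_restrict_of_ae (ae_lebPt volume hT'm hT'L)
    have h2 : ∀ᵐ x ∂(volume.restrict K), x ∈ interior K := by
      rw [ae_restrict_iff' hKm]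
      have h3 : volume (frontier K) = 0 := hKv.addHaar_frontier volume
      have h4 : ∀ᵐ x ∂(volume : Measure (EuclideanSpace ℝ (Fin d))), x ∉ frontier K :=
        measure_eq_zero_iff_ae_notMem.1 h3
      filter_upwards [h4] with x hx hxK
      by_contra hxi
      exact hx ⟨subset_closure hxK, hxi⟩
    filter_upwards [h1, h2] with x hx1 hx2 using ⟨hx2, hx1⟩
  have hne : (uniformProbOn K) ≠ 0 := by
    intro h0
    have h1 : (uniformProbOn K) K = 0 := by rw [h0]; rfl
    rw [hρ, Measure.smul_apply, Measure.restrict_apply hKm, inter_self, smul_eq_mul] at h1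
    rcases mul_eq_zero.1 h1 with h | h
    · exact hc0 h
    · exact hKpos h
  have : (ae (uniformProbOn K)).NeBot := ae_neBot.2 hne
  have hNne : N.Nonempty := hNae.exists
  obtain ⟨g, hg1, hg2, hg3⟩ := exists_potential_of_cycMon hcyc hL (fun x _ => hT'L x) hNne
  refine ⟨g, hg1, hg2, ?_⟩
  filter_upwards [hNae, hae] with x hxN hx x'
  rw [← hx]
  exact hg3 x hxN x'

/-- Variant of `exists_potential` for targets carried by a set `Y ⊆ closedBall 0 L`
(`Y` measurable, e.g. compact); also records `T x ∈ Y` a.e. -/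
theorem exists_potential_on (d : ℕ) (hd : 0 < d) (K : Set (EuclideanSpace ℝ (Fin d)))
    (hKc : IsCompact K) (hKv : Convex ℝ K) (hKi : (interior K).Nonempty)
    (Y : Set (EuclideanSpace ℝ (Fin d))) (hYm : MeasurableSet Y) (L : ℝ) (hL : 0 ≤ L)
    (hYL : ∀ y ∈ Y, ‖y‖ ≤ L)
    (μ : Measure (EuclideanSpace ℝ (Fin d))) (hμ : IsProbabilityOn Y μ)
    (T : EuclideanSpace ℝ (Fin d) → EuclideanSpace ℝ (Fin d))
    (hT : IsOptimalMap (uniformProbOn K) μ T) :
    ∃ g : EuclideanSpace ℝ (Fin d) → ℝ, ConvexOn ℝ Set.univ g ∧ LipschitzWith L.toNNReal g ∧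
      ∀ᵐ x ∂(uniformProbOn K), T x ∈ Y ∧ ∀ x', g x + ⟪T x, x' - x⟫ ≤ g x' := by
  have hμL : μ (closedBall 0 L)ᶜ = 0 := by
    refine measure_mono_null ?_ hμ.2
    intro y hy hyY
    exact hy (by simpa using hYL y hyY)
  obtain ⟨g, h1, h2, h3⟩ := exists_potential d hd K hKc hKv hKi L hL μ hμL T hT
  refine ⟨g, h1, h2, ?_⟩
  have h4 : (uniformProbOn K) (T ⁻¹' Yᶜ) = 0 := by
    rw [← Measure.map_apply hT.1 hYm.compl, hT.2.1, hμ.2]
  have h5 : ∀ᵐ x ∂(uniformProbOn K), x ∉ T ⁻¹' Yᶜ := measure_eq_zero_iff_ae_notMem.1 h4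
  filter_upwards [h3, h5] with x hx hxY
  exact ⟨by simpa using hxY, hx⟩

end Crest.Agent.S0109Aux
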