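import Mathlib

/-!
# Rockafellar's theorem (S0109, step A, part 1)

A map `T` which is cyclically monotone and bounded by `L` on a nonempty set `N` admits a convex
`L`-Lipschitz potential `g` with `T x ∈ ∂ g (x)` for all `x ∈ N`.
-/

open scoped RealInnerProductSpace

namespace Crest.Agent.S0109Aux

variable {E : Type*} [NormedAddCommGroup E] [InnerProductSpace ℝ E]

/-- Cyclical monotonicity of `T` on `N`. -/
def CycMon (N : Set E) (T : E → E) : Prop :=
  ∀ (n : ℕ) (x : Fin (n + 1) → E), (∀ i, x i ∈ N) →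
    ∑ i, ⟪T (x i), x (i + 1) - x i⟫ ≤ 0

/-- Value at `x'` of the affine function attached to a chain `x 0, …, x n`. -/
noncomputable def chainVal (T : E → E) (n : ℕ) (x : Fin (n + 1) → E) (x' : E) : ℝ :=
  ∑ i : Fin n, ⟪T (x i.castSucc), x i.succ - x i.castSucc⟫
    + ⟪T (x (Fin.last n)), x' - x (Fin.last n)⟫

/-- Chains in `N` starting at `x₀`. -/
def Chain (N : Set E) (x₀ : E) : Type _ :=
  Σ n : ℕ, {x : Fin (n + 1) → E // x 0 = x₀ ∧ ∀ i, x i ∈ N}

/-- The Rockafellar potential. -/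
noncomputable def rockPot (N : Set E) (T : E → E) (x₀ : E) (x' : E) : ℝ :=
  ⨆ p : Chain N x₀, chainVal T p.1 p.2.1 x'

lemma chainVal_closed (T : E → E) (n : ℕ) (x : Fin (n + 1) → E) :
    chainVal T n x (x 0) = ∑ i, ⟪T (x i), x (i + 1) - x i⟫ := by
  rw [Fin.sum_univ_castSucc, chainVal]
  congr 1
  · refine Finset.sum_congr rfl fun i _ => ?_
    rw [Fin.coeSucc_eq_succ]
  · rw [Fin.last_add_one]

lemma chainVal_sub (T : E → E) (n : ℕ) (x : Fin (n + 1) → E) (a b : E) :
    chainVal T n x a - chainVal T n x b = ⟪T (x (Fin.last n)), a - b⟫ := by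
  simp only [chainVal]
  rw [add_sub_add_left_eq_sub, ← inner_sub_right]
  congr 1
  abel

lemma chainVal_snoc (T : E → E) (n : ℕ) (x : Fin (n + 1) → E) (a b : E) :
    chainVal T (n + 1) (Fin.snoc x a : Fin (n + 2) → E) b = chainVal T n x a + ⟪T a, b - a⟫ := by
  simp only [chainVal]
  rw [Fin.sum_univ_castSucc]
  have h1 : ∀ i : Fin n, (Fin.snoc x a : Fin (n + 2) → E) i.castSucc.castSucc = x i.castSucc := by
    intro i
    exact Fin.snoc_castSucc (α := fun _ => E) a x i.castSucc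
  have h2 : ∀ i : Fin n, (Fin.snoc x a : Fin (n + 2) → E) i.castSucc.succ = x i.succ := by
    intro i
    rw [← Fin.castSucc_succ]
    exact Fin.snoc_castSucc (α := fun _ => E) a x i.succ
  have h3 : (Fin.snoc x a : Fin (n + 2) → E) (Fin.last n).castSucc = x (Fin.last n) :=
    Fin.snoc_castSucc (α := fun _ => E) a x (Fin.last n)
  have h4 : (Fin.snoc x a : Fin (n + 2) → E) (Fin.last n).succ = a := by
    rw [Fin.succ_last]
    exact Fin.snoc_last (α := fun _ => E) a x
  have h5 : (Fin.snoc x a : Fin (n + 2) → E) (Fin.last (n + 1)) = a :=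
    Fin.snoc_last (α := fun _ => E) a x
  simp only [h1, h2, h3, h4, h5]

variable {N : Set E} {T : E → E} {L : ℝ} {x₀ : E}

lemma chainVal_le (hT : CycMon N T) (hL : ∀ x ∈ N, ‖T x‖ ≤ L) (p : Chain N x₀) (x' : E) :
    chainVal T p.1 p.2.1 x' ≤ L * ‖x' - x₀‖ := by
  obtain ⟨n, x, hx0, hxN⟩ := p
  have h0 : chainVal T n x x₀ ≤ 0 := by
    rw [← hx0, chainVal_closed]
    exact hT n x hxN
  have h1 := chainVal_sub T n x x' x₀
  have h2 : ⟪T (x (Fin.last n)), x' - x₀⟫ ≤ L * ‖x' - x₀‖ :=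
    (real_inner_le_norm _ _).trans (mul_le_mul_of_nonneg_right (hL _ (hxN _)) (norm_nonneg _))
  show chainVal T n x x' ≤ _
  linarith

lemma bddAbove_chainVal (hT : CycMon N T) (hL : ∀ x ∈ N, ‖T x‖ ≤ L) (x' : E) :
    BddAbove (Set.range fun p : Chain N x₀ => chainVal T p.1 p.2.1 x') := by
  refine ⟨L * ‖x' - x₀‖, ?_⟩
  rintro _ ⟨p, rfl⟩
  exact chainVal_le hT hL p x'

lemma chain_nonempty (hx₀ : x₀ ∈ N) : Nonempty (Chain N x₀) :=
  ⟨⟨0, fun _ => x₀, rfl, fun _ => hx₀⟩⟩

/-- **Rockafellar**: cyclically monotone bounded maps have convex Lipschitz potentials. -/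
theorem exists_potential_of_cycMon (hT : CycMon N T) (hL0 : 0 ≤ L) (hL : ∀ x ∈ N, ‖T x‖ ≤ L)
    (hN : N.Nonempty) :
    ∃ g : E → ℝ, ConvexOn ℝ Set.univ g ∧ LipschitzWith L.toNNReal g ∧
      ∀ x ∈ N, ∀ x', g x + ⟪T x, x' - x⟫ ≤ g x' := by
  obtain ⟨x₀, hx₀⟩ := hN
  have : Nonempty (Chain N x₀) := chain_nonempty hx₀
  refine ⟨rockPot N T x₀, ?_, ?_, ?_⟩
  · refine ⟨convex_univ, fun a _ b _ s t hs ht hst => ?_⟩
    refine ciSup_le fun p => ?_
    have ha : chainVal T p.1 p.2.1 a ≤ rockPot N T x₀ a :=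
      le_ciSup (bddAbove_chainVal hT hL a) p
    have hb : chainVal T p.1 p.2.1 b ≤ rockPot N T x₀ b :=
      le_ciSup (bddAbove_chainVal hT hL b) p
    have key : chainVal T p.1 p.2.1 (s • a + t • b)
        = s * chainVal T p.1 p.2.1 a + t * chainVal T p.1 p.2.1 b := by
      have h1 := chainVal_sub T p.1 p.2.1 (s • a + t • b) a
      have h2 := chainVal_sub T p.1 p.2.1 b a
      have h3 : s • a + t • b - a = t • (b - a) := by
        have : s = 1 - t := by linarith
        subst this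
        simp only [sub_smul, one_smul, smul_sub]
        abel
      rw [h3, inner_smul_right, ← h2] at h1
      have : s = 1 - t := by linarith
      subst this
      linarith
    rw [key]
    simp only [smul_eq_mul]
    exact add_le_add (mul_le_mul_of_nonneg_left ha hs) (mul_le_mul_of_nonneg_left hb ht)
  · refine LipschitzWith.of_le_add_mul _ fun a b => ?_
    refine ciSup_le fun p => ?_
    have hb : chainVal T p.1 p.2.1 b ≤ rockPot N T x₀ b :=
      le_ciSup (bddAbove_chainVal hT hL b) p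
    have h1 := chainVal_sub T p.1 p.2.1 a b
    have h2 : ⟪T (p.2.1 (Fin.last p.1)), a - b⟫ ≤ L * ‖a - b‖ :=
      (real_inner_le_norm _ _).trans
        (mul_le_mul_of_nonneg_right (hL _ (p.2.2.2 _)) (norm_nonneg _))
    rw [Real.coe_toNNReal _ hL0, dist_eq_norm]
    linarith
  · intro x hx x'
    have : rockPot N T x₀ x ≤ rockPot N T x₀ x' - ⟪T x, x' - x⟫ := by
      refine ciSup_le fun p => ?_
      obtain ⟨n, y, hy0, hyN⟩ := p
      let q : Chain N x₀ := ⟨n + 1, (Fin.snoc y x : Fin (n + 2) → E), by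
        have : (0 : Fin (n + 2)) = (0 : Fin (n + 1)).castSucc := rfl
        rw [this]
        exact (Fin.snoc_castSucc (α := fun _ => E) x y 0).trans hy0, by
        intro i
        refine Fin.lastCases ?_ (fun j => ?_) i
        · rw [Fin.snoc_last (α := fun _ => E)]; exact hx
        · rw [Fin.snoc_castSucc (α := fun _ => E)]; exact hyN j⟩
      have hq : chainVal T q.1 q.2.1 x' ≤ rockPot N T x₀ x' :=
        le_ciSup (bddAbove_chainVal hT hL x') q
      have := chainVal_snoc T n y x x'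
      show chainVal T n y x ≤ _
      have hq' : chainVal T (n + 1) (Fin.snoc y x : Fin (n + 2) → E) x' ≤ rockPot N T x₀ x' := hq
      linarith
    linarith

end Crest.Agent.S0109Aux
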