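import Crest.Agent.S0109Aux.SemiDiscrete

/-!
# S0109, step D3a: the statements of `SemiDiscrete.lean` in the shapes requested by D3b
-/

set_option autoImplicit false
open MeasureTheory Set Filter Topology
open scoped ENNReal NNReal RealInnerProductSpace
open Crest.AnalysisR.OT

namespace Crest.Agent.S0109Aux

variable {d : ℕ} {ι : Type*} [Fintype ι] [Nonempty ι] {K : Set (EuclideanSpace ℝ (Fin d))}

theorem exists_weights_cell (hKc : IsCompact K) (_hKv : Convex ℝ K) (hKi : (interior K).Nonempty)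
    {y : ι → EuclideanSpace ℝ (Fin d)} (hy : Function.Injective y) (m : ι → ℝ)
    (hm : ∀ i, 0 < m i) (hsum : ∑ i, m i = 1) : ∃ ψ : ι → ℝ, ∀ i, cellMass K y ψ i = m i :=
  exists_weights hKc hKi hy m hm hsum

theorem weights_continuity_sd (hKc : IsCompact K) (hKv : Convex ℝ K) (hKi : (interior K).Nonempty)
    {z : ι → EuclideanSpace ℝ (Fin d)} (hz : Function.Injective z) (ψ : ι → ℝ)
    (hpos : ∀ i, 0 < cellMass K z ψ i) (n : ι → ℝ) (hn : ∑ i, n i = 0) (ε : ℝ) (hε : 0 < ε) :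
    ∃ δ > 0, ∀ ψ' : ι → ℝ, (∀ i, |cellMass K z ψ' i - cellMass K z ψ i| ≤ δ) →
      |∑ i, n i * ψ' i - ∑ i, n i * ψ i| ≤ ε := by
  set M : (ι → ℝ) → (ι → ℝ) := fun ψ' i => cellMass K z ψ' i with hM
  set l : Filter (ι → ℝ) := comap M (𝓝 (M ψ)) with hl
  have hlim : ∀ i, Tendsto (fun a : ι → ℝ => cellMass K z (id a) i) l (𝓝 (cellMass K z ψ i)) := by
    intro i
    exact ((continuous_apply i).tendsto (M ψ)).comp tendsto_comap
  have ht := weights_tendsto_sum hKc hKv hKi hz (fun a : ι → ℝ => a) ψ hpos hlim n hn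
  have hev : ∀ᶠ a in l, |∑ i, n i * a i - ∑ i, n i * ψ i| < ε := by
    have := (Metric.tendsto_nhds.1 ht) ε hε
    simpa [Real.dist_eq] using this
  rw [hl, eventually_comap] at hev
  obtain ⟨δ', hδ', hball⟩ := Metric.eventually_nhds_iff.1 hev
  refine ⟨δ' / 2, by positivity, fun ψ' hψ' => ?_⟩
  have hdist : dist (M ψ') (M ψ) < δ' := by
    have : dist (M ψ') (M ψ) ≤ δ' / 2 := by
      rw [dist_pi_le_iff (by positivity)]
      intro i
      rw [Real.dist_eq]
      exact hψ' i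
    linarith
  exact (hball hdist ψ' rfl).le

end Crest.Agent.S0109Aux
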