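import Mathlib
import Crest.Prelude.Def_QuadraticTransport
import Crest.Agent.S0109Aux.Cells

/-!
# S0109, step D3c: continuity of the weights of a semi-discrete transport problem (helper10)

If all the Laguerre cells of `ψ` have positive mass and the cell masses of `ψ'` are close to those
of `ψ`, then `ψ' - ψ` is almost constant.  Direct proof, without compactness or uniqueness.
-/

set_option autoImplicit false
open MeasureTheory Set
open scoped ENNReal NNReal RealInnerProductSpace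
open Crest.AnalysisR.OT

namespace Crest.Agent.S0109Aux

section comb

variable {ι : Type*} [Fintype ι]

/-- A finite family of reals without gaps of size `g` has oscillation at most `N g`. -/
lemma osc_le_of_no_gap (η : ι → ℝ) (g : ℝ) (hg : 0 < g)
    (hno : ∀ s : ℝ, (∃ j, η j ≤ s) → (∃ i, s < η i) → ∃ i, s < η i ∧ η i < s + g) (i j : ι) :
    η i - η j ≤ Fintype.card ι * g := by
  classical
  set A : ℕ → Finset ι := fun k => Finset.univ.filter (fun i => η i ≤ η j + k * g) with hA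
  have hmono : ∀ k, A k ⊆ A (k + 1) := by
    intro k x hx
    simp only [hA, Finset.mem_filter, Finset.mem_univ, true_and] at hx ⊢
    push_cast
    nlinarith
  have key : ∀ k : ℕ, k + 1 ≤ (A k).card ∨ A k = Finset.univ := by
    intro k
    induction k with
    | zero =>
      left
      have : j ∈ A 0 := by simp [hA]
      exact Finset.card_pos.mpr ⟨j, this⟩
    | succ k ih =>
      by_cases hfull : A k = Finset.univ
      · right
        apply Finset.eq_univ_of_forall
        intro x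
        exact hmono k (by rw [hfull]; exact Finset.mem_univ x)
      · rcases ih with ih | ih
        · left
          obtain ⟨x, hx⟩ : ∃ x, x ∉ A k := by
            by_contra hcon
            push Not at hcon
            exact hfull (Finset.eq_univ_of_forall hcon)
          simp only [hA, Finset.mem_filter, Finset.mem_univ, true_and, not_le] at hx
          obtain ⟨x', hx'1, hx'2⟩ := hno (η j + k * g) ⟨j, by nlinarith [Nat.cast_nonneg (α := ℝ) k]⟩
            ⟨x, hx⟩
          have h1 : x' ∉ A k := by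
            simp only [hA, Finset.mem_filter, Finset.mem_univ, true_and, not_le]
            exact hx'1
          have h2 : x' ∈ A (k + 1) := by
            simp only [hA, Finset.mem_filter, Finset.mem_univ, true_and]
            push_cast
            nlinarith
          have h3 : A k ⊂ A (k + 1) := by
            refine ⟨hmono k, fun hsub => h1 (hsub h2)⟩
          have := Finset.card_lt_card h3
          omega
        · exact absurd ih hfull
  have hN : A (Fintype.card ι) = Finset.univ := by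
    rcases key (Fintype.card ι) with h | h
    · have := Finset.card_le_univ (A (Fintype.card ι))
      omega
    · exact h
  have : i ∈ A (Fintype.card ι) := by rw [hN]; exact Finset.mem_univ i
  simp only [hA, Finset.mem_filter, Finset.mem_univ, true_and] at this
  linarith

end comb

section geom

variable {d : ℕ} {ι : Type*} {K : Set (EuclideanSpace ℝ (Fin d))}
  {z : ι → EuclideanSpace ℝ (Fin d)} {ψ ψ' : ι → ℝ} {I J : Finset ι}

/-- `max_{i ∈ I} (⟪x, z i⟫ - ψ i)` -/
noncomputable def maxAff (z : ι → EuclideanSpace ℝ (Fin d)) (ψ : ι → ℝ) (I : Finset ι)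
    (hI : I.Nonempty) (x : EuclideanSpace ℝ (Fin d)) : ℝ :=
  I.sup' hI (fun i => ⟪x, z i⟫ - ψ i)

lemma continuous_maxAff (hI : I.Nonempty) : Continuous (maxAff z ψ I hI) :=
  Continuous.finset_sup'_apply hI (fun i _ => by fun_prop)

lemma le_maxAff (hI : I.Nonempty) {i : ι} (hi : i ∈ I) (x : EuclideanSpace ℝ (Fin d)) :
    ⟪x, z i⟫ - ψ i ≤ maxAff z ψ I hI x :=
  Finset.le_sup' (fun i => ⟪x, z i⟫ - ψ i) hi

lemma exists_eq_maxAff (hI : I.Nonempty) (x : EuclideanSpace ℝ (Fin d)) :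
    ∃ i ∈ I, maxAff z ψ I hI x = ⟪x, z i⟫ - ψ i :=
  Finset.exists_mem_eq_sup' hI _

/-- Cells of `ψ'` with index in `I` lie in `{Δ ≥ g}`. -/
lemma le_gap_of_mem_cell (hI : I.Nonempty) (hJ : J.Nonempty) {g : ℝ}
    (hgap : ∀ i ∈ I, ∀ j ∈ J, g ≤ (ψ' i - ψ i) - (ψ' j - ψ j)) {i : ι} (hi : i ∈ I)
    {x : EuclideanSpace ℝ (Fin d)} (hx : x ∈ cell K z ψ' i) :
    g ≤ maxAff z ψ I hI x - maxAff z ψ J hJ x := by
  obtain ⟨j, hj, hjeq⟩ := exists_eq_maxAff (z := z) (ψ := ψ) hJ x
  have h1 := le_maxAff (z := z) (ψ := ψ) hI hi x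
  have h2 := hx.2 j
  have h3 := hgap i hi j hj
  rw [hjeq]
  linarith

/-- `{Δ > 0}` is covered by the cells of `ψ` with index in `I`. -/
lemma exists_mem_cell_of_gap_pos (hI : I.Nonempty) (hJ : J.Nonempty) (hIJ : ∀ j, j ∈ I ∨ j ∈ J)
    {x : EuclideanSpace ℝ (Fin d)} (hxK : x ∈ K)
    (hx : 0 < maxAff z ψ I hI x - maxAff z ψ J hJ x) : ∃ i ∈ I, x ∈ cell K z ψ i := by
  obtain ⟨i, hi, hieq⟩ := exists_eq_maxAff (z := z) (ψ := ψ) hI x
  refine ⟨i, hi, hxK, fun j => ?_⟩
  rcases hIJ j with hj | hj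
  · rw [← hieq]; exact le_maxAff hI hj x
  · have := le_maxAff (z := z) (ψ := ψ) hJ hj x
    rw [← hieq]; linarith

/-- A cell of positive mass contains a point which lies in no other cell. -/
lemma exists_mem_cell_only [Countable ι] (hz : Function.Injective z) {i : ι}
    (hpos : 0 < cellMass K z ψ i) :
    ∃ x ∈ cell K z ψ i, ∀ j, j ≠ i → x ∉ cell K z ψ j := by
  by_contra hcon
  push Not at hcon
  have hsub : cell K z ψ i ⊆ ⋃ j, ⋃ (_ : j ≠ i), cell K z ψ i ∩ cell K z ψ j := by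
    intro x hx
    obtain ⟨j, hj, hxj⟩ := hcon x hx
    exact mem_iUnion.2 ⟨j, mem_iUnion.2 ⟨hj, hx, hxj⟩⟩
  have hnull : uniformProbOn K (⋃ j, ⋃ (_ : j ≠ i), cell K z ψ i ∩ cell K z ψ j) = 0 := by
    apply measure_iUnion_null
    intro j
    apply measure_iUnion_null
    intro hj
    exact aedisjoint_cell hz (Ne.symm hj)
  have h0 : uniformProbOn K (cell K z ψ i) = 0 := measure_mono_null hsub hnull
  simp [cellMass, h0] at hpos

/-- There is a point of `K` where the maximum over `I` strictly dominates the one over `J`. -/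
lemma exists_gap_pos [Countable ι] (hz : Function.Injective z) (hI : I.Nonempty) (hJ : J.Nonempty)
    {i : ι} (hi : i ∈ I) (hiJ : i ∉ J) (hpos : 0 < cellMass K z ψ i) :
    ∃ x ∈ K, maxAff z ψ J hJ x < maxAff z ψ I hI x := by
  obtain ⟨x, hx, honly⟩ := exists_mem_cell_only hz hpos
  refine ⟨x, hx.1, ?_⟩
  obtain ⟨j, hj, hjeq⟩ := exists_eq_maxAff (z := z) (ψ := ψ) hJ x
  have hji : j ≠ i := fun h => hiJ (h ▸ hj)
  have h1 := le_maxAff (z := z) (ψ := ψ) hI hi x
  have h2 := hx.2 j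
  rw [hjeq]
  refine lt_of_lt_of_le (lt_of_le_of_ne h2 ?_) h1
  intro heq
  apply honly j hji
  refine ⟨hx.1, fun k => ?_⟩
  rw [heq]
  exact hx.2 k

/-- The transition layer `{0 < Δ < g}` has positive mass. -/
lemma layer_pos [Countable ι] (hKc : IsCompact K) (hKv : Convex ℝ K) (hKi : (interior K).Nonempty)
    (hz : Function.Injective z) (hI : I.Nonempty) (hJ : J.Nonempty)
    (hdisj : ∀ i ∈ I, i ∉ J) (hpos : ∀ i, 0 < cellMass K z ψ i) {g : ℝ} (hg : 0 < g) :
    0 < uniformProbOn K {x | x ∈ K ∧ 0 < maxAff z ψ I hI x - maxAff z ψ J hJ x ∧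
      maxAff z ψ I hI x - maxAff z ψ J hJ x < g} := by
  set Δ : EuclideanSpace ℝ (Fin d) → ℝ := fun x => maxAff z ψ I hI x - maxAff z ψ J hJ x with hΔ
  have hΔc : Continuous Δ := (continuous_maxAff hI).sub (continuous_maxAff hJ)
  obtain ⟨i, hi⟩ := hI
  obtain ⟨j, hj⟩ := hJ
  obtain ⟨xp, hxpK, hxp⟩ := exists_gap_pos (K := K) (ψ := ψ) hz ⟨i, hi⟩ ⟨j, hj⟩ hi (hdisj i hi) (hpos i)
  obtain ⟨xm, hxmK, hxm⟩ := exists_gap_pos (K := K) (ψ := ψ) hz ⟨j, hj⟩ ⟨i, hi⟩ hj
    (fun h => hdisj j h hj) (hpos j)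
  have hp : 0 < Δ xp := by simp only [hΔ]; linarith
  have hm : Δ xm < 0 := by simp only [hΔ]; linarith
  set c : ℝ := min (Δ xp) g / 2 with hc
  have hc0 : 0 < c := by rw [hc]; have := lt_min hp hg; linarith
  have hc1 : c < Δ xp := by
    rw [hc]; have := min_le_left (Δ xp) g; have := lt_min hp hg; linarith
  have hc2 : c < g := by
    rw [hc]; have := min_le_right (Δ xp) g; have := lt_min hp hg; linarith
  have hivt := hKv.isPreconnected.intermediate_value hxmK hxpK hΔc.continuousOn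
  obtain ⟨xs, hxsK, hxs⟩ := hivt ⟨by linarith, hc1.le⟩
  set O : Set (EuclideanSpace ℝ (Fin d)) := {x | 0 < Δ x ∧ Δ x < g} with hO
  have hOo : IsOpen O :=
    (isOpen_lt continuous_const hΔc).inter (isOpen_lt hΔc continuous_const)
  have hxsO : xs ∈ O := ⟨by rw [hxs]; exact hc0, by rw [hxs]; exact hc2⟩
  have hcl : xs ∈ closure (interior K) := by
    rw [hKv.closure_interior_eq_closure_of_nonempty_interior hKi]
    exact subset_closure hxsK
  obtain ⟨w, hwO, hwK⟩ := mem_closure_iff.mp hcl O hOo hxsO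
  have hopen : IsOpen (O ∩ interior K) := hOo.inter isOpen_interior
  have hvolpos : 0 < volume (O ∩ interior K) := hopen.measure_pos volume ⟨w, hwO, hwK⟩
  have hsub : O ∩ interior K ⊆ {x | x ∈ K ∧ 0 < Δ x ∧ Δ x < g} :=
    fun x hx => ⟨interior_subset hx.2, hx.1⟩
  refine lt_of_lt_of_le ?_ (measure_mono hsub)
  unfold uniformProbOn
  rw [Measure.smul_apply, Measure.restrict_apply hopen.measurableSet, smul_eq_mul]
  have hinter : O ∩ interior K ∩ K = O ∩ interior K := by
    apply inter_eq_left.mpr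
    exact fun x hx => interior_subset hx.2
  rw [hinter]
  exact ENNReal.mul_pos (ENNReal.inv_ne_zero.mpr hKc.measure_lt_top.ne) hvolpos.ne'

/-- The mass of the transition layer is controlled by the mass defect. -/
lemma layer_le [Countable ι] (hKc : IsCompact K) (hKi : (interior K).Nonempty)
    (hz : Function.Injective z) (hI : I.Nonempty) (hJ : J.Nonempty) (hIJ : ∀ j, j ∈ I ∨ j ∈ J)
    {g : ℝ} (hg : 0 < g) (hgap : ∀ i ∈ I, ∀ j ∈ J, g ≤ (ψ' i - ψ i) - (ψ' j - ψ j)) :
    (uniformProbOn K).real {x | x ∈ K ∧ 0 < maxAff z ψ I hI x - maxAff z ψ J hJ x ∧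
      maxAff z ψ I hI x - maxAff z ψ J hJ x < g} ≤
      ∑ i ∈ I, (cellMass K z ψ i - cellMass K z ψ' i) := by
  have hKm : MeasurableSet K := hKc.measurableSet
  haveI := uP_isProbabilityMeasure (uP_volume_ne_zero hKi) hKc.measure_lt_top.ne
  set ρ := uniformProbOn K with hρ
  set Δ : EuclideanSpace ℝ (Fin d) → ℝ := fun x => maxAff z ψ I hI x - maxAff z ψ J hJ x with hΔ
  have hΔc : Continuous Δ := (continuous_maxAff hI).sub (continuous_maxAff hJ)
  set U : Set (EuclideanSpace ℝ (Fin d)) := {x | x ∈ K ∧ 0 < Δ x ∧ Δ x < g} with hU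
  have hUm : MeasurableSet U := by
    have : U = K ∩ {x | 0 < Δ x ∧ Δ x < g} := rfl
    rw [this]
    exact hKm.inter
      ((isOpen_lt continuous_const hΔc).inter (isOpen_lt hΔc continuous_const)).measurableSet
  set P' : Set (EuclideanSpace ℝ (Fin d)) := ⋃ i ∈ I, cell K z ψ' i with hP'
  set P : Set (EuclideanSpace ℝ (Fin d)) := ⋃ i ∈ I, cell K z ψ i with hP
  have hP'Δ : ∀ x ∈ P', x ∈ K ∧ g ≤ Δ x := by
    intro x hx
    simp only [hP', mem_iUnion] at hx
    obtain ⟨i, hi, hxi⟩ := hx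
    exact ⟨hxi.1, le_gap_of_mem_cell hI hJ hgap hi hxi⟩
  have hdisj : Disjoint P' U := by
    rw [Set.disjoint_left]
    intro x hx hxU
    exact absurd hxU.2.2 (not_lt.mpr (hP'Δ x hx).2)
  have hsub : P' ∪ U ⊆ P := by
    rintro x (hx | hx)
    · obtain ⟨hxK, hxg⟩ := hP'Δ x hx
      obtain ⟨i, hi, hxi⟩ := exists_mem_cell_of_gap_pos hI hJ hIJ hxK (lt_of_lt_of_le hg hxg)
      exact mem_iUnion₂.2 ⟨i, hi, hxi⟩
    · obtain ⟨i, hi, hxi⟩ := exists_mem_cell_of_gap_pos hI hJ hIJ hx.1 hx.2.1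
      exact mem_iUnion₂.2 ⟨i, hi, hxi⟩
  have e1 : ρ.real P' = ∑ i ∈ I, cellMass K z ψ' i :=
    measureReal_biUnion_finset₀ (fun i _ j _ hij => aedisjoint_cell hz hij)
      (fun i _ => (measurableSet_cell hKm).nullMeasurableSet)
  have e2 : ρ.real P ≤ ∑ i ∈ I, cellMass K z ψ i := measureReal_biUnion_finset_le I _
  have e3 : ρ.real (P' ∪ U) = ρ.real P' + ρ.real U :=
    measureReal_union hdisj hUm (measure_ne_top _ _) (measure_ne_top _ _)
  have e4 : ρ.real (P' ∪ U) ≤ ρ.real P := measureReal_mono hsub (measure_ne_top _ _)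
  rw [Finset.sum_sub_distrib]
  linarith

end geom

section main

variable {d : ℕ} {ι : Type*} [Fintype ι] [Nonempty ι] {K : Set (EuclideanSpace ℝ (Fin d))}

/-- Oscillation form of the continuity of weights. -/
theorem weights_osc (hKc : IsCompact K) (hKv : Convex ℝ K) (hKi : (interior K).Nonempty)
    {z : ι → EuclideanSpace ℝ (Fin d)} (hz : Function.Injective z) (ψ : ι → ℝ)
    (hpos : ∀ i, 0 < cellMass K z ψ i) (γ : ℝ) (hγ : 0 < γ) :
    ∃ δ > 0, ∀ ψ' : ι → ℝ, (∀ i, |cellMass K z ψ' i - cellMass K z ψ i| ≤ δ) →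
      ∀ i j, (ψ' i - ψ i) - (ψ' j - ψ j) ≤ γ := by
  classical
  set N : ℕ := Fintype.card ι with hN
  have hNpos : 0 < (N : ℝ) := by
    have : 0 < N := Fintype.card_pos
    exact_mod_cast this
  set g : ℝ := γ / N with hg
  have hg0 : 0 < g := by positivity
  -- the masses of the layers
  set c : Finset ι → ℝ := fun I =>
    if h : I.Nonempty ∧ Iᶜ.Nonempty then
      (uniformProbOn K).real {x | x ∈ K ∧ 0 < maxAff z ψ I h.1 x - maxAff z ψ Iᶜ h.2 x ∧
        maxAff z ψ I h.1 x - maxAff z ψ Iᶜ h.2 x < g}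
    else 1 with hc
  haveI := uP_isProbabilityMeasure (uP_volume_ne_zero hKi) hKc.measure_lt_top.ne
  have hcpos : ∀ I, 0 < c I := by
    intro I
    simp only [hc]
    split_ifs with h
    · have := layer_pos hKc hKv hKi hz h.1 h.2 (fun i hi => by simpa using hi) hpos hg0
      exact ENNReal.toReal_pos this.ne' (measure_ne_top _ _)
    · exact one_pos
  obtain ⟨I₀, hI₀⟩ := Finite.exists_min c
  refine ⟨c I₀ / (2 * N), by have := hcpos I₀; positivity, ?_⟩
  intro ψ' hψ' i j
  have hosc := osc_le_of_no_gap (fun i => ψ' i - ψ i) g hg0 ?_ i j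
  · calc (ψ' i - ψ i) - (ψ' j - ψ j) ≤ N * g := hosc
      _ = γ := by rw [hg]; field_simp
  intro s hle hlt
  by_contra hcon
  push Not at hcon
  set I : Finset ι := Finset.univ.filter (fun i => s < ψ' i - ψ i) with hI
  have hIne : I.Nonempty := by
    obtain ⟨i, hi⟩ := hlt
    exact ⟨i, by simp [hI, hi]⟩
  have hIcne : Iᶜ.Nonempty := by
    obtain ⟨j, hj⟩ := hle
    refine ⟨j, ?_⟩
    simp only [hI, Finset.mem_compl, Finset.mem_filter, Finset.mem_univ, true_and, not_lt]
    exact hj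
  have hgap : ∀ i ∈ I, ∀ j ∈ Iᶜ, g ≤ (ψ' i - ψ i) - (ψ' j - ψ j) := by
    intro i hi j hj
    simp only [hI, Finset.mem_filter, Finset.mem_univ, true_and] at hi
    simp only [hI, Finset.mem_compl, Finset.mem_filter, Finset.mem_univ, true_and, not_lt] at hj
    have := hcon i hi
    linarith
  have hle' := layer_le (ψ := ψ) (ψ' := ψ') hKc hKi hz hIne hIcne
    (fun j => by by_cases h : j ∈ I <;> simp [h]) hg0 hgap
  have hcI : c I = (uniformProbOn K).real {x | x ∈ K ∧
      0 < maxAff z ψ I hIne x - maxAff z ψ Iᶜ hIcne x ∧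
        maxAff z ψ I hIne x - maxAff z ψ Iᶜ hIcne x < g} := by
    simp only [hc]
    rw [dif_pos ⟨hIne, hIcne⟩]
  rw [← hcI] at hle'
  have hsum : ∑ i ∈ I, (cellMass K z ψ i - cellMass K z ψ' i) ≤ N * (c I₀ / (2 * N)) := by
    calc ∑ i ∈ I, (cellMass K z ψ i - cellMass K z ψ' i)
        ≤ ∑ _i ∈ I, c I₀ / (2 * N) := by
          apply Finset.sum_le_sum
          intro i _
          have := (abs_le.mp (hψ' i)).1
          linarith
      _ = I.card * (c I₀ / (2 * N)) := by simp
      _ ≤ N * (c I₀ / (2 * N)) := by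
          apply mul_le_mul_of_nonneg_right _ (by have := hcpos I₀; positivity)
          exact_mod_cast Finset.card_le_univ I
  have h2 : (N : ℝ) * (c I₀ / (2 * N)) = c I₀ / 2 := by field_simp
  have h3 := hI₀ I
  have h4 := hcpos I₀
  linarith

/-- **(43-2)** continuity of the weights. -/
theorem weights_continuity (hKc : IsCompact K) (hKv : Convex ℝ K) (hKi : (interior K).Nonempty)
    {z : ι → EuclideanSpace ℝ (Fin d)} (hz : Function.Injective z) (ψ : ι → ℝ)
    (hpos : ∀ i, 0 < cellMass K z ψ i) (n : ι → ℝ) (hn : ∑ i, n i = 0) (ε : ℝ) (hε : 0 < ε) :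
    ∃ δ > 0, ∀ ψ' : ι → ℝ, (∀ i, |cellMass K z ψ' i - cellMass K z ψ i| ≤ δ) →
      |∑ i, n i * ψ' i - ∑ i, n i * ψ i| ≤ ε := by
  set A : ℝ := ∑ i, |n i| with hA
  have hA0 : 0 ≤ A := Finset.sum_nonneg (fun i _ => abs_nonneg _)
  obtain ⟨δ, hδ, h⟩ := weights_osc hKc hKv hKi hz ψ hpos (ε / (A + 1)) (by positivity)
  refine ⟨δ, hδ, fun ψ' hψ' => ?_⟩
  have hosc := h ψ' hψ'
  obtain ⟨j0⟩ := (inferInstance : Nonempty ι)
  have e1 : ∑ i, n i * ψ' i - ∑ i, n i * ψ i =
      ∑ i, n i * ((ψ' i - ψ i) - (ψ' j0 - ψ j0)) := by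
    have : ∑ i, n i * ((ψ' i - ψ i) - (ψ' j0 - ψ j0)) =
        ∑ i, n i * ψ' i - ∑ i, n i * ψ i - (∑ i, n i) * (ψ' j0 - ψ j0) := by
      rw [Finset.sum_mul, ← Finset.sum_sub_distrib, ← Finset.sum_sub_distrib]
      apply Finset.sum_congr rfl
      intro i _
      ring
    rw [this, hn, zero_mul, sub_zero]
  rw [e1]
  calc |∑ i, n i * ((ψ' i - ψ i) - (ψ' j0 - ψ j0))|
      ≤ ∑ i, |n i * ((ψ' i - ψ i) - (ψ' j0 - ψ j0))| := Finset.abs_sum_le_sum_abs _ _
    _ ≤ ∑ i, |n i| * (ε / (A + 1)) := by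
        apply Finset.sum_le_sum
        intro i _
        rw [abs_mul]
        apply mul_le_mul_of_nonneg_left _ (abs_nonneg _)
        rw [abs_le]
        have h1 := hosc i j0
        have h2 := hosc j0 i
        constructor <;> linarith
    _ = A * (ε / (A + 1)) := by rw [← Finset.sum_mul]
    _ ≤ ε := by
        rw [mul_div_assoc', div_le_iff₀ (by positivity)]
        nlinarith

end main

end Crest.Agent.S0109Aux
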